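import Crest.Agent.Lib.PolyTime.Api

/-!
# Row 287 (S0432): least element of a list for a key, in polynomial time (helper33)
-/

set_option autoImplicit false

namespace Crest.Agent.R287

open Crest.Agent.PolyT PEnc

/-- an element of `d :: l` with the least key -/
def amin {β : Type} (key : β → ℤ) (d : β) (l : List β) : β :=
  l.foldl (fun c x => if key x < key c then x else c) d

theorem amin_aux {β : Type} (key : β → ℤ) (l : List β) : ∀ d : β,
    (amin key d l = d ∨ amin key d l ∈ l) ∧ key (amin key d l) ≤ key d ∧
      ∀ x ∈ l, key (amin key d l) ≤ key x := by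
  induction l with
  | nil => intro d; simp [amin]
  | cons a l ih =>
    intro d
    have h := ih (if key a < key d then a else d)
    have e : amin key d (a :: l) = amin key (if key a < key d then a else d) l := rfl
    rw [e]
    obtain ⟨h1, h2, h3⟩ := h
    split_ifs at h1 h2 h3 ⊢ with hlt
    · refine ⟨?_, h2.trans hlt.le, ?_⟩
      · rcases h1 with h1 | h1
        · right; rw [h1]; exact List.mem_cons_self
        · right; exact List.mem_cons_of_mem _ h1
      · intro x hx
        rcases List.mem_cons.1 hx with rfl | hx
        · exact h2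
        · exact h3 x hx
    · refine ⟨?_, h2, ?_⟩
      · rcases h1 with h1 | h1
        · left; exact h1
        · right; exact List.mem_cons_of_mem _ h1
      · intro x hx
        rcases List.mem_cons.1 hx with rfl | hx
        · exact h2.trans (not_lt.1 hlt)
        · exact h3 x hx

theorem amin_mem {β : Type} (key : β → ℤ) (d : β) (l : List β) :
    amin key d l = d ∨ amin key d l ∈ l := (amin_aux key l d).1

theorem amin_mem_cons {β : Type} (key : β → ℤ) (d : β) (l : List β) :
    amin key d l ∈ d :: l := by
  rcases amin_mem key d l with h | h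
  · rw [h]; exact List.mem_cons_self
  · exact List.mem_cons_of_mem _ h

theorem amin_le_def {β : Type} (key : β → ℤ) (d : β) (l : List β) :
    key (amin key d l) ≤ key d := (amin_aux key l d).2.1

theorem amin_le {β : Type} (key : β → ℤ) (d : β) (l : List β) {x : β} (hx : x ∈ l) :
    key (amin key d l) ≤ key x := (amin_aux key l d).2.2 x hx

/-- minimum over a nonempty list, default irrelevant -/
def aminL {β : Type} (key : β → ℤ) (d : β) (l : List β) : β := amin key (l.headD d) l

theorem aminL_mem {β : Type} (key : β → ℤ) (d : β) {l : List β} (hl : l ≠ []) :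
    aminL key d l ∈ l := by
  cases l with
  | nil => exact absurd rfl hl
  | cons a l =>
    have h := amin_mem_cons key a (a :: l)
    unfold aminL
    rcases List.mem_cons.1 h with h | h
    · change amin key a (a :: l) ∈ a :: l
      rw [h]; exact List.mem_cons_self
    · exact h

theorem aminL_le {β : Type} (key : β → ℤ) (d : β) {l : List β} {x : β} (hx : x ∈ l) :
    key (aminL key d l) ≤ key x := amin_le key _ l hx

section pt

variable {α β : Type} [PEnc α] [PEnc β]

theorem sz_mem_le' {x : β} {l : List β} (h : x ∈ l) : sz x ≤ sz l := by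
  induction l with
  | nil => simp at h
  | cons a l ih =>
    rw [sz_cons]
    rcases List.mem_cons.1 h with rfl | h
    · omega
    · have := ih h; omega

theorem amin_pt {f : α → List β} {d : α → β} {key : α → β → ℤ} (hf : PT f) (hd : PT d)
    (hk : PT (fun p : α × β => key p.1 p.2)) : PT (fun a => amin (key a) (d a) (f a)) := by
  unfold amin
  refine PT.foldl_inv (l := f) (z := d)
    (s := fun a c x => if key a x < key a c then x else c) hf hd ?_
    (fun a => sz (d a) + sz (f a)) ((PT.pb_sz hd).add (PT.pb_sz hf))
    (fun a _ c => sz c ≤ sz (d a) + sz (f a)) (fun a => Nat.le_add_right _ _) ?_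
    (fun a i c _ h => h)
  · have h1 : PT (fun p : α × β × β => key p.1 p.2.2) :=
      PT.comp hk (PT.pair (PT.fst PT.id) (PT.snd (PT.snd PT.id)))
    have h2 : PT (fun p : α × β × β => key p.1 p.2.1) :=
      PT.comp hk (PT.pair (PT.fst PT.id) (PT.fst (PT.snd PT.id)))
    exact PT.ite (c := fun p : α × β × β => key p.1 p.2.2 < key p.1 p.2.1)
      (PT.intLt h1 h2) (PT.snd (PT.snd PT.id)) (PT.fst (PT.snd PT.id))
  · intro a i c x hx hc
    split_ifs with h
    · exact (sz_mem_le' (List.mem_of_getElem? hx)).trans (Nat.le_add_left _ _)
    · exact hc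

theorem aminL_pt {f : α → List β} {d : α → β} {key : α → β → ℤ} (hf : PT f) (hd : PT d)
    (hk : PT (fun p : α × β => key p.1 p.2)) : PT (fun a => aminL (key a) (d a) (f a)) := by
  unfold aminL
  exact amin_pt hf (PT.headD hf hd) hk

end pt

end Crest.Agent.R287
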