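import Crest.Agent.R287.Cover
import Crest.Agent.R287.ArgMin

/-!
# Row 287 (S0432): cheapest arcs and swaps between two rings, in polynomial time (helper33)

`S` strings, `σ` permutation list (the cover), `A B : List ℕ` the rings (lists of indices).
A link is named by its tail `l` (the link from `S l` to `S (σ l)`), its length is `glen S σ l`.
-/

set_option autoImplicit false

namespace Crest.Agent.R287

open Crest.Agent.PolyT PEnc

/-- length of the link `l → σ l` -/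
def glen (S : List (List ℕ)) (σ : List ℕ) (l : ℕ) : ℕ := ovm S l (stp σ l)

/-- all pairs -/
def pairsL (A B : List ℕ) : List (ℕ × ℕ) := A.flatMap fun l => B.map fun m => (l, m)

theorem mem_pairsL {A B : List ℕ} {p : ℕ × ℕ} : p ∈ pairsL A B ↔ p.1 ∈ A ∧ p.2 ∈ B := by
  unfold pairsL
  simp only [List.mem_flatMap, List.mem_map]
  constructor
  · rintro ⟨l, hl, m, hm, rfl⟩; exact ⟨hl, hm⟩
  · rintro ⟨h1, h2⟩; exact ⟨p.1, h1, p.2, h2, rfl⟩

theorem pairsL_ne_nil {A B : List ℕ} (hA : A ≠ []) (hB : B ≠ []) : pairsL A B ≠ [] := by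
  obtain ⟨a, ha⟩ := List.exists_mem_of_ne_nil A hA
  obtain ⟨b, hb⟩ := List.exists_mem_of_ne_nil B hB
  exact List.ne_nil_of_mem (mem_pairsL.2 ⟨ha, hb⟩ : (a, b) ∈ pairsL A B)

/-- doubled cost of the arc out of link `l` into link `m`: `|g_l| + |g_m| - 2 ov(s_l, t_m)` -/
def arcKey (S : List (List ℕ)) (σ : List ℕ) (p : ℕ × ℕ) : ℤ :=
  ((glen S σ p.1 + glen S σ p.2 : ℕ) : ℤ) - ((2 * ovm S p.1 (stp σ p.2) : ℕ) : ℤ)

/-- cost of the swap of the links `l` and `m`: `|g_l| + |g_m| - ov(s_l, t_m) - ov(s_m, t_l)` -/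
def swapKey (S : List (List ℕ)) (σ : List ℕ) (p : ℕ × ℕ) : ℤ :=
  ((glen S σ p.1 + glen S σ p.2 : ℕ) : ℤ) -
    ((ovm S p.1 (stp σ p.2) + ovm S p.2 (stp σ p.1) : ℕ) : ℤ)

/-- cheapest arc from ring `A` to ring `B` -/
def arcArg (S : List (List ℕ)) (σ A B : List ℕ) : ℕ × ℕ := aminL (arcKey S σ) (0, 0) (pairsL A B)

/-- cheapest swap of a link of `A` with a link of `B` -/
def swapArg (S : List (List ℕ)) (σ A B : List ℕ) : ℕ × ℕ := aminL (swapKey S σ) (0, 0) (pairsL A B)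

/-- lowest link of the ring `A` -/
def lowLink (S : List (List ℕ)) (σ A : List ℕ) : ℕ := aminL (fun l => (glen S σ l : ℤ)) 0 A

theorem arcArg_mem (S : List (List ℕ)) (σ : List ℕ) {A B : List ℕ} (hA : A ≠ []) (hB : B ≠ []) :
    (arcArg S σ A B).1 ∈ A ∧ (arcArg S σ A B).2 ∈ B :=
  mem_pairsL.1 (aminL_mem _ _ (pairsL_ne_nil hA hB))

theorem swapArg_mem (S : List (List ℕ)) (σ : List ℕ) {A B : List ℕ} (hA : A ≠ []) (hB : B ≠ []) :
    (swapArg S σ A B).1 ∈ A ∧ (swapArg S σ A B).2 ∈ B :=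
  mem_pairsL.1 (aminL_mem _ _ (pairsL_ne_nil hA hB))

theorem arcArg_le (S : List (List ℕ)) (σ : List ℕ) {A B : List ℕ} {l m : ℕ} (hl : l ∈ A)
    (hm : m ∈ B) : arcKey S σ (arcArg S σ A B) ≤ arcKey S σ (l, m) :=
  aminL_le (arcKey S σ) (0, 0) (mem_pairsL.2 ⟨hl, hm⟩ : (l, m) ∈ pairsL A B)

theorem swapArg_le (S : List (List ℕ)) (σ : List ℕ) {A B : List ℕ} {l m : ℕ} (hl : l ∈ A)
    (hm : m ∈ B) : swapKey S σ (swapArg S σ A B) ≤ swapKey S σ (l, m) :=
  aminL_le (swapKey S σ) (0, 0) (mem_pairsL.2 ⟨hl, hm⟩ : (l, m) ∈ pairsL A B)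

theorem lowLink_mem (S : List (List ℕ)) (σ : List ℕ) {A : List ℕ} (hA : A ≠ []) :
    lowLink S σ A ∈ A := aminL_mem _ _ hA

theorem lowLink_le (S : List (List ℕ)) (σ : List ℕ) {A : List ℕ} {l : ℕ} (hl : l ∈ A) :
    glen S σ (lowLink S σ A) ≤ glen S σ l := by
  have := aminL_le (fun l => (glen S σ l : ℤ)) 0 hl
  exact_mod_cast this

section pt

variable {α : Type} [PEnc α] {f : α → List (List ℕ)} {s A B : α → List ℕ} {i j : α → ℕ}

theorem stp_pt' (hs : PT s) (hi : PT i) : PT (fun a => stp (s a) (i a)) := by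
  unfold stp
  exact PT.listGetD hs hi (PT.const 0)

theorem glen_pt (hf : PT f) (hs : PT s) (hi : PT i) : PT (fun a => glen (f a) (s a) (i a)) := by
  unfold glen
  exact ovm_pt hf hi (stp_pt' hs hi)

theorem pairsL_pt (hA : PT A) (hB : PT B) : PT (fun a => pairsL (A a) (B a)) := by
  unfold pairsL
  refine PT.flatMap (f := fun a l => (B a).map fun m => (l, m)) hA ?_
  refine PT.map (f := fun (p : α × ℕ) m => (p.2, m)) (PT.comp hB (PT.fst PT.id)) ?_
  exact PT.pair (PT.snd (PT.fst PT.id)) (PT.snd PT.id)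

theorem arcKey_pt {p : α → ℕ × ℕ} (hf : PT f) (hs : PT s) (hp : PT p) :
    PT (fun a => arcKey (f a) (s a) (p a)) := by
  unfold arcKey
  exact PT.intSub (PT.natCast (PT.natAdd (glen_pt hf hs (PT.fst hp)) (glen_pt hf hs (PT.snd hp))))
    (PT.natCast (PT.natMul (PT.const 2) (ovm_pt hf (PT.fst hp) (stp_pt' hs (PT.snd hp)))))

theorem swapKey_pt {p : α → ℕ × ℕ} (hf : PT f) (hs : PT s) (hp : PT p) :
    PT (fun a => swapKey (f a) (s a) (p a)) := by
  unfold swapKey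
  exact PT.intSub (PT.natCast (PT.natAdd (glen_pt hf hs (PT.fst hp)) (glen_pt hf hs (PT.snd hp))))
    (PT.natCast (PT.natAdd (ovm_pt hf (PT.fst hp) (stp_pt' hs (PT.snd hp)))
      (ovm_pt hf (PT.snd hp) (stp_pt' hs (PT.fst hp)))))

theorem arcArg_pt (hf : PT f) (hs : PT s) (hA : PT A) (hB : PT B) :
    PT (fun a => arcArg (f a) (s a) (A a) (B a)) := by
  unfold arcArg
  exact aminL_pt (key := fun a => arcKey (f a) (s a)) (pairsL_pt hA hB) (PT.const (0, 0))
    (arcKey_pt (PT.comp hf (PT.fst PT.id)) (PT.comp hs (PT.fst PT.id)) (PT.snd PT.id))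

theorem swapArg_pt (hf : PT f) (hs : PT s) (hA : PT A) (hB : PT B) :
    PT (fun a => swapArg (f a) (s a) (A a) (B a)) := by
  unfold swapArg
  exact aminL_pt (key := fun a => swapKey (f a) (s a)) (pairsL_pt hA hB) (PT.const (0, 0))
    (swapKey_pt (PT.comp hf (PT.fst PT.id)) (PT.comp hs (PT.fst PT.id)) (PT.snd PT.id))

theorem lowLink_pt (hf : PT f) (hs : PT s) (hA : PT A) :
    PT (fun a => lowLink (f a) (s a) (A a)) := by
  unfold lowLink
  exact aminL_pt (key := fun a l => (glen (f a) (s a) l : ℤ)) hA (PT.const 0)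
    (PT.natCast (glen_pt (PT.comp hf (PT.fst PT.id)) (PT.comp hs (PT.fst PT.id)) (PT.snd PT.id)))

end pt

end Crest.Agent.R287
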