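import Crest.Agent.R287.AssignA
import Crest.Agent.Lib.PolyTime.Api

/-!
# Row 287: the minimum cost assignment is computed in polynomial time (helper45)

`Asg.assign R n A` is a permutation (as a list) of `0..n-1` of minimum cost for the matrix `A` as soon
as the cost of the identity is `< R` (`Asg.assign_opt`); `Asg.assign_pt`: it is a `PT` function when
`R` and `n` are polynomially bounded.
-/

set_option autoImplicit false

namespace Crest.Agent.R287.Asg

open Crest.Enc Crest.Agent.PolyT PEnc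

variable {α : Type} [PEnc α]

theorem sz_list_le {β : Type} [PEnc β] (l : List β) (n B : ℕ) (hl : l.length ≤ n)
    (h : ∀ x ∈ l, sz x ≤ B) : sz l ≤ n * (2 * B + 1) := by
  have h1 : sz l ≤ l.length * (2 * B + 1) := by
    clear hl
    induction l with
    | nil => simp
    | cons a l ih =>
      rw [sz_cons, List.length_cons]
      have h2 := h a (by simp)
      have h4 : (l.length + 1) * (2 * B + 1) = l.length * (2 * B + 1) + (2 * B + 1) := by ring
      have h3 := ih (fun x hx => h x (by simp [hx]))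
      omega
  exact h1.trans (Nat.mul_le_mul_right _ hl)

theorem sz_lt_le {x n : ℕ} (h : x < n) : sz x ≤ n := (sz_nat_le x).trans h.le

theorem ent_pt {A : α → List (List ℕ)} {i j : α → ℕ} (hA : PT A) (hi : PT i) (hj : PT j) :
    PT (fun a => ent (A a) (i a) (j a)) := by
  unfold ent
  exact PT.listGetD (PT.listGetD hA hi (PT.const [])) hj (PT.const 0)

theorem wq_pt {A : α → List (List ℕ)} {σ : α → List ℕ} {i j : α → ℕ} (hA : PT A) (hσ : PT σ)
    (hi : PT i) (hj : PT j) : PT (fun a => wq (A a) (σ a) (i a) (j a)) := by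
  unfold wq
  exact PT.intSub (PT.natCast (ent_pt hA hi (PT.listGetD hσ hj (PT.const 0))))
    (PT.natCast (ent_pt hA hi (PT.listGetD hσ hi (PT.const 0))))

theorem tg_pt {T : α → List (List (ℤ × List ℕ))} {i j : α → ℕ} (hT : PT T) (hi : PT i)
    (hj : PT j) : PT (fun a => tg (T a) (i a) (j a)) := by
  unfold tg
  exact PT.listGetD (PT.listGetD hT hi (PT.const [])) hj (PT.const (0, []))

theorem cand_pt {A : α → List (List ℕ)} {σ : α → List ℕ} {T : α → List (List (ℤ × List ℕ))}
    {i j m : α → ℕ} (hA : PT A) (hσ : PT σ) (hT : PT T) (hi : PT i) (hj : PT j) (hm : PT m) :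
    PT (fun a => cand (A a) (σ a) (T a) (i a) (j a) (m a)) := by
  unfold cand
  exact PT.pair (PT.intAdd (PT.fst (tg_pt hT hi hm)) (wq_pt hA hσ hm hj))
    (PT.append (PT.snd (tg_pt hT hi hm)) (PT.cons hm (PT.const [])))

theorem amin_pt {d : α → ℤ × List ℕ} {l : α → List (ℤ × List ℕ)} (hd : PT d) (hl : PT l) :
    PT (fun a => amin (d a) (l a)) := by
  unfold amin
  refine PT.foldl_inv (l := l) (z := d) (s := fun _ c x => if x.1 < c.1 then x else c) hl hd ?_
    (fun a => sz (d a) + sz (l a)) ((PT.pb_sz hd).add (PT.pb_sz hl))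
    (fun a _ c => sz c ≤ sz (d a) + sz (l a)) (fun a => Nat.le_add_right _ _) ?_
    (fun a i c _ h => h)
  · refine PT.ite (c := fun p : α × (ℤ × List ℕ) × (ℤ × List ℕ) => p.2.2.1 < p.2.1.1) ?_ ?_ ?_
    · exact PT.intLt (PT.fst (PT.snd (PT.snd PT.id))) (PT.fst (PT.fst (PT.snd PT.id)))
    · exact PT.snd (PT.snd PT.id)
    · exact PT.fst (PT.snd PT.id)
  · intro a i c x hx hc
    split_ifs
    · have := sz_le_of_mem (List.mem_of_getElem? hx)
      omega
    · exact hc

theorem stepT_pt {A : α → List (List ℕ)} {σ : α → List ℕ} {n : α → ℕ}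
    {T : α → List (List (ℤ × List ℕ))} (hA : PT A) (hσ : PT σ) (hn : PT n) (hnb : PB n)
    (hT : PT T) : PT (fun a => stepT (A a) (σ a) (n a) (T a)) := by
  unfold stepT
  refine PT.mapRange (n := n) (f := fun a i => (List.range (n a)).map fun j =>
    amin (cand (A a) (σ a) (T a) i j 0) ((List.range (n a)).map fun m =>
      cand (A a) (σ a) (T a) i j m)) hn hnb ?_
  have f1 : PT (fun p : α × Un => p.1) := PT.fst PT.id
  refine PT.mapRange (n := fun p : α × Un => n p.1) (f := fun p j =>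
    amin (cand (A p.1) (σ p.1) (T p.1) p.2.val j 0) ((List.range (n p.1)).map fun m =>
      cand (A p.1) (σ p.1) (T p.1) p.2.val j m)) (PT.comp hn f1) (PB.comp hnb f1) ?_
  have f2 : PT (fun p : (α × Un) × Un => p.1.1) := PT.fst (PT.fst PT.id)
  have g2 : PT (fun p : (α × Un) × Un => p.1.2.val) := PT.unVal (PT.snd (PT.fst PT.id))
  have h2 : PT (fun p : (α × Un) × Un => p.2.val) := PT.unVal (PT.snd PT.id)
  refine amin_pt (d := fun p : (α × Un) × Un => cand (A p.1.1) (σ p.1.1) (T p.1.1) p.1.2.val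
    p.2.val 0) ?_ ?_
  · exact cand_pt (PT.comp hA f2) (PT.comp hσ f2) (PT.comp hT f2) g2 h2 (PT.const 0)
  · refine PT.mapRange (n := fun p : (α × Un) × Un => n p.1.1) (f := fun p m =>
      cand (A p.1.1) (σ p.1.1) (T p.1.1) p.1.2.val p.2.val m) (PT.comp hn f2) (PB.comp hnb f2) ?_
    have f3 : PT (fun p : ((α × Un) × Un) × Un => p.1.1.1) := PT.fst (PT.fst (PT.fst PT.id))
    exact cand_pt (PT.comp hA f3) (PT.comp hσ f3) (PT.comp hT f3)
      (PT.unVal (PT.snd (PT.fst (PT.fst PT.id)))) (PT.unVal (PT.snd (PT.fst PT.id)))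
      (PT.unVal (PT.snd PT.id))

theorem initT_pt {A : α → List (List ℕ)} {σ : α → List ℕ} {n : α → ℕ}
    (hA : PT A) (hσ : PT σ) (hn : PT n) (hnb : PB n) :
    PT (fun a => initT (A a) (σ a) (n a)) := by
  unfold initT
  refine PT.mapRange (n := n) (f := fun a i => (List.range (n a)).map fun j =>
    (wq (A a) (σ a) i j, [i])) hn hnb ?_
  have f1 : PT (fun p : α × Un => p.1) := PT.fst PT.id
  refine PT.mapRange (n := fun p : α × Un => n p.1) (f := fun p j =>
    (wq (A p.1) (σ p.1) p.2.val j, [p.2.val])) (PT.comp hn f1) (PB.comp hnb f1) ?_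
  have f2 : PT (fun p : (α × Un) × Un => p.1.1) := PT.fst (PT.fst PT.id)
  have g2 : PT (fun p : (α × Un) × Un => p.1.2.val) := PT.unVal (PT.snd (PT.fst PT.id))
  have h2 : PT (fun p : (α × Un) × Un => p.2.val) := PT.unVal (PT.snd PT.id)
  exact PT.pair (wq_pt (PT.comp hA f2) (PT.comp hσ f2) g2 h2) (PT.cons g2 (PT.const []))

theorem negs_pt {n : α → ℕ} {T : α → List (List (ℤ × List ℕ))} (hn : PT n) (hnb : PB n)
    (hT : PT T) : PT (fun a => negs (n a) (T a)) := by
  unfold negs
  refine PT.map (l := fun a => (List.range (n a)).filter fun i => decide ((tg (T a) i i).1 < 0))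
    (f := fun a i => (tg (T a) i i).2) ?_ ?_
  · refine PT.filterRange (n := n) (f := fun a i => decide ((tg (T a) i i).1 < 0)) hn hnb ?_
    exact PT.intLt (PT.fst (tg_pt (PT.comp hT (PT.fst PT.id)) (PT.unVal (PT.snd PT.id))
      (PT.unVal (PT.snd PT.id)))) (PT.const 0)
  · exact PT.snd (tg_pt (PT.comp hT (PT.fst PT.id)) (PT.snd PT.id) (PT.snd PT.id))

/-! ### sizes -/

/-- small entry -/
def GE (s n k : ℕ) (e : ℤ × List ℕ) : Prop :=
  e.1.natAbs < 2 ^ (k + s) ∧ e.2.length ≤ k ∧ ∀ x ∈ e.2, x < n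

/-- small table -/
def GT (s n k : ℕ) (T : List (List (ℤ × List ℕ))) : Prop :=
  T.length ≤ n ∧ ∀ r ∈ T, r.length ≤ n ∧ ∀ e ∈ r, GE s n k e

theorem GE_zero (s n k : ℕ) : GE s n k (0, []) := ⟨by simp, by simp, by simp⟩

theorem getD_mem_or {β : Type} (l : List β) (i : ℕ) (d : β) : l.getD i d = d ∨ l.getD i d ∈ l := by
  rw [List.getD_eq_getElem?_getD]
  cases h : l[i]? with
  | none => left; rfl
  | some x => right; exact List.mem_of_getElem? h

theorem GT_tg {s n k : ℕ} {T : List (List (ℤ × List ℕ))} (h : GT s n k T) (i j : ℕ) :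
    GE s n k (tg T i j) := by
  unfold tg
  rcases getD_mem_or T i [] with h1 | h1
  · rw [h1]; exact GE_zero s n k
  · rcases getD_mem_or (T.getD i []) j (0, []) with h2 | h2
    · rw [h2]; exact GE_zero s n k
    · exact (h.2 _ h1).2 _ h2

theorem ent_lt (A : List (List ℕ)) (i j : ℕ) : ent A i j < 2 ^ sz A := by
  unfold ent
  rcases getD_mem_or (A.getD i []) j 0 with h2 | h2
  · rw [h2]; positivity
  · rcases getD_mem_or A i [] with h1 | h1
    · rw [h1] at h2; simp at h2
    · refine lt_of_lt_of_le (lt_two_pow_sz _) (Nat.pow_le_pow_right (by norm_num) ?_)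
      exact (sz_le_of_mem h2).trans (sz_le_of_mem h1)

theorem wq_lt (A : List (List ℕ)) (σ : List ℕ) (i j : ℕ) : (wq A σ i j).natAbs < 2 ^ sz A := by
  unfold wq
  have h1 := ent_lt A i (σ.getD j 0)
  have h2 := ent_lt A i (σ.getD i 0)
  omega

theorem GE_cand {A : List (List ℕ)} {σ : List ℕ} {n k : ℕ} {T : List (List (ℤ × List ℕ))}
    (h : GT (sz A) n k T) (i j m : ℕ) (hm : m < n) : GE (sz A) n (k + 1) (cand A σ T i j m) := by
  obtain ⟨h1, h2, h3⟩ := GT_tg h i m
  have h4 := wq_lt A σ m j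
  unfold cand
  refine ⟨?_, by simpa using h2, ?_⟩
  · simp only
    have h5 : 2 ^ (k + 1 + sz A) = 2 ^ (k + sz A) + 2 ^ (k + sz A) := by
      rw [show k + 1 + sz A = (k + sz A) + 1 by ring, pow_succ]; ring
    have h6 : 2 ^ sz A ≤ 2 ^ (k + sz A) := Nat.pow_le_pow_right (by norm_num) (by omega)
    have h7 := Int.natAbs_add_le (tg T i m).1 (wq A σ m j)
    omega
  · intro x hx
    rcases List.mem_append.1 hx with hx | hx
    · exact h3 x hx
    · rw [List.mem_singleton.1 hx]; exact hm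

theorem GT_step {A : List (List ℕ)} {σ : List ℕ} {n k : ℕ} {T : List (List (ℤ × List ℕ))}
    (h : GT (sz A) n k T) : GT (sz A) n (k + 1) (stepT A σ n T) := by
  unfold stepT
  refine ⟨by simp, ?_⟩
  intro r hr
  obtain ⟨i, hi, rfl⟩ := List.mem_map.1 hr
  refine ⟨by simp, ?_⟩
  intro e he
  obtain ⟨j, hj, rfl⟩ := List.mem_map.1 he
  have hin := List.mem_range.1 hi
  rcases amin_mem ((List.range n).map fun m => cand A σ T i j m) (cand A σ T i j 0) with h1 | h1
  · rw [h1]; exact GE_cand h i j 0 (by omega)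
  · obtain ⟨m, hm, e⟩ := List.mem_map.1 h1
    rw [← e]; exact GE_cand h i j m (List.mem_range.1 hm)

theorem GT_init (A : List (List ℕ)) (σ : List ℕ) (n : ℕ) : GT (sz A) n 1 (initT A σ n) := by
  unfold initT
  refine ⟨by simp, ?_⟩
  intro r hr
  obtain ⟨i, hi, rfl⟩ := List.mem_map.1 hr
  refine ⟨by simp, ?_⟩
  intro e he
  obtain ⟨j, hj, rfl⟩ := List.mem_map.1 he
  refine ⟨?_, by simp, ?_⟩
  · have h1 := wq_lt A σ i j
    have h6 : 2 ^ sz A ≤ 2 ^ (1 + sz A) := Nat.pow_le_pow_right (by norm_num) (by omega)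
    simp only
    omega
  · intro x hx
    rw [List.mem_singleton.1 hx]
    exact List.mem_range.1 hi

theorem sz_path_le {n k : ℕ} {p : List ℕ} (h1 : p.length ≤ k) (h2 : ∀ x ∈ p, x < n) :
    sz p ≤ k * (2 * n + 1) :=
  sz_list_le p k n h1 (fun x hx => sz_lt_le (h2 x hx))

theorem GE_sz {s n k : ℕ} {e : ℤ × List ℕ} (h : GE s n k e) :
    sz e ≤ 2 * (k + s + 1) + 1 + k * (2 * n + 1) := by
  obtain ⟨h1, h2, h3⟩ := h
  rw [sz_prod, sz_int]
  have h4 : sz e.1.natAbs ≤ k + s := sz_nat_le_iff.2 h1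
  have h5 := sz_path_le h2 h3
  omega

theorem GT_sz {s n k : ℕ} {T : List (List (ℤ × List ℕ))} (h : GT s n k T) :
    sz T ≤ n * (2 * (n * (2 * (2 * (k + s + 1) + 1 + k * (2 * n + 1)) + 1)) + 1) := by
  refine sz_list_le T n _ h.1 (fun r hr => ?_)
  obtain ⟨h1, h2⟩ := h.2 r hr
  exact sz_list_le r n _ h1 (fun e he => GE_sz (h2 e he))

theorem negs_sz {s n k : ℕ} {T : List (List (ℤ × List ℕ))} (h : GT s n k T) :
    sz (negs n T) ≤ n * (2 * (k * (2 * n + 1)) + 1) := by
  refine sz_list_le _ n _ ?_ (fun p hp => ?_)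
  · unfold negs
    rw [List.length_map]
    exact (List.length_filter_le _ _).trans (by simp)
  · unfold negs at hp
    obtain ⟨i, _, rfl⟩ := List.mem_map.1 hp
    obtain ⟨_, h2, h3⟩ := GT_tg h i i
    exact sz_path_le h2 h3

theorem lstep_small (A : List (List ℕ)) (σ : List ℕ) (n N k : ℕ) (hk : k ≤ N) :
    let s := (lstep A σ n)^[k] ([], initT A σ n)
    sz s.1 ≤ n * (2 * ((N + 1) * (2 * n + 1)) + 1) ∧
    ∃ j ≤ k, GT (sz A) n (j + 1) s.2 := by
  induction k with
  | zero => exact ⟨by simp, 0, le_rfl, GT_init A σ n⟩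
  | succ k ih =>
    simp only [Function.iterate_succ_apply']
    have ih := ih (by omega)
    simp only at ih
    generalize (lstep A σ n)^[k] ([], initT A σ n) = s at ih
    obtain ⟨h1, j, hj, h2⟩ := ih
    unfold lstep
    split_ifs
    · refine ⟨?_, j + 1, by omega, GT_step h2⟩
      refine (negs_sz h2).trans ?_
      have h3 : (j + 1) * (2 * n + 1) ≤ (N + 1) * (2 * n + 1) :=
        Nat.mul_le_mul_right _ (by omega)
      exact Nat.mul_le_mul_left _ (by omega)
    · exact ⟨h1, j, by omega, h2⟩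

theorem findneg_pt {A : α → List (List ℕ)} {σ : α → List ℕ} {n : α → ℕ}
    (hA : PT A) (hσ : PT σ) (hn : PT n) (hnb : PB n) :
    PT (fun a => findneg (A a) (σ a) (n a)) := by
  unfold findneg
  refine PT.headD (PT.fst ?_) (PT.const [])
  set E : α → ℕ := fun a => 2 * (n a + 1 + sz (A a) + 1) + 1 + (n a + 1) * (2 * n a + 1) with hE
  have hEb : PB E := by
    refine PB.add (PB.add (PB.mul (PB.const 2) (PB.add (PB.add (PB.add hnb (PB.const 1))
      (PT.pb_sz hA)) (PB.const 1))) (PB.const 1)) ?_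
    exact PB.mul (PB.add hnb (PB.const 1)) (PB.add (PB.mul (PB.const 2) hnb) (PB.const 1))
  set B : α → ℕ := fun a => 2 * (n a * (2 * ((n a + 1) * (2 * n a + 1)) + 1)) + 1 +
    n a * (2 * (n a * (2 * E a + 1)) + 1) with hB
  have hBb : PB B := by
    refine PB.add (PB.add (PB.mul (PB.const 2) ?_) (PB.const 1)) ?_
    · exact PB.mul hnb (PB.add (PB.mul (PB.const 2) (PB.mul (PB.add hnb (PB.const 1))
        (PB.add (PB.mul (PB.const 2) hnb) (PB.const 1)))) (PB.const 1))
    · exact PB.mul hnb (PB.add (PB.mul (PB.const 2) (PB.mul hnb (PB.add (PB.mul (PB.const 2) hEb)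
        (PB.const 1)))) (PB.const 1))
  refine PT.iterate (n := n) (z := fun a => (([] : List (List ℕ)), initT (A a) (σ a) (n a)))
    (s := fun a c => lstep (A a) (σ a) (n a) c) hn hnb
    (PT.pair (PT.const []) (initT_pt hA hσ hn hnb)) ?_ B hBb ?_
  · unfold lstep
    have f1 : PT (fun p : α × List (List ℕ) × List (List (ℤ × List ℕ)) => p.1) := PT.fst PT.id
    have f2 : PT (fun p : α × List (List ℕ) × List (List (ℤ × List ℕ)) => p.2.2) :=
      PT.snd (PT.snd PT.id)
    refine PT.ite (c := fun p : α × List (List ℕ) × List (List (ℤ × List ℕ)) =>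
      p.2.1.isEmpty = true) ?_ ?_ ?_
    · exact PT.eq (PT.isEmpty (PT.fst (PT.snd PT.id))) (PT.const true)
    · exact PT.pair (negs_pt (PT.comp hn f1) (PB.comp hnb f1) f2)
        (stepT_pt (PT.comp hA f1) (PT.comp hσ f1) (PT.comp hn f1) (PB.comp hnb f1) f2)
    · exact PT.snd PT.id
  · intro a i hi
    obtain ⟨h1, j, hj, h2⟩ := lstep_small (A a) (σ a) (n a) (n a) i hi
    have e : (fun c => lstep (A a) (σ a) (n a) c) = lstep (A a) (σ a) (n a) := rfl
    simp only [e]
    rw [sz_prod]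
    have h3 := GT_sz h2
    have h4 : 2 * (j + 1 + sz (A a) + 1) + 1 + (j + 1) * (2 * n a + 1) ≤ E a := by
      rw [hE]
      have h5 : (j + 1) * (2 * n a + 1) ≤ (n a + 1) * (2 * n a + 1) :=
        Nat.mul_le_mul_right _ (by omega)
      simp only
      omega
    have h6 : n a * (2 * (n a * (2 * (2 * (j + 1 + sz (A a) + 1) + 1 +
        (j + 1) * (2 * n a + 1)) + 1)) + 1) ≤ n a * (2 * (n a * (2 * E a + 1)) + 1) := by
      gcongr
    rw [hB]
    simp only
    omega

theorem nx_pt {p : α → List ℕ} {i : α → ℕ} (hp : PT p) (hi : PT i) :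
    PT (fun a => nx (p a) (i a)) := by
  unfold nx
  have hl : PT (fun a => (p a).zip ((p a).tail ++ [(p a).headD 0])) :=
    PT.zip hp (PT.append (PT.tail hp) (PT.cons (PT.headD hp (PT.const 0)) (PT.const [])))
  refine PT.foldl_inv (l := fun a => (p a).zip ((p a).tail ++ [(p a).headD 0])) (z := i)
    (s := fun a c q => if q.1 = i a then q.2 else c) hl hi ?_
    (fun a => sz (i a) + sz ((p a).zip ((p a).tail ++ [(p a).headD 0])))
    ((PT.pb_sz hi).add (PT.pb_sz hl))
    (fun a _ c => sz c ≤ sz (i a) + sz ((p a).zip ((p a).tail ++ [(p a).headD 0])))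
    (fun a => Nat.le_add_right _ _) ?_ (fun a i c _ h => h)
  · refine PT.ite (c := fun q : α × ℕ × ℕ × ℕ => q.2.2.1 = i q.1) ?_ ?_ ?_
    · exact PT.eq (PT.fst (PT.snd (PT.snd PT.id))) (PT.comp hi (PT.fst PT.id))
    · exact PT.snd (PT.snd (PT.snd PT.id))
    · exact PT.fst (PT.snd PT.id)
  · intro a k c x hx hc
    split_ifs
    · have h1 := sz_le_of_mem (List.mem_of_getElem? hx)
      have h2 := sz_prod x
      omega
    · exact hc

theorem upd_pt {n : α → ℕ} {σ p : α → List ℕ} (hn : PT n) (hnb : PB n) (hσ : PT σ) (hp : PT p) :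
    PT (fun a => upd (n a) (σ a) (p a)) := by
  unfold upd
  refine PT.mapRange (n := n) (f := fun a i => (σ a).getD (nx (p a) i) 0) hn hnb ?_
  have f1 : PT (fun p : α × Un => p.1) := PT.fst PT.id
  exact PT.listGetD (PT.comp hσ f1) (nx_pt (PT.comp hp f1) (PT.unVal (PT.snd PT.id))) (PT.const 0)

/-- **polynomial time** -/
theorem assign_pt {A : α → List (List ℕ)} {n R : α → ℕ} (hA : PT A) (hn : PT n) (hnb : PB n)
    (hR : PT R) (hRb : PB R) : PT (fun a => assign (R a) (n a) (A a)) := by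
  unfold assign
  refine PT.iterate (n := R) (z := fun a => List.range (n a))
    (s := fun a σ => improve (A a) (n a) σ) hR hRb (PT.range hn hnb) ?_
    (fun a => n a * (2 * n a + 1)) (PB.mul hnb (PB.add (PB.mul (PB.const 2) hnb) (PB.const 1))) ?_
  · unfold improve
    have f1 : PT (fun p : α × List ℕ => p.1) := PT.fst PT.id
    exact upd_pt (PT.comp hn f1) (PB.comp hnb f1) (PT.snd PT.id)
      (findneg_pt (PT.comp hA f1) (PT.snd PT.id) (PT.comp hn f1) (PB.comp hnb f1))
  · intro a i _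
    have h1 := assign_isP i (n a) (A a)
    unfold assign at h1
    have e : (fun σ => improve (A a) (n a) σ) = improve (A a) (n a) := rfl
    simp only [e]
    refine sz_path_le h1.1.le ?_
    intro x hx
    obtain ⟨k, hk, rfl⟩ := List.mem_iff_getElem.1 hx
    have h2 := h1.2.1 k (by rw [← h1.1]; exact hk)
    rwa [List.getD_eq_getElem?_getD, List.getElem?_eq_getElem hk, Option.getD_some] at h2

end Crest.Agent.R287.Asg
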