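import Mathlib

/-!
# Row 287: minimum cost assignment by cancelling negative closed walks (mathematics) (helper45)
-/

set_option autoImplicit false

namespace Crest.Agent.R287.Asg

/-- entry of a cost matrix -/
def ent (A : List (List ℕ)) (i j : ℕ) : ℕ := (A.getD i []).getD j 0

/-- change of the cost of row `i` when it takes the column of row `j` -/
def wq (A : List (List ℕ)) (σ : List ℕ) (i j : ℕ) : ℤ :=
  (ent A i (σ.getD j 0) : ℤ) - (ent A i (σ.getD i 0) : ℤ)

/-- weight of a walk with the vertices `p` followed by `j` -/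
def wt (W : ℕ → ℕ → ℤ) : List ℕ → ℕ → ℤ
  | [], _ => 0
  | i :: p, j => W i (p.headD j) + wt W p j

theorem wt_append (W : ℕ → ℕ → ℤ) (p q : List ℕ) (j : ℕ) :
    wt W (p ++ q) j = wt W p (q.headD j) + wt W q j := by
  induction p with
  | nil => simp [wt]
  | cons i p ih =>
    have h : (p ++ q).headD j = p.headD (q.headD j) := by cases p <;> simp
    simp only [List.cons_append, wt, ih, h]
    ring

/-- weight of a closed walk -/
def CW (W : ℕ → ℕ → ℤ) (p : List ℕ) : ℤ := wt W p (p.headD 0)

theorem dup_split : ∀ p : List ℕ, ¬ p.Nodup → ∃ a x b c, p = a ++ x :: (b ++ x :: c) := by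
  intro p
  induction p with
  | nil => intro h; simp at h
  | cons y p ih =>
    intro h
    rw [List.nodup_cons, not_and_or, not_not] at h
    rcases h with h | h
    · obtain ⟨b, c, hbc⟩ := List.append_of_mem h
      exact ⟨[], y, b, c, by rw [hbc]; rfl⟩
    · obtain ⟨a, x, b, c, hp⟩ := ih h
      exact ⟨y :: a, x, b, c, by rw [hp]; rfl⟩

theorem cw_split (W : ℕ → ℕ → ℤ) (a : List ℕ) (x : ℕ) (b c : List ℕ) :
    CW W (a ++ x :: (b ++ x :: c)) = CW W (x :: b) + CW W (a ++ x :: c) := by
  have e : a ++ x :: (b ++ x :: c) = a ++ ((x :: b) ++ (x :: c)) := by simp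
  have h1 : (a ++ x :: (b ++ x :: c)).headD 0 = a.headD x := by cases a <;> simp
  have h2 : (a ++ x :: c).headD 0 = a.headD x := by cases a <;> simp
  unfold CW
  rw [h1, h2, e, wt_append, wt_append, wt_append]
  simp only [List.headD_cons, List.cons_append]
  ring

theorem nonneg_all (W : ℕ → ℕ → ℤ) (n : ℕ)
    (h : ∀ p : List ℕ, p ≠ [] → p.length ≤ n → (∀ i ∈ p, i < n) → 0 ≤ CW W p) :
    ∀ (N : ℕ) (p : List ℕ), p.length ≤ N → p ≠ [] → (∀ i ∈ p, i < n) → 0 ≤ CW W p := by
  intro N
  induction N with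
  | zero =>
    intro p hp hne _
    exact absurd (List.length_eq_zero_iff.1 (Nat.le_zero.1 hp)) hne
  | succ N ih =>
    intro p hp hne hlt
    by_cases hnd : p.Nodup
    · refine h p hne ?_ hlt
      have h1 : p.toFinset ⊆ Finset.range n := by
        intro i hi
        exact Finset.mem_range.2 (hlt i (List.mem_toFinset.1 hi))
      have h2 := Finset.card_le_card h1
      rwa [List.toFinset_card_of_nodup hnd, Finset.card_range] at h2
    · obtain ⟨a, x, b, c, e⟩ := dup_split p hnd
      subst e
      simp only [List.length_append, List.length_cons] at hp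
      rw [cw_split]
      have h1 := ih (x :: b) (by simp only [List.length_cons]; omega) (by simp) (by
        intro i hi; apply hlt; simp only [List.mem_cons, List.mem_append] at hi ⊢; tauto)
      have h2 := ih (a ++ x :: c) (by simp only [List.length_append, List.length_cons]; omega)
        (by simp) (by
        intro i hi; apply hlt; simp only [List.mem_cons, List.mem_append] at hi ⊢; tauto)
      omega

theorem min_nodup (W : ℕ → ℕ → ℤ) (n : ℕ) (p : List ℕ)
    (h : ∀ q : List ℕ, q ≠ [] → q.length < p.length → (∀ i ∈ q, i < n) → 0 ≤ CW W q)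
    (hp : CW W p < 0) (hlt : ∀ i ∈ p, i < n) : p.Nodup := by
  by_contra hnd
  obtain ⟨a, x, b, c, e⟩ := dup_split p hnd
  subst e
  rw [cw_split] at hp
  have h1 := h (x :: b) (by simp)
    (by simp only [List.length_append, List.length_cons]; omega) (by
    intro i hi; apply hlt; simp only [List.mem_cons, List.mem_append] at hi ⊢; tauto)
  have h2 := h (a ++ x :: c) (by simp)
    (by simp only [List.length_append, List.length_cons]; omega) (by
    intro i hi; apply hlt; simp only [List.mem_cons, List.mem_append] at hi ⊢; tauto)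
  omega

theorem wt_range (W : ℕ → ℕ → ℤ) (f : ℕ → ℕ) (L : ℕ) :
    wt W ((List.range L).map f) (f L) = ∑ t ∈ Finset.range L, W (f t) (f (t + 1)) := by
  induction L with
  | zero => simp [wt]
  | succ L ih =>
    rw [List.range_succ, List.map_append, wt_append, Finset.sum_range_succ]
    simp only [List.map_cons, List.map_nil, List.headD_cons, wt, List.headD_nil, add_zero]
    rw [ih]

/-- no negative closed walk: every permutation has non-negative weight -/
theorem perm_nonneg (W : ℕ → ℕ → ℤ) (n : ℕ)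
    (h : ∀ p : List ℕ, p ≠ [] → (∀ i ∈ p, i < n) → 0 ≤ CW W p) (π : Equiv.Perm (Fin n)) :
    0 ≤ ∑ i : Fin n, W i (π i) := by
  have hL : 0 < orderOf π := orderOf_pos π
  set L := orderOf π with hLdef
  have key : ∀ i : Fin n, 0 ≤ ∑ t ∈ Finset.range L,
      W (((π ^ t) i : Fin n) : ℕ) (((π ^ (t + 1)) i : Fin n) : ℕ) := by
    intro i
    have h1 := wt_range W (fun t => (((π ^ t) i : Fin n) : ℕ)) L
    rw [← h1]
    have h2 := h ((List.range L).map (fun t => (((π ^ t) i : Fin n) : ℕ))) (by
      simp only [ne_eq, List.map_eq_nil_iff, List.range_eq_nil]; omega) (by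
      intro x hx
      obtain ⟨t, _, rfl⟩ := List.mem_map.1 hx
      exact Fin.is_lt _)
    unfold CW at h2
    have h3 : ((List.range L).map (fun t => (((π ^ t) i : Fin n) : ℕ))).headD 0 =
        (((π ^ L) i : Fin n) : ℕ) := by
      rw [hLdef, pow_orderOf_eq_one, ← hLdef]
      obtain ⟨M, hM⟩ : ∃ M, L = M + 1 := ⟨L - 1, by omega⟩
      rw [hM, List.range_succ_eq_map]
      simp
    rwa [h3] at h2
  have h4 : (0 : ℤ) ≤ ∑ i : Fin n, ∑ t ∈ Finset.range L,
      W (((π ^ t) i : Fin n) : ℕ) (((π ^ (t + 1)) i : Fin n) : ℕ) :=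
    Finset.sum_nonneg (fun i _ => key i)
  rw [Finset.sum_comm] at h4
  have h5 : ∀ t ∈ Finset.range L, ∑ i : Fin n,
      W (((π ^ t) i : Fin n) : ℕ) (((π ^ (t + 1)) i : Fin n) : ℕ) = ∑ i : Fin n, W i (π i) := by
    intro t _
    rw [← Equiv.sum_comp (π ^ t) (fun i : Fin n => W i (π i))]
    refine Finset.sum_congr rfl (fun i _ => ?_)
    rw [pow_succ', Equiv.Perm.mul_apply]
  rw [Finset.sum_congr rfl h5, Finset.sum_const, Finset.card_range, nsmul_eq_mul] at h4
  have h6 : (0 : ℤ) < L := by exact_mod_cast hL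
  by_contra h7
  rw [not_le] at h7
  have := mul_neg_of_pos_of_neg h6 h7
  omega

/-! ### tables of shortest walks -/

/-- entry of a table of walks -/
def tg (T : List (List (ℤ × List ℕ))) (i j : ℕ) : ℤ × List ℕ := (T.getD i []).getD j (0, [])

theorem tg_map (n : ℕ) (f : ℕ → ℕ → ℤ × List ℕ) {i j : ℕ} (hi : i < n) (hj : j < n) :
    tg ((List.range n).map fun i => (List.range n).map fun j => f i j) i j = f i j := by
  unfold tg
  simp [List.getD_eq_getElem?_getD, hi, hj]

/-- minimum of a list of walks -/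
def amin (d : ℤ × List ℕ) (l : List (ℤ × List ℕ)) : ℤ × List ℕ :=
  l.foldl (fun c x => if x.1 < c.1 then x else c) d

theorem amin_mem (l : List (ℤ × List ℕ)) : ∀ d, amin d l = d ∨ amin d l ∈ l := by
  induction l with
  | nil => intro d; left; rfl
  | cons x l ih =>
    intro d
    unfold amin
    rw [List.foldl_cons]
    rcases ih (if x.1 < d.1 then x else d) with h | h
    · unfold amin at h
      rw [h]
      split_ifs
      · right; simp
      · left; rfl
    · right
      exact List.mem_cons_of_mem _ h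

theorem amin_le (l : List (ℤ × List ℕ)) : ∀ d, (amin d l).1 ≤ d.1 ∧ ∀ x ∈ l, (amin d l).1 ≤ x.1 := by
  induction l with
  | nil => intro d; exact ⟨le_rfl, by simp⟩
  | cons x l ih =>
    intro d
    obtain ⟨h1, h2⟩ := ih (if x.1 < d.1 then x else d)
    have e : amin d (x :: l) = amin (if x.1 < d.1 then x else d) l := rfl
    rw [e]
    have h3 : (if x.1 < d.1 then x else d).1 ≤ d.1 ∧ (if x.1 < d.1 then x else d).1 ≤ x.1 := by
      split_ifs with h
      · exact ⟨h.le, le_rfl⟩
      · exact ⟨le_rfl, not_lt.1 h⟩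
    refine ⟨h1.trans h3.1, ?_⟩
    intro y hy
    rcases List.mem_cons.1 hy with hy | hy
    · rw [hy]; exact h1.trans h3.2
    · exact h2 y hy

/-- candidate walk through `m` -/
def cand (A : List (List ℕ)) (σ : List ℕ) (T : List (List (ℤ × List ℕ))) (i j m : ℕ) :
    ℤ × List ℕ := ((tg T i m).1 + wq A σ m j, (tg T i m).2 ++ [m])

/-- table of the next length -/
def stepT (A : List (List ℕ)) (σ : List ℕ) (n : ℕ) (T : List (List (ℤ × List ℕ))) :
    List (List (ℤ × List ℕ)) :=
  (List.range n).map fun i => (List.range n).map fun j =>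
    amin (cand A σ T i j 0) ((List.range n).map fun m => cand A σ T i j m)

/-- table of the walks of length one -/
def initT (A : List (List ℕ)) (σ : List ℕ) (n : ℕ) : List (List (ℤ × List ℕ)) :=
  (List.range n).map fun i => (List.range n).map fun j => (wq A σ i j, [i])

/-- walks of length `k` from `i` -/
def IsW (n k i : ℕ) (p : List ℕ) : Prop := p.length = k ∧ p.headD 0 = i ∧ ∀ x ∈ p, x < n

/-- the table of the shortest walks of length `k` -/
def Tab (W : ℕ → ℕ → ℤ) (n k : ℕ) (T : List (List (ℤ × List ℕ))) : Prop :=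
  ∀ i < n, ∀ j < n, IsW n k i (tg T i j).2 ∧ (tg T i j).1 = wt W (tg T i j).2 j ∧
    ∀ q, IsW n k i q → (tg T i j).1 ≤ wt W q j

theorem tab_init (A : List (List ℕ)) (σ : List ℕ) (n : ℕ) :
    Tab (wq A σ) n 1 (initT A σ n) := by
  intro i hi j hj
  unfold initT
  rw [tg_map n _ hi hj]
  refine ⟨⟨rfl, rfl, by simpa using hi⟩, by simp [wt], ?_⟩
  rintro q ⟨h1, h2, _⟩
  obtain ⟨x, rfl⟩ := List.length_eq_one_iff.1 h1
  simp only [List.headD_cons] at h2
  subst h2
  simp [wt]

theorem tab_step (A : List (List ℕ)) (σ : List ℕ) (n k : ℕ) (T : List (List (ℤ × List ℕ)))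
    (hk : 1 ≤ k) (h : Tab (wq A σ) n k T) : Tab (wq A σ) n (k + 1) (stepT A σ n T) := by
  intro i hi j hj
  unfold stepT
  rw [tg_map n _ hi hj]
  obtain ⟨m, hm, em⟩ : ∃ m < n, amin (cand A σ T i j 0)
      ((List.range n).map fun m => cand A σ T i j m) = cand A σ T i j m := by
    rcases amin_mem ((List.range n).map fun m => cand A σ T i j m) (cand A σ T i j 0) with h1 | h1
    · exact ⟨0, by omega, h1⟩
    · obtain ⟨m, hm, e⟩ := List.mem_map.1 h1
      exact ⟨m, List.mem_range.1 hm, e.symm⟩
  obtain ⟨⟨h1, h2, h3⟩, h4, _⟩ := h i hi m hm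
  refine ⟨?_, ?_, ?_⟩
  · rw [em]
    unfold cand
    refine ⟨by simp [h1], ?_, ?_⟩
    · have h5 : ((tg T i m).2 ++ [m]).headD 0 = (tg T i m).2.headD 0 := by
        cases hq : (tg T i m).2 with
        | nil => rw [hq] at h1; simp at h1; omega
        | cons a b => simp
      exact h5.trans h2
    · intro x hx
      rcases List.mem_append.1 hx with hx | hx
      · exact h3 x hx
      · rw [List.mem_singleton.1 hx]; exact hm
  · rw [em]
    unfold cand
    simp only
    rw [wt_append, h4]
    simp [wt]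
  · rintro q ⟨g1, g2, g3⟩
    rcases List.eq_nil_or_concat q with hq | ⟨q', m', hq⟩
    · rw [hq] at g1; simp at g1
    · rw [List.concat_eq_append] at hq
      subst hq
      have hm' : m' < n := g3 m' (by simp)
      have hW : IsW n k i q' := by
        refine ⟨by simpa using g1, ?_, fun x hx => g3 x (by simp [hx])⟩
        cases q' with
        | nil => simp at g1; omega
        | cons a b => simpa using g2
      obtain ⟨_, _, h7⟩ := h i hi m' hm'
      have h8 := h7 q' hW
      have h9 := (amin_le ((List.range n).map fun m => cand A σ T i j m) (cand A σ T i j 0)).2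
        (cand A σ T i j m') (List.mem_map.2 ⟨m', List.mem_range.2 hm', rfl⟩)
      refine h9.trans ?_
      rw [wt_append]
      unfold cand
      simp only [List.headD_cons, wt, List.headD_nil, add_zero]
      omega

/-- negative closed walks of a table -/
def negs (n : ℕ) (T : List (List (ℤ × List ℕ))) : List (List ℕ) :=
  ((List.range n).filter fun i => decide ((tg T i i).1 < 0)).map fun i => (tg T i i).2

/-- one step of the search -/
def lstep (A : List (List ℕ)) (σ : List ℕ) (n : ℕ)
    (s : List (List ℕ) × List (List (ℤ × List ℕ))) : List (List ℕ) × List (List (ℤ × List ℕ)) :=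
  if s.1.isEmpty = true then (negs n s.2, stepT A σ n s.2) else s

/-- a negative cycle, or `[]` -/
def findneg (A : List (List ℕ)) (σ : List ℕ) (n : ℕ) : List ℕ :=
  ((lstep A σ n)^[n] ([], initT A σ n)).1.headD []

theorem lstep_inv (A : List (List ℕ)) (σ : List ℕ) (n k : ℕ) :
    let s := (lstep A σ n)^[k] ([], initT A σ n)
    (s.1 = [] ∧ Tab (wq A σ) n (k + 1) s.2 ∧
      ∀ p : List ℕ, p ≠ [] → p.length ≤ k → (∀ i ∈ p, i < n) → 0 ≤ CW (wq A σ) p) ∨
    (s.1 ≠ [] ∧ ∀ p ∈ s.1, p ≠ [] ∧ p.Nodup ∧ (∀ i ∈ p, i < n) ∧ CW (wq A σ) p < 0) := by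
  induction k with
  | zero =>
    left
    refine ⟨rfl, tab_init A σ n, ?_⟩
    intro p hp hl _
    exact absurd (List.length_eq_zero_iff.1 (Nat.le_zero.1 hl)) hp
  | succ k ih =>
    simp only [Function.iterate_succ_apply']
    simp only at ih
    generalize (lstep A σ n)^[k] ([], initT A σ n) = s at ih
    rcases ih with ⟨h1, h2, h3⟩ | ⟨h1, h2⟩
    · have e : lstep A σ n s = (negs n s.2, stepT A σ n s.2) := by
        unfold lstep; rw [if_pos (by rw [h1]; rfl)]
      rw [e]
      simp only
      have hcw : ∀ i < n, (tg s.2 i i).1 = CW (wq A σ) (tg s.2 i i).2 := by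
        intro i hi
        obtain ⟨⟨g1, g2, g3⟩, g4, g5⟩ := h2 i hi i hi
        unfold CW
        rw [g2, g4]
      by_cases hn : negs n s.2 = []
      · left
        refine ⟨hn, tab_step A σ n (k + 1) s.2 (by omega) h2, ?_⟩
        intro p hp hl hlt
        rcases Nat.lt_or_ge k p.length with hk | hk
        · have hpl : p.length = k + 1 := by omega
          set i := p.headD 0 with hi
          have hin : i < n := by
            cases p with
            | nil => simp at hp
            | cons a b => apply hlt; rw [hi]; simp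
          obtain ⟨_, _, g5⟩ := h2 i hin i hin
          have g6 := g5 p ⟨hpl, rfl, hlt⟩
          have g7 : ¬ (tg s.2 i i).1 < 0 := by
            intro hneg
            have : (tg s.2 i i).2 ∈ negs n s.2 := by
              unfold negs
              refine List.mem_map.2 ⟨i, List.mem_filter.2 ⟨List.mem_range.2 hin, ?_⟩, rfl⟩
              simpa using hneg
            rw [hn] at this
            simp at this
          unfold CW
          rw [← hi]
          omega
        · exact h3 p hp hk hlt
      · right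
        refine ⟨hn, ?_⟩
        intro p hp
        unfold negs at hp
        obtain ⟨i, hi, rfl⟩ := List.mem_map.1 hp
        obtain ⟨hi1, hi2⟩ := List.mem_filter.1 hi
        have hin := List.mem_range.1 hi1
        rw [decide_eq_true_eq] at hi2
        obtain ⟨⟨g1, g2, g3⟩, g4, g5⟩ := h2 i hin i hin
        have hneg : CW (wq A σ) (tg s.2 i i).2 < 0 := by rw [← hcw i hin]; exact hi2
        refine ⟨?_, ?_, g3, hneg⟩
        · intro h0
          rw [h0] at g1
          simp at g1
        · refine min_nodup (wq A σ) n _ ?_ hneg g3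
          intro q hq hql hqlt
          exact h3 q hq (by omega) hqlt
    · right
      have e : lstep A σ n s = s := by
        unfold lstep
        rw [if_neg]
        intro h
        exact h1 (List.isEmpty_iff.1 h)
      rw [e]
      exact ⟨h1, h2⟩

theorem findneg_spec (A : List (List ℕ)) (σ : List ℕ) (n : ℕ) :
    (findneg A σ n = [] ∧ ∀ p : List ℕ, p ≠ [] → (∀ i ∈ p, i < n) → 0 ≤ CW (wq A σ) p) ∨
    (findneg A σ n ≠ [] ∧ (findneg A σ n).Nodup ∧ (∀ i ∈ findneg A σ n, i < n) ∧
      CW (wq A σ) (findneg A σ n) < 0) := by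
  have h := lstep_inv A σ n n
  simp only at h
  unfold findneg
  rcases h with ⟨h1, _, h3⟩ | ⟨h1, h2⟩
  · left
    refine ⟨by rw [h1]; rfl, ?_⟩
    intro p hp hlt
    exact nonneg_all _ n h3 p.length p le_rfl hp hlt
  · right
    have hm : (((lstep A σ n)^[n] ([], initT A σ n)).1.headD []) ∈
        ((lstep A σ n)^[n] ([], initT A σ n)).1 := by
      cases hc : ((lstep A σ n)^[n] ([], initT A σ n)).1 with
      | nil => exact absurd hc h1
      | cons a b => simp
    exact h2 _ hm

/-! ### the successor map of a cycle -/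

/-- successor -/
def nx (p : List ℕ) (i : ℕ) : ℕ :=
  (p.zip (p.tail ++ [p.headD 0])).foldl (fun c q => if q.1 = i then q.2 else c) i

/-- successor, recursive form -/
def lk : List ℕ → ℕ → ℕ → ℕ
  | [], _, i => i
  | a :: p, h, i => if a = i then p.headD h else lk p h i

theorem foldl_zip (i : ℕ) : ∀ (p : List ℕ) (h c : ℕ), p.Nodup →
    (p.zip (p.tail ++ [h])).foldl (fun c q => if q.1 = i then q.2 else c) c =
      if i ∈ p then lk p h i else c := by
  intro p
  induction p with
  | nil => intro h c _; simp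
  | cons a p ih =>
    intro h c hnd
    rw [List.nodup_cons] at hnd
    cases p with
    | nil =>
      by_cases hai : a = i
      · simp [lk, hai]
      · simp [lk, hai, Ne.symm hai]
    | cons b p =>
      have e : (a :: b :: p).zip ((a :: b :: p).tail ++ [h]) =
          (a, b) :: (b :: p).zip ((b :: p).tail ++ [h]) := by simp
      rw [e, List.foldl_cons, ih h _ hnd.2]
      simp only [lk, List.headD_cons]
      by_cases hai : a = i
      · subst hai
        have : a ∉ b :: p := hnd.1
        simp [this]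
      · have h3 : (i ∈ a :: b :: p) ↔ i ∈ b :: p := by
          rw [List.mem_cons]; constructor
          · rintro (h4 | h4)
            · exact absurd h4.symm hai
            · exact h4
          · exact Or.inr
        simp only [h3, if_neg hai]

theorem nx_eq {p : List ℕ} (hnd : p.Nodup) (i : ℕ) :
    nx p i = if i ∈ p then lk p (p.headD 0) i else i := foldl_zip i p _ _ hnd

theorem lk_map : ∀ (p : List ℕ) (h : ℕ), p.Nodup → p ≠ [] →
    p.map (lk p h) = p.tail ++ [h] := by
  intro p
  induction p with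
  | nil => intro h _ h0; exact absurd rfl h0
  | cons a p ih =>
    intro h hnd _
    rw [List.nodup_cons] at hnd
    rw [List.map_cons]
    have h1 : p.map (lk (a :: p) h) = p.map (lk p h) := by
      refine List.map_congr_left (fun x hx => ?_)
      have : a ≠ x := fun e => hnd.1 (e ▸ hx)
      simp [lk, this]
    rw [h1]
    have h2 : lk (a :: p) h a = p.headD h := by simp [lk]
    rw [h2]
    cases p with
    | nil => simp
    | cons b p =>
      rw [ih h hnd.2 (by simp)]
      simp

theorem lk_sum (W : ℕ → ℕ → ℤ) : ∀ (p : List ℕ) (h : ℕ), p.Nodup →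
    (p.map fun i => W i (lk p h i)).sum = wt W p h := by
  intro p
  induction p with
  | nil => intro h _; rfl
  | cons a p ih =>
    intro h hnd
    rw [List.nodup_cons] at hnd
    rw [List.map_cons, List.sum_cons]
    have h1 : (p.map fun i => W i (lk (a :: p) h i)) = p.map fun i => W i (lk p h i) := by
      refine List.map_congr_left (fun x hx => ?_)
      have : a ≠ x := fun e => hnd.1 (e ▸ hx)
      simp [lk, this]
    rw [h1, ih h hnd.2]
    simp [lk, wt]

theorem nx_map {p : List ℕ} (hnd : p.Nodup) (hne : p ≠ []) :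
    p.map (nx p) = p.tail ++ [p.headD 0] := by
  rw [← lk_map p _ hnd hne]
  refine List.map_congr_left (fun x hx => ?_)
  rw [nx_eq hnd, if_pos hx]

theorem tail_perm {p : List ℕ} (hne : p ≠ []) : (p.tail ++ [p.headD 0]).Perm p := by
  cases p with
  | nil => exact absurd rfl hne
  | cons a p => simpa using (List.perm_append_singleton a p)

theorem nx_mem {p : List ℕ} (hnd : p.Nodup) (hne : p ≠ []) {i : ℕ} (hi : i ∈ p) :
    nx p i ∈ p := by
  have h1 : nx p i ∈ p.map (nx p) := List.mem_map.2 ⟨i, hi, rfl⟩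
  rw [nx_map hnd hne] at h1
  exact (tail_perm hne).mem_iff.1 h1

theorem nx_notMem {p : List ℕ} (hnd : p.Nodup) {i : ℕ} (hi : i ∉ p) : nx p i = i := by
  rw [nx_eq hnd, if_neg hi]

theorem nx_inj {p : List ℕ} (hnd : p.Nodup) (hne : p ≠ []) : Function.Injective (nx p) := by
  intro i j hij
  by_cases hi : i ∈ p <;> by_cases hj : j ∈ p
  · have h1 : (p.map (nx p)).Nodup := by
      rw [nx_map hnd hne]
      exact (tail_perm hne).nodup_iff.2 hnd
    exact List.inj_on_of_nodup_map h1 hi hj hij
  · rw [nx_notMem hnd hj] at hij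
    exact absurd (hij ▸ nx_mem hnd hne hi) hj
  · rw [nx_notMem hnd hi] at hij
    exact absurd (hij ▸ nx_mem hnd hne hj) hi
  · rwa [nx_notMem hnd hi, nx_notMem hnd hj] at hij

theorem nx_lt {p : List ℕ} {n : ℕ} (hnd : p.Nodup) (hne : p ≠ []) (hlt : ∀ i ∈ p, i < n)
    {i : ℕ} (hi : i < n) : nx p i < n := by
  by_cases h : i ∈ p
  · exact hlt _ (nx_mem hnd hne h)
  · rwa [nx_notMem hnd h]

/-! ### assignments as lists -/

/-- `σ` is a permutation of `0..n-1` -/
def IsP (n : ℕ) (σ : List ℕ) : Prop :=
  σ.length = n ∧ (∀ i < n, σ.getD i 0 < n) ∧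
    ∀ i < n, ∀ j < n, σ.getD i 0 = σ.getD j 0 → i = j

/-- cost of an assignment -/
def cost (A : List (List ℕ)) (n : ℕ) (σ : List ℕ) : ℕ :=
  ∑ i ∈ Finset.range n, ent A i (σ.getD i 0)

/-- apply a cycle -/
def upd (n : ℕ) (σ p : List ℕ) : List ℕ := (List.range n).map fun i => σ.getD (nx p i) 0

theorem upd_getD (n : ℕ) (σ p : List ℕ) {i : ℕ} (hi : i < n) :
    (upd n σ p).getD i 0 = σ.getD (nx p i) 0 := by
  unfold upd
  simp [List.getD_eq_getElem?_getD, hi]

theorem upd_isP {n : ℕ} {σ p : List ℕ} (h : IsP n σ) (hnd : p.Nodup) (hne : p ≠ [])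
    (hlt : ∀ i ∈ p, i < n) : IsP n (upd n σ p) := by
  obtain ⟨h1, h2, h3⟩ := h
  refine ⟨by simp [upd], ?_, ?_⟩
  · intro i hi
    rw [upd_getD n σ p hi]
    exact h2 _ (nx_lt hnd hne hlt hi)
  · intro i hi j hj hij
    rw [upd_getD n σ p hi, upd_getD n σ p hj] at hij
    exact nx_inj hnd hne (h3 _ (nx_lt hnd hne hlt hi) _ (nx_lt hnd hne hlt hj) hij)

theorem upd_cost {A : List (List ℕ)} {n : ℕ} {σ p : List ℕ} (hnd : p.Nodup)
    (hlt : ∀ i ∈ p, i < n) :
    (cost A n (upd n σ p) : ℤ) = cost A n σ + CW (wq A σ) p := by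
  have h1 : (cost A n (upd n σ p) : ℤ) - cost A n σ =
      ∑ i ∈ Finset.range n, wq A σ i (nx p i) := by
    unfold cost
    push_cast
    rw [← Finset.sum_sub_distrib]
    refine Finset.sum_congr rfl (fun i hi => ?_)
    rw [upd_getD n σ p (Finset.mem_range.1 hi)]
    rfl
  have h2 : ∑ i ∈ Finset.range n, wq A σ i (nx p i) = ∑ i ∈ p.toFinset, wq A σ i (nx p i) := by
    symm
    refine Finset.sum_subset ?_ ?_
    · intro i hi
      exact Finset.mem_range.2 (hlt i (List.mem_toFinset.1 hi))
    · intro i _ hi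
      rw [List.mem_toFinset] at hi
      rw [nx_notMem hnd hi]
      unfold wq
      simp
  have h3 : ∑ i ∈ p.toFinset, wq A σ i (nx p i) = CW (wq A σ) p := by
    rw [List.sum_toFinset _ hnd]
    unfold CW
    rw [← lk_sum (wq A σ) p _ hnd]
    congr 1
    refine List.map_congr_left (fun x hx => ?_)
    rw [nx_eq hnd, if_pos hx]
  omega

theorem upd_nil {n : ℕ} {σ : List ℕ} (h : σ.length = n) : upd n σ [] = σ := by
  unfold upd
  refine List.ext_getElem (by simp [h]) ?_
  intro i h1 h2
  simp [nx, List.getElem?_eq_getElem h2]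

/-- one round -/
def improve (A : List (List ℕ)) (n : ℕ) (σ : List ℕ) : List ℕ := upd n σ (findneg A σ n)

/-- optimal assignment after `R` rounds -/
def assign (R n : ℕ) (A : List (List ℕ)) : List ℕ := (improve A n)^[R] (List.range n)

theorem isP_range (n : ℕ) : IsP n (List.range n) := by
  refine ⟨by simp, ?_, ?_⟩
  · intro i hi
    simp [List.getD_eq_getElem?_getD, hi]
  · intro i hi j hj h
    simpa [List.getD_eq_getElem?_getD, hi, hj] using h

theorem rounds (A : List (List ℕ)) (n R : ℕ) :
    IsP n ((improve A n)^[R] (List.range n)) ∧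
    ((∀ p : List ℕ, p ≠ [] → (∀ i ∈ p, i < n) →
        0 ≤ CW (wq A ((improve A n)^[R] (List.range n))) p) ∨
      cost A n ((improve A n)^[R] (List.range n)) + R ≤ cost A n (List.range n)) := by
  induction R with
  | zero => exact ⟨isP_range n, Or.inr le_rfl⟩
  | succ R ih =>
    simp only [Function.iterate_succ_apply']
    generalize (improve A n)^[R] (List.range n) = σ at ih
    obtain ⟨h1, h2⟩ := ih
    unfold improve
    rcases findneg_spec A σ n with ⟨g1, g2⟩ | ⟨g1, g2, g3, g4⟩
    · rw [g1, upd_nil h1.1]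
      exact ⟨h1, Or.inl g2⟩
    · refine ⟨upd_isP h1 g2 g1 g3, Or.inr ?_⟩
      rcases h2 with h2 | h2
      · exact absurd (h2 _ g1 g3) (not_le.2 g4)
      · have := upd_cost (A := A) (σ := σ) g2 g3
        omega

/-- the permutation of a list -/
noncomputable def toPerm {n : ℕ} {σ : List ℕ} (h : IsP n σ) : Equiv.Perm (Fin n) :=
  Equiv.ofBijective (fun i => ⟨σ.getD i 0, h.2.1 i i.2⟩) (by
    rw [← Finite.injective_iff_bijective]
    intro i j hij
    exact Fin.ext (h.2.2 i i.2 j j.2 (by simpa using hij)))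

theorem toPerm_apply {n : ℕ} {σ : List ℕ} (h : IsP n σ) (i : Fin n) :
    ((toPerm h i : Fin n) : ℕ) = σ.getD i 0 := rfl

theorem assign_isP (R n : ℕ) (A : List (List ℕ)) : IsP n (assign R n A) := (rounds A n R).1

/-- **optimality** -/
theorem assign_opt (R n : ℕ) (A : List (List ℕ)) (hR : ∑ i ∈ Finset.range n, ent A i i < R)
    (τ : Equiv.Perm (Fin n)) :
    ∑ i : Fin n, ent A i ((assign R n A).getD i 0) ≤ ∑ i : Fin n, ent A i (τ i) := by
  obtain ⟨h1, h2⟩ := rounds A n R
  have hc0 : cost A n (List.range n) = ∑ i ∈ Finset.range n, ent A i i := by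
    unfold cost
    refine Finset.sum_congr rfl (fun i hi => ?_)
    have := Finset.mem_range.1 hi
    simp [List.getD_eq_getElem?_getD, this]
  have h3 : ∀ p : List ℕ, p ≠ [] → (∀ i ∈ p, i < n) → 0 ≤ CW (wq A (assign R n A)) p := by
    rcases h2 with h2 | h2
    · exact h2
    · omega
  have hP := assign_isP R n A
  have h4 := perm_nonneg (wq A (assign R n A)) n h3 ((toPerm hP)⁻¹ * τ)
  have h5 : ∀ i : Fin n, wq A (assign R n A) i ((((toPerm hP)⁻¹ * τ) i : Fin n) : ℕ) =
      (ent A i (τ i) : ℤ) - (ent A i ((assign R n A).getD i 0) : ℤ) := by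
    intro i
    unfold wq
    have h6 : (assign R n A).getD ((((toPerm hP)⁻¹ * τ) i : Fin n) : ℕ) 0 = (τ i : ℕ) := by
      rw [← toPerm_apply hP, ← Equiv.Perm.mul_apply, mul_inv_cancel_left]
    rw [h6]
  rw [Finset.sum_congr rfl (fun i _ => h5 i), Finset.sum_sub_distrib] at h4
  have h7 : ((∑ i : Fin n, ent A i ((assign R n A).getD i 0) : ℕ) : ℤ) ≤
      ((∑ i : Fin n, ent A i (τ i) : ℕ) : ℤ) := by
    push_cast
    linarith
  exact_mod_cast h7

end Crest.Agent.R287.Asg
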