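import Crest.Agent.R287.Tour
import Mathlib.Data.List.PeriodicityLemma
import Mathlib.Algebra.BigOperators.Group.Finset.Basic

/-!
# Row 287 (S0432): texts of rings, Fine–Wilf and Blum's overlap lemma (helper52)

* `rg r i` : the `i`-th string of the ring `r` (cyclic index), `cyc r` : its cost (= period);
* `rpos r i` : position of the `i`-th string, `rw r : ℕ → ℕ` : the periodic text of the ring;
  `rw_occ`, `rw_period`;
* `fw` : Fine–Wilf for periodic functions;
* `ring_of_period` : strings occurring in a `g`-periodic text form one ring of cost `≤ g`;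
* `blum`, `ov_blum` : two rings of a minimum cover have no long common factor.
-/

set_option autoImplicit false

namespace Crest.Agent.R287

open Finset

/-- the `i`-th string of the ring -/
def rg (r : List (List ℕ)) (i : ℕ) : List ℕ := r.getD (i % r.length) []

/-- the cost (= period) of the ring -/
def cyc (r : List (List ℕ)) : ℕ :=
  ∑ i ∈ range r.length, ((rg r i).length - ov (rg r i) (rg r (i + 1)))

/-- positions of the strings of a sequence -/
def spos (s : ℕ → List ℕ) (n : ℕ) : ℕ := ∑ i ∈ range n, ((s i).length - ov (s i) (s (i + 1)))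

theorem spos_succ (s : ℕ → List ℕ) (n : ℕ) :
    spos s (n + 1) = spos s n + ((s n).length - ov (s n) (s (n + 1))) := by
  unfold spos; rw [sum_range_succ]

theorem spos_lt {s : ℕ → List ℕ} (hs : ∀ i, s i ≠ []) (n : ℕ) : spos s n < spos s (n + 1) := by
  rw [spos_succ]
  have h := ov_lt (hs n) (hs (n + 1))
  have := min_le_left (s n).length (s (n + 1)).length
  omega

theorem spos_strictMono {s : ℕ → List ℕ} (hs : ∀ i, s i ≠ []) : StrictMono (spos s) :=
  strictMono_nat_of_lt_succ (spos_lt hs)

/-- the index covering the place `n` -/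
def sidx (s : ℕ → List ℕ) (n : ℕ) : ℕ := Nat.findGreatest (fun i => spos s i ≤ n) n

theorem sidx_le (s : ℕ → List ℕ) (n : ℕ) : spos s (sidx s n) ≤ n := by
  unfold sidx
  exact Nat.findGreatest_spec (P := fun i => spos s i ≤ n) (Nat.zero_le n) (by simp [spos])

theorem sidx_eq {s : ℕ → List ℕ} (hs : ∀ i, s i ≠ []) {n i : ℕ} (h1 : spos s i ≤ n)
    (h2 : n < spos s (i + 1)) : sidx s n = i := by
  have hm := spos_strictMono hs
  have hi : i ≤ n := (hm.id_le i).trans h1
  have h3 : i ≤ sidx s n := Nat.le_findGreatest hi h1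
  have h4 := sidx_le s n
  by_contra hne
  have h5 : i + 1 ≤ sidx s n := by omega
  have := hm.monotone h5
  omega

theorem lt_sidx_succ {s : ℕ → List ℕ} (hs : ∀ i, s i ≠ []) (n : ℕ) :
    n < spos s (sidx s n + 1) := by
  have hm := spos_strictMono hs
  by_contra hlt
  push Not at hlt
  have h1 : sidx s n + 1 ≤ n := (hm.id_le _).trans hlt
  have := Nat.le_findGreatest (P := fun i => spos s i ≤ n) h1 hlt
  unfold sidx at this
  omega

/-- the text of a sequence of strings -/
def swd (s : ℕ → List ℕ) (n : ℕ) : ℕ := (s (sidx s n)).getD (n - spos s (sidx s n)) 0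

theorem ovl_getD {s t : List ℕ} {k : ℕ} (h : Ovl s t k) {j : ℕ} (hj : j < k) :
    s.getD (s.length - k + j) 0 = t.getD j 0 := by
  unfold Ovl at h
  have h1 : (s.drop (s.length - k)).getD j 0 = (t.take k).getD j 0 := by rw [h]
  rw [List.getD_eq_getElem?_getD, List.getElem?_drop] at h1
  rw [List.getD_eq_getElem?_getD, h1, List.getD_eq_getElem?_getD, List.getD_eq_getElem?_getD,
    List.getElem?_take_of_lt hj]

theorem swd_occ {s : ℕ → List ℕ} (hs : ∀ i, s i ≠ []) (j : ℕ) : ∀ i, j < (s i).length →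
    swd s (spos s i + j) = (s i).getD j 0 := by
  induction j using Nat.strong_induction_on with
  | _ j ih =>
    intro i hj
    have hlt := ov_lt (hs i) (hs (i + 1))
    have hl := min_le_left (s i).length (s (i + 1)).length
    have hr := min_le_right (s i).length (s (i + 1)).length
    have hsucc := spos_succ s i
    by_cases hc : spos s i + j < spos s (i + 1)
    · have he : sidx s (spos s i + j) = i := sidx_eq hs (Nat.le_add_right _ _) hc
      unfold swd
      rw [he]
      congr 1
      omega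
    · have hd : (s i).length - ov (s i) (s (i + 1)) ≤ j := by omega
      obtain ⟨e, he⟩ := Nat.exists_eq_add_of_le hd
      have h1 : spos s i + j = spos s (i + 1) + e := by omega
      have h2 : e < ov (s i) (s (i + 1)) := by omega
      rw [h1, ih e (by omega) (i + 1) (by omega), he]
      exact (ovl_getD (ovl_ov _ _) h2).symm

theorem spos_add {s : ℕ → List ℕ} {m : ℕ} (hm : ∀ i, s (i + m) = s i) (i : ℕ) :
    spos s (i + m) = spos s i + spos s m := by
  induction i with
  | zero => simp [spos]
  | succ i ih =>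
    have e : i + 1 + m = (i + m) + 1 := by ring
    rw [e, spos_succ, spos_succ, ih, hm i]
    have e2 : s (i + m + 1) = s (i + 1) := by rw [← hm (i + 1)]; congr 1; ring
    rw [e2]
    ring

theorem swd_period {s : ℕ → List ℕ} (hs : ∀ i, s i ≠ []) {m : ℕ} (hm : ∀ i, s (i + m) = s i)
    (n : ℕ) : swd s (n + spos s m) = swd s n := by
  have h1 := sidx_le s n
  have h2 := lt_sidx_succ hs n
  have h3 := spos_add hm (sidx s n)
  have h4 := spos_add hm (sidx s n + 1)
  have h5 : sidx s n + 1 + m = sidx s n + m + 1 := by ring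
  rw [h5] at h4
  have he : sidx s (n + spos s m) = sidx s n + m := sidx_eq hs (by omega) (by omega)
  unfold swd
  rw [he, hm]
  congr 1
  omega

/-! ## rings -/

/-- the text of the ring -/
def rw' (r : List (List ℕ)) : ℕ → ℕ := swd (rg r)

/-- position of the `i`-th string in the text of the ring -/
def rpos (r : List (List ℕ)) (i : ℕ) : ℕ := spos (rg r) i

theorem rg_add (r : List (List ℕ)) (i : ℕ) : rg r (i + r.length) = rg r i := by
  unfold rg; rw [Nat.add_mod_right]

theorem rg_mem {r : List (List ℕ)} (hr : r ≠ []) (i : ℕ) : rg r i ∈ r := by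
  have h := List.length_pos_iff.2 hr
  have h2 := Nat.mod_lt i h
  unfold rg
  rw [List.getD_eq_getElem _ _ h2]
  exact List.getElem_mem h2

theorem rg_ne {r : List (List ℕ)} (hr : r ≠ []) (hs : ∀ t ∈ r, t ≠ []) (i : ℕ) : rg r i ≠ [] :=
  hs _ (rg_mem hr i)

theorem cyc_eq (r : List (List ℕ)) : cyc r = rpos r r.length := rfl

theorem rpos_succ (r : List (List ℕ)) (i : ℕ) :
    rpos r (i + 1) = rpos r i + ((rg r i).length - ov (rg r i) (rg r (i + 1))) := spos_succ _ _

theorem rpos_add (r : List (List ℕ)) (i : ℕ) : rpos r (i + r.length) = rpos r i + cyc r :=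
  spos_add (rg_add r) i

theorem cyc_pos {r : List (List ℕ)} (hr : r ≠ []) (hs : ∀ t ∈ r, t ≠ []) : 0 < cyc r := by
  have h := spos_strictMono (rg_ne hr hs) (List.length_pos_iff.2 hr)
  rw [cyc_eq]
  unfold rpos
  omega

/-- the `i`-th string of the ring is read at the place `rpos r i` -/
theorem rw_occ {r : List (List ℕ)} (hr : r ≠ []) (hs : ∀ t ∈ r, t ≠ []) (i j : ℕ)
    (hj : j < (rg r i).length) : rw' r (rpos r i + j) = (rg r i).getD j 0 :=
  swd_occ (rg_ne hr hs) j i hj

theorem rw_period {r : List (List ℕ)} (hr : r ≠ []) (hs : ∀ t ∈ r, t ≠ []) (n : ℕ) :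
    rw' r (n + cyc r) = rw' r n :=
  swd_period (rg_ne hr hs) (rg_add r) n

theorem exists_rg {r : List (List ℕ)} {t : List ℕ} (ht : t ∈ r) : ∃ i < r.length, rg r i = t := by
  obtain ⟨i, hi, h⟩ := List.mem_iff_getElem.1 ht
  refine ⟨i, hi, ?_⟩
  unfold rg
  rw [Nat.mod_eq_of_lt hi, List.getD_eq_getElem _ _ hi, h]

/-- `t` occurs in the text `z` at the place `a` -/
def Occ (z : ℕ → ℕ) (t : List ℕ) (a : ℕ) : Prop := ∀ j < t.length, z (a + j) = t.getD j 0

theorem exists_occ {r : List (List ℕ)} (hs : ∀ t ∈ r, t ≠ []) {t : List ℕ} (ht : t ∈ r) :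
    ∃ a, Occ (rw' r) t a := by
  obtain ⟨i, _, h⟩ := exists_rg ht
  have hr : r ≠ [] := List.ne_nil_of_mem ht
  refine ⟨rpos r i, fun j hj => ?_⟩
  rw [← h] at hj ⊢
  exact rw_occ hr hs i j hj

/-! ## Fine–Wilf for functions -/

theorem per_mul {z : ℕ → ℕ} {p : ℕ} (hz : ∀ n, z (n + p) = z n) (n k : ℕ) :
    z (n + p * k) = z n := by
  induction k with
  | zero => simp
  | succ k ih => rw [Nat.mul_succ, ← add_assoc, hz, ih]

theorem per_mod {z : ℕ → ℕ} {p : ℕ} (hz : ∀ n, z (n + p) = z n) (n : ℕ) : z (n % p) = z n := by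
  conv_rhs => rw [← Nat.mod_add_div n p]
  rw [per_mul hz]

theorem per_shift {z : ℕ → ℕ} {p : ℕ} (hz : ∀ n, z (n + p) = z n) (x n : ℕ) :
    z (x + n % p) = z (x + n) := by
  have := per_mod (z := fun n => z (x + n)) (p := p) (fun n => by
    show z (x + (n + p)) = z (x + n)
    rw [← add_assoc, hz]) n
  exact this

/-- **Fine–Wilf** for periodic functions -/
theorem fw {w v : ℕ → ℕ} {p q : ℕ} (hp : 0 < p) (hq : 0 < q) (hw : ∀ n, w (n + p) = w n)
    (hv : ∀ n, v (n + q) = v n) {x y : ℕ} (h : ∀ i, i + 1 < p + q → w (x + i) = v (y + i)) :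
    (∀ n, w (n + p.gcd q) = w n) ∧ ∀ n, w (x + n) = v (y + n) := by
  set g := p.gcd q with hg
  have hg0 : 0 < g := Nat.gcd_pos_of_pos_left _ hp
  set l : List ℕ := (List.range (p + q - 1)).map (fun i => w (x + i)) with hl
  have hll : l.length = p + q - 1 := by simp [hl]
  have hget : ∀ i, i < p + q - 1 → l[i]? = some (w (x + i)) := by
    intro i hi
    simp [hl, hi]
  have p1 : l.HasPeriod p := by
    rw [List.hasPeriod_iff_getElem?]
    intro i hi
    rw [hget i (by omega), hget (i + p) (by omega), ← add_assoc, hw]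
  have p2 : l.HasPeriod q := by
    rw [List.hasPeriod_iff_getElem?]
    intro i hi
    rw [hget i (by omega), hget (i + q) (by omega), h i (by omega), h (i + q) (by omega),
      ← add_assoc, hv]
  have p3 : l.HasPeriod g := List.HasPeriod.gcd p1 p2 (by rw [hll]; omega)
  have hmod : ∀ i, i < p + q - 1 → w (x + i % g) = w (x + i) := by
    intro i hi
    have := List.HasPeriod.getElem?_mod g i l p3 (by omega)
    rw [hget i hi, hget (i % g) (lt_of_le_of_lt (Nat.mod_le _ _) hi)] at this
    exact Option.some.inj this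
  have hgp : g ∣ p := Nat.gcd_dvd_left p q
  have hgq : g ∣ q := Nat.gcd_dvd_right p q
  have hall : ∀ n, w (x + n) = w (x + n % g) := by
    intro n
    have h1 := Nat.mod_lt n hp
    rw [← per_shift hw x n, ← hmod (n % p) (by omega), Nat.mod_mod_of_dvd _ hgp]
  have hall2 : ∀ n, v (y + n) = w (x + n % g) := by
    intro n
    have h1 := Nat.mod_lt n hq
    rw [← per_shift hv y n, ← h (n % q) (by omega), ← hmod (n % q) (by omega),
      Nat.mod_mod_of_dvd _ hgq]
  refine ⟨fun n => ?_, fun n => by rw [hall, hall2]⟩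
  have e1 : w n = w (x + (n + (p - 1) * x)) := by
    rw [← per_mul hw n x]
    congr 1
    obtain ⟨p', rfl⟩ : ∃ p', p = p' + 1 := ⟨p - 1, by omega⟩
    rw [Nat.add_sub_cancel]
    ring
  have e2 : w (n + g) = w (x + (n + (p - 1) * x + g)) := by
    rw [← per_mul hw (n + g) x]
    congr 1
    obtain ⟨p', hp'⟩ : ∃ p', p = p' + 1 := ⟨p - 1, by omega⟩
    rw [hp', Nat.add_sub_cancel]
    ring
  rw [e1, e2, hall, hall (n + (p - 1) * x), Nat.add_mod_right]

/-! ## one ring from a periodic text -/

theorem Occ.add_mul {z : ℕ → ℕ} {g : ℕ} (hz : ∀ n, z (n + g) = z n) {t : List ℕ} {a : ℕ}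
    (h : Occ z t a) (k : ℕ) : Occ z t (a + g * k) := by
  intro j hj
  rw [← h j hj, ← per_mul hz (a + j) k]
  congr 1
  ring

theorem Occ.mod {z : ℕ → ℕ} {g : ℕ} (hz : ∀ n, z (n + g) = z n) {t : List ℕ} {a : ℕ}
    (h : Occ z t a) : Occ z t (a % g) := by
  intro j hj
  rw [← h j hj, add_comm (a % g) j, per_shift hz j a, add_comm]

theorem Occ.infix {z : ℕ → ℕ} {t u : List ℕ} {a b : ℕ} (ht : Occ z t a) (hu : Occ z u b)
    (hab : a ≤ b) (hl : b + u.length ≤ a + t.length) : u <:+: t := by
  refine ⟨t.take (b - a), (t.drop (b - a)).drop u.length, ?_⟩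
  have h1 : u = (t.drop (b - a)).take u.length := by
    apply List.ext_getElem
    · simp only [List.length_take, List.length_drop]; omega
    · intro i h1 h2
      have e1 := hu i h1
      have e2 := ht (b - a + i) (by omega)
      have e3 : a + (b - a + i) = b + i := by omega
      rw [e3, e1] at e2
      rw [List.getD_eq_getElem _ _ h1, List.getD_eq_getElem _ _ (by omega)] at e2
      rw [e2]
      simp [List.getElem_take, List.getElem_drop]
  have h2 : u ++ (t.drop (b - a)).drop u.length = t.drop (b - a) := by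
    conv_lhs => enter [1]; rw [h1]
    have : u.length = ((t.drop (b - a)).take u.length).length := by rw [← h1]
    exact List.take_append_drop _ _
  rw [List.append_assoc, h2]
  exact List.take_append_drop _ _

/-- two occurrences give an overlap -/
theorem ov_of_occ {z : ℕ → ℕ} {t u : List ℕ} {a b : ℕ} (ht : Occ z t a) (hu : Occ z u b)
    (hab : a < b) (h : ¬ (b + u.length ≤ a + t.length)) :
    t.length - ov t u ≤ b - a := by
  by_cases hc : t.length ≤ b - a
  · omega
  · push Not at hc h
    set k := t.length - (b - a) with hk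
    have hle : k ≤ ov t u := by
      apply le_ov
      · apply lt_min <;> omega
      · unfold Ovl
        apply List.ext_getElem
        · simp only [List.length_take, List.length_drop]; omega
        · intro i h1 h2
          simp only [List.length_take, List.length_drop] at h1 h2
          have e1 := hu i (by omega)
          have e2 := ht (b - a + i) (by omega)
          have e3 : a + (b - a + i) = b + i := by omega
          rw [e3, e1] at e2
          rw [List.getD_eq_getElem _ _ (by omega), List.getD_eq_getElem _ _ (by omega)] at e2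
          rw [List.getElem_drop, List.getElem_take]
          rw [e2]
          congr 1
          omega
    omega

/-- strings that occur in a `g`-periodic text form one ring of cost `≤ g` -/
theorem ring_of_period {z : ℕ → ℕ} {g : ℕ} (hg : 0 < g) (hz : ∀ n, z (n + g) = z n)
    {r : List (List ℕ)} (hF : FF r) (hocc : ∀ t ∈ r, ∃ a, Occ z t a) :
    ∃ L : List (List ℕ), L.Perm r ∧ cyc L ≤ g := by
  classical
  have hocc' : ∀ t, ∃ a, t ∈ r → a < g ∧ Occ z t a := by
    intro t
    by_cases ht : t ∈ r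
    · obtain ⟨a, ha⟩ := hocc t ht
      exact ⟨a % g, fun _ => ⟨Nat.mod_lt _ hg, ha.mod hz⟩⟩
    · exact ⟨0, fun h => absurd h ht⟩
  choose A hA using hocc'
  have hnf : ∀ s ∈ r, ∀ t ∈ r, s <:+: t → s = t := by
    intro s hs t ht hst
    by_contra hne
    obtain ⟨i, hi, e1⟩ := List.mem_iff_getElem.1 hs
    obtain ⟨j, hj, e2⟩ := List.mem_iff_getElem.1 ht
    have hp := List.pairwise_iff_getElem.1 hF.1
    rcases lt_trichotomy i j with hij | hij | hij
    · have h := hp i j hi hj hij
      rw [e1, e2] at h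
      exact h.1 hst
    · subst hij
      exact hne (e1.symm.trans e2)
    · have h := hp j i hj hi hij
      rw [e1, e2] at h
      exact h.2 hst
  have hnd : r.Nodup := by
    refine hF.1.imp ?_
    intro a b h hab
    rw [hab] at h
    exact h.1 (List.infix_refl _)
  have hinj : ∀ s ∈ r, ∀ t ∈ r, A s = A t → s = t := by
    intro s hs t ht hst
    have o1 := (hA s hs).2
    have o2 := (hA t ht).2
    rw [hst] at o1
    rcases le_total s.length t.length with h | h
    · exact hnf s hs t ht (Occ.infix o2 o1 le_rfl (by omega))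
    · exact (hnf t ht s hs (Occ.infix o1 o2 le_rfl (by omega))).symm
  set L := r.insertionSort (fun s t => A s ≤ A t) with hL
  have hperm : L.Perm r := List.perm_insertionSort _ _
  have hsort : L.Pairwise (fun s t => A s ≤ A t) := by
    have : Std.Total (fun s t : List ℕ => A s ≤ A t) := ⟨fun s t => le_total _ _⟩
    have : IsTrans (List ℕ) (fun s t : List ℕ => A s ≤ A t) := ⟨fun _ _ _ h1 h2 => le_trans h1 h2⟩
    exact List.pairwise_insertionSort _ _
  have hndL : L.Nodup := hperm.nodup_iff.2 hnd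
  have hmem : ∀ {t}, t ∈ L → t ∈ r := fun {t} h => hperm.mem_iff.1 h
  refine ⟨L, hperm, ?_⟩
  rcases Nat.eq_zero_or_pos L.length with h0 | h0
  · unfold cyc
    rw [h0]
    simp
  have hLne : L ≠ [] := List.length_pos_iff.1 h0
  -- the positions
  let b : ℕ → ℕ := fun i => if i < L.length then A (rg L i) else A (rg L 0) + g
  have hb : ∀ i, i < L.length → (rg L i).length - ov (rg L i) (rg L (i + 1)) ≤ b (i + 1) - b i ∧
      b i ≤ b (i + 1) := by
    intro i hi
    have hm1 : rg L i ∈ r := hmem (rg_mem hLne i)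
    have hm2 : rg L (i + 1) ∈ r := hmem (rg_mem hLne (i + 1))
    have o1 := (hA _ hm1).2
    have o2 := (hA _ hm2).2
    have l1 := (hA _ hm1).1
    have l2 := (hA _ hm2).1
    have bi : b i = A (rg L i) := by simp [b, hi]
    by_cases hi1 : i + 1 < L.length
    · have bi1 : b (i + 1) = A (rg L (i + 1)) := by simp [b, hi1]
      have e1 : rg L i = L[i] := by
        unfold rg; rw [Nat.mod_eq_of_lt hi, List.getD_eq_getElem _ _ hi]
      have e2 : rg L (i + 1) = L[i + 1] := by
        unfold rg; rw [Nat.mod_eq_of_lt hi1, List.getD_eq_getElem _ _ hi1]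
      have hle : A (rg L i) ≤ A (rg L (i + 1)) := by
        rw [e1, e2]
        exact List.pairwise_iff_getElem.1 hsort i (i + 1) hi hi1 (Nat.lt_succ_self i)
      have hne : rg L i ≠ rg L (i + 1) := by
        rw [e1, e2]
        intro h
        have := (List.Nodup.getElem_inj_iff hndL).1 h
        omega
      have hlt : A (rg L i) < A (rg L (i + 1)) :=
        lt_of_le_of_ne hle (fun h => hne (hinj _ hm1 _ hm2 h))
      rw [bi, bi1]
      refine ⟨ov_of_occ o1 o2 hlt ?_, hle⟩
      intro h
      exact hne (hnf _ hm2 _ hm1 (Occ.infix o1 o2 hlt.le h)).symm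
    · have hi2 : i + 1 = L.length := by omega
      have bi1 : b (i + 1) = A (rg L 0) + g := by simp [b, hi1]
      have e0 : rg L (i + 1) = rg L 0 := by
        rw [hi2]; unfold rg; simp
      rw [e0] at o2 l2 hm2 ⊢
      have o3 : Occ z (rg L 0) (A (rg L 0) + g) := by
        have := o2.add_mul hz 1
        rwa [Nat.mul_one] at this
      rw [bi, bi1]
      refine ⟨ov_of_occ o1 o3 (by omega) ?_, by omega⟩
      intro h
      have h6 := hnf _ hm2 _ hm1 (Occ.infix o1 o3 (by omega) h)
      rw [h6] at h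
      omega
  have hsum : ∀ n, n ≤ L.length →
      ∑ i ∈ range n, ((rg L i).length - ov (rg L i) (rg L (i + 1))) ≤ b n - b 0 ∧ b 0 ≤ b n := by
    intro n
    induction n with
    | zero => intro _; simp
    | succ n ih =>
      intro hn
      have h1 := ih (by omega)
      have h2 := hb n (by omega)
      rw [sum_range_succ]
      omega
  have h1 := (hsum L.length le_rfl).1
  have b0 : b 0 = A (rg L 0) := by simp [b, h0]
  have bn : b L.length = A (rg L 0) + g := by simp [b]
  unfold cyc
  omega

/-! ## Blum's lemma -/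

/-- **Blum's lemma**, two rings whose texts agree on `cyc r₁ + cyc r₂ - 1` consecutive places can
be replaced by one cheaper ring -/
theorem blum {r₁ r₂ : List (List ℕ)} (h₁ : r₁ ≠ []) (h₂ : r₂ ≠ []) (hF : FF (r₁ ++ r₂))
    {x y : ℕ} (h : ∀ i, i + 1 < cyc r₁ + cyc r₂ → rw' r₁ (x + i) = rw' r₂ (y + i)) :
    ∃ L : List (List ℕ), L.Perm (r₁ ++ r₂) ∧ cyc L < cyc r₁ + cyc r₂ := by
  have n1 : ∀ t ∈ r₁, t ≠ [] := fun t ht => hF.2 t (List.mem_append_left _ ht)
  have n2 : ∀ t ∈ r₂, t ≠ [] := fun t ht => hF.2 t (List.mem_append_right _ ht)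
  have c1 := cyc_pos h₁ n1
  have c2 := cyc_pos h₂ n2
  have w1 := rw_period h₁ n1
  have w2 := rw_period h₂ n2
  obtain ⟨hg, hall⟩ := fw c1 c2 w1 w2 h
  have hocc : ∀ t ∈ r₁ ++ r₂, ∃ a, Occ (rw' r₁) t a := by
    intro t ht
    rcases List.mem_append.1 ht with h3 | h3
    · exact exists_occ n1 h3
    · obtain ⟨a, ha⟩ := exists_occ n2 h3
      have ha' := ha.add_mul w2 y
      have hge : y ≤ a + cyc r₂ * y := by nlinarith
      obtain ⟨b, hb⟩ := Nat.exists_eq_add_of_le hge
      refine ⟨x + b, fun j hj => ?_⟩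
      rw [← ha' j hj, hb, add_assoc, hall, add_assoc]
  obtain ⟨L, hL, hc⟩ := ring_of_period (Nat.gcd_pos_of_pos_left _ c1) hg hF hocc
  have := Nat.gcd_le_left (cyc r₂) c1
  exact ⟨L, hL, by omega⟩

/-- in a minimum cover two rings have no common factor of length `≥ cyc r₁ + cyc r₂ - 1` -/
theorem blum_le {r₁ r₂ : List (List ℕ)} (h₁ : r₁ ≠ []) (h₂ : r₂ ≠ []) (hF : FF (r₁ ++ r₂))
    (hmin : ∀ L : List (List ℕ), L.Perm (r₁ ++ r₂) → cyc r₁ + cyc r₂ ≤ cyc L)
    {x y l : ℕ} (h : ∀ i < l, rw' r₁ (x + i) = rw' r₂ (y + i)) :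
    l + 2 ≤ cyc r₁ + cyc r₂ := by
  by_contra hc
  push Not at hc
  obtain ⟨L, hL, hlt⟩ := blum h₁ h₂ hF (x := x) (y := y) (fun i hi => h i (by omega))
  have := hmin L hL
  omega

/-- overlaps between different rings of a minimum cover -/
theorem ov_blum {r₁ r₂ : List (List ℕ)} (hF : FF (r₁ ++ r₂))
    (hmin : ∀ L : List (List ℕ), L.Perm (r₁ ++ r₂) → cyc r₁ + cyc r₂ ≤ cyc L)
    {s t : List ℕ} (hs : s ∈ r₁) (ht : t ∈ r₂) : ov s t + 2 ≤ cyc r₁ + cyc r₂ := by
  have n1 : ∀ t ∈ r₁, t ≠ [] := fun t ht => hF.2 t (List.mem_append_left _ ht)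
  have n2 : ∀ t ∈ r₂, t ≠ [] := fun t ht => hF.2 t (List.mem_append_right _ ht)
  obtain ⟨a, ha⟩ := exists_occ n1 hs
  obtain ⟨b, hb⟩ := exists_occ n2 ht
  have hle := ov_le_left s t
  have hle2 := ov_le_right s t
  refine blum_le (List.ne_nil_of_mem hs) (List.ne_nil_of_mem ht) hF hmin
    (x := a + (s.length - ov s t)) (y := b) ?_
  intro i hi
  rw [hb i (by omega), add_assoc, ha _ (by omega)]
  exact ovl_getD (ovl_ov s t) hi

end Crest.Agent.R287
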