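import Crest.Agent.R287.Wrap

/-!
# Row 287 (S0432): reduction to factor-free families (helper85)
-/

set_option autoImplicit false

namespace Crest.Agent.R287

open Crest.Enc Crest.Agent.PolyT PEnc

/-- infix test -/
def infB (s t : List ℕ) : Bool :=
  (List.range (t.length + 1)).any fun i => decide ((t.drop i).take s.length = s)

theorem infB_iff (s t : List ℕ) : infB s t = true ↔ s <:+: t := by
  unfold infB
  rw [List.any_eq_true]
  constructor
  · rintro ⟨i, _, hi⟩
    rw [decide_eq_true_eq] at hi
    refine ⟨t.take i, (t.drop i).drop s.length, ?_⟩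
    have h2 : s ++ (t.drop i).drop s.length = t.drop i := by
      conv_lhs => enter [1]; rw [← hi]
      exact List.take_append_drop _ _
    rw [List.append_assoc, h2]
    exact List.take_append_drop _ _
  · rintro ⟨p, q, h⟩
    refine ⟨p.length, ?_, ?_⟩
    · rw [List.mem_range, ← h]; simp only [List.length_append]; omega
    · rw [decide_eq_true_eq, ← h]
      simp

theorem infB_pt {α : Type} [PEnc α] {f g : α → List ℕ} (hf : PT f) (hg : PT g) :
    PT (fun a => infB (f a) (g a)) := by
  unfold infB
  refine PT.anyRange (n := fun a => (g a).length + 1)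
    (f := fun a i => decide (((g a).drop i).take (f a).length = f a)) ?_ ?_ ?_
  · exact PT.natAdd (PT.length hg) (PT.const 1)
  · exact (PT.pb_length hg).add (PB.const 1)
  · exact PT.eq (PT.take (PT.length (PT.comp hf (PT.fst PT.id)))
      (PT.drop (PT.unVal (PT.snd PT.id)) (PT.comp hg (PT.fst PT.id)))) (PT.comp hf (PT.fst PT.id))

/-- add a string to a factor-free family -/
def addStr (acc : List (List ℕ)) (s : List ℕ) : List (List ℕ) :=
  if s.isEmpty || acc.any (fun t => infB s t) then acc
  else s :: acc.filter (fun t => !(infB t s))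

/-- a factor-free family with the same superstrings -/
def core (S : List (List ℕ)) : List (List ℕ) := S.foldl addStr []

theorem sz_filter_le {β : Type} [PEnc β] (p : β → Bool) (l : List β) : sz (l.filter p) ≤ sz l := by
  induction l with
  | nil => simp
  | cons a l ih =>
    rw [List.filter_cons]
    split_ifs
    · rw [sz_cons, sz_cons]; omega
    · rw [sz_cons]; omega

theorem core_pt {α : Type} [PEnc α] {f : α → List (List ℕ)} (hf : PT f) :
    PT (fun a => core (f a)) := by
  unfold core
  refine PT.foldl_inv (l := f) (z := fun _ => ([] : List (List ℕ)))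
    (s := fun _ c s => addStr c s) hf (by fun_prop) ?_
    (fun a => (f a).length * (2 * sz (f a) + 1)) ?_
    (fun a i c => sz c ≤ i * (2 * sz (f a) + 1)) ?_ ?_ ?_
  · unfold addStr
    have h1 : PT (fun p : α × List (List ℕ) × List ℕ => p.2.1.any fun t => infB p.2.2 t) := by
      refine PT.any (l := fun p : α × List (List ℕ) × List ℕ => p.2.1)
        (f := fun p t => infB p.2.2 t) (by fun_prop) ?_
      exact infB_pt (by fun_prop) (by fun_prop)
    have h2 : PT (fun p : α × List (List ℕ) × List ℕ => p.2.1.filter fun t => !(infB t p.2.2)) := by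
      refine PT.filter (l := fun p : α × List (List ℕ) × List ℕ => p.2.1)
        (f := fun p t => !(infB t p.2.2)) (by fun_prop) ?_
      exact PT.not (infB_pt (by fun_prop) (by fun_prop))
    exact PT.ite (c := fun p : α × List (List ℕ) × List ℕ =>
      (p.2.2.isEmpty || p.2.1.any fun t => infB p.2.2 t) = true)
      (PT.eq (PT.or (by fun_prop) h1) (PT.const true)) (by fun_prop)
      (PT.cons (by fun_prop) h2)
  · exact (PT.pb_length hf).mul (((PB.const 2).mul (PT.pb_sz hf)).add (PB.const 1))
  · intro a; simp
  · intro a i c x hx hc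
    have h4 : (i + 1) * (2 * sz (f a) + 1) = i * (2 * sz (f a) + 1) + (2 * sz (f a) + 1) := by ring
    unfold addStr
    split_ifs with h0
    · omega
    · rw [sz_cons]
      have h1 := sz_filter_le (fun t => !(infB t x)) c
      have h2 : sz x ≤ sz (f a) := sz_le_of_mem (List.mem_of_getElem? hx)
      omega
  · intro a i c hi hc
    exact hc.trans (Nat.mul_le_mul_right _ hi)

/-- factor-free: no member is a factor of another one -/
def FF (S : List (List ℕ)) : Prop :=
  S.Pairwise (fun s t => ¬ s <:+: t ∧ ¬ t <:+: s) ∧ ∀ s ∈ S, s ≠ []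

theorem FF_addStr {acc : List (List ℕ)} {s : List ℕ} (h : FF acc) : FF (addStr acc s) := by
  unfold addStr
  split_ifs with h0
  · exact h
  · simp only [Bool.or_eq_true, not_or, List.any_eq_true, not_exists, not_and] at h0
    obtain ⟨h1, h2⟩ := h0
    refine ⟨?_, ?_⟩
    · rw [List.pairwise_cons]
      refine ⟨?_, List.Pairwise.filter _ h.1⟩
      intro t ht
      rw [List.mem_filter] at ht
      refine ⟨fun h3 => h2 t ht.1 ((infB_iff s t).2 h3), fun h3 => ?_⟩
      have := (infB_iff t s).2 h3
      simp [this] at ht
    · intro t ht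
      rw [List.mem_cons] at ht
      rcases ht with ht | ht
      · rw [ht]
        intro h3
        rw [h3] at h1
        simp at h1
      · exact h.2 t (List.mem_filter.1 ht).1

theorem addStr_cover {acc : List (List ℕ)} {s : List ℕ} (t : List ℕ)
    (ht : t = s ∨ ∃ u ∈ acc, t <:+: u) : t = [] ∨ ∃ u ∈ addStr acc s, t <:+: u := by
  unfold addStr
  split_ifs with h0
  · rcases ht with ht | ht
    · subst ht
      rw [Bool.or_eq_true] at h0
      rcases h0 with h0 | h0
      · left; simpa using h0
      · right
        rw [List.any_eq_true] at h0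
        obtain ⟨u, hu, h1⟩ := h0
        exact ⟨u, hu, (infB_iff _ _).1 h1⟩
    · exact Or.inr ht
  · right
    rcases ht with ht | ⟨u, hu, h1⟩
    · exact ⟨s, by simp, by rw [ht]⟩
    · by_cases h2 : infB u s = true
      · exact ⟨s, by simp, h1.trans ((infB_iff _ _).1 h2)⟩
      · refine ⟨u, ?_, h1⟩
        rw [List.mem_cons, List.mem_filter]
        right
        exact ⟨hu, by simpa using h2⟩

theorem core_aux (S : List (List ℕ)) : ∀ acc : List (List ℕ), FF acc →
    FF (S.foldl addStr acc) ∧
    (∀ t, (t ∈ S ∨ ∃ u ∈ acc, t <:+: u) → t = [] ∨ ∃ u ∈ S.foldl addStr acc, t <:+: u) ∧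
    (∀ t ∈ S.foldl addStr acc, t ∈ S ∨ t ∈ acc) := by
  induction S with
  | nil =>
    intro acc h
    refine ⟨h, ?_, fun t ht => Or.inr ht⟩
    intro t ht
    rcases ht with ht | ht
    · simp at ht
    · exact Or.inr ht
  | cons s S ih =>
    intro acc h
    obtain ⟨h1, h2, h3⟩ := ih (addStr acc s) (FF_addStr h)
    refine ⟨h1, ?_, ?_⟩
    · intro t ht
      rw [List.foldl_cons]
      by_cases hS : t ∈ S
      · exact h2 t (Or.inl hS)
      · have h4 : t = s ∨ ∃ u ∈ acc, t <:+: u := by
          rcases ht with ht | ht
          · rcases List.mem_cons.1 ht with h5 | h5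
            · exact Or.inl h5
            · exact absurd h5 hS
          · exact Or.inr ht
        rcases addStr_cover t h4 with h5 | h5
        · exact Or.inl h5
        · exact h2 t (Or.inr h5)
    · intro t ht
      rw [List.foldl_cons] at ht
      rcases h3 t ht with h4 | h4
      · left; simp [h4]
      · unfold addStr at h4
        split_ifs at h4
        · exact Or.inr h4
        · rcases List.mem_cons.1 h4 with h5 | h5
          · left; simp [h5]
          · right; exact (List.mem_filter.1 h5).1

theorem core_FF (S : List (List ℕ)) : FF (core S) :=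
  (core_aux S [] ⟨List.Pairwise.nil, by simp⟩).1

theorem core_cover (S : List (List ℕ)) (s : List ℕ) (hs : s ∈ S) :
    s = [] ∨ ∃ u ∈ core S, s <:+: u :=
  (core_aux S [] ⟨List.Pairwise.nil, by simp⟩).2.1 s (Or.inl hs)

theorem core_sub (S : List (List ℕ)) (s : List ℕ) (hs : s ∈ core S) : s ∈ S := by
  rcases (core_aux S [] ⟨List.Pairwise.nil, by simp⟩).2.2 s hs with h | h
  · exact h
  · simp at h

/-- **wrapper 2**: a polynomial time algorithm on factor-free families is enough -/
theorem wrap2 (alg : List (List ℕ) → List ℕ) (hpt : PT alg)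
    (h1 : ∀ S : List (List ℕ), FF S → ∀ s ∈ S, s <:+: alg S)
    (h2 : ∀ (S : List (List ℕ)), FF S → ∀ T' : List ℕ, (∀ s ∈ S, s <:+: T') →
      (alg S).length ≤ 2 * T'.length) :
    ∃ f : List Bool → List Bool, Crest.Complexity.PolyTime f ∧
      ∀ S : List (List ℕ), ∃ T : List ℕ,
        f (natCode S.length ++ (S.map listCode).flatten) = listCode T ∧
        (∀ s ∈ S, s <:+: T) ∧
        ∀ T' : List ℕ, (∀ s ∈ S, s <:+: T') → T.length ≤ 2 * T'.length := by
  refine wrap (fun S => alg (core S)) (PT.comp hpt (core_pt PT.id)) ?_ ?_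
  · intro S s hs
    rcases core_cover S s hs with h | ⟨u, hu, h⟩
    · rw [h]; exact List.nil_infix
    · exact h.trans (h1 _ (core_FF S) u hu)
  · intro S T' hT
    exact h2 _ (core_FF S) T' (fun s hs => hT s (core_sub S s hs))

end Crest.Agent.R287
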