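import Crest.Agent.R287.MinAssign

/-!
# Row 287 (S0432): `minAssign` is computable in polynomial time (helper33)
-/

set_option autoImplicit false

namespace Crest.Agent.R287.MA

open Crest.Agent.PolyT PEnc

variable {α : Type} [PEnc α]

theorem sz_list_le {β : Type} [PEnc β] (b : ℕ) (l : List β) (h : ∀ x ∈ l, sz x ≤ b) :
    sz l ≤ l.length * (2 * b + 1) := by
  induction l with
  | nil => simp
  | cons a l ih =>
    rw [sz_cons, List.length_cons]
    have h1 := h a (by simp)
    have h2 := ih fun x hx => h x (List.mem_cons_of_mem _ hx)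
    have h3 : (l.length + 1) * (2 * b + 1) = l.length * (2 * b + 1) + (2 * b + 1) := by ring
    omega

theorem sz_natList_le (n m : ℕ) (l : List ℕ) (hl : l.length ≤ m) (h : ∀ x ∈ l, x ≤ n) :
    sz l ≤ m * (2 * n + 1) :=
  (sz_list_le n l fun x hx => (sz_nat_le x).trans (h x hx)).trans (Nat.mul_le_mul_right _ hl)

theorem ent_pt {C : α → List (List ℤ)} {i j : α → ℕ} (hC : PT C) (hi : PT i) (hj : PT j) :
    PT (fun a => ent (C a) (i a) (j a)) := by
  unfold ent
  exact PT.listGetD (PT.listGetD hC hi (PT.const [])) hj (PT.const 0)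

theorem dd_pt {C : α → List (List ℤ)} {s : α → List ℕ} {i j : α → ℕ} (hC : PT C) (hs : PT s)
    (hi : PT i) (hj : PT j) : PT (fun a => dd (C a) (s a) (i a) (j a)) := by
  unfold dd
  exact PT.intSub (ent_pt hC hi (PT.listGetD hs hj (PT.const 0)))
    (ent_pt hC hi (PT.listGetD hs hi (PT.const 0)))

theorem wcost_pt {C : α → List (List ℤ)} {s r : α → List ℕ} {j : α → ℕ} (hC : PT C) (hs : PT s)
    (hr : PT r) (hj : PT j) : PT (fun a => wcost (dd (C a) (s a)) (r a) (j a)) := by
  unfold wcost
  refine PT.intSumRange (PT.length hr) (PT.pb_length hr) ?_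
  have hC' : PT (fun p : α × Un => C p.1) := PT.comp hC (PT.fst PT.id)
  have hs' : PT (fun p : α × Un => s p.1) := PT.comp hs (PT.fst PT.id)
  have hr' : PT (fun p : α × Un => r p.1) := PT.comp hr (PT.fst PT.id)
  have hj' : PT (fun p : α × Un => j p.1) := PT.comp hj (PT.fst PT.id)
  have ht : PT (fun p : α × Un => p.2.val) := PT.unVal (PT.snd PT.id)
  exact dd_pt hC' hs' (PT.listGetD hr' ht (PT.const 0)) (PT.listGetD (PT.cons hj' hr') ht (PT.const 0))

theorem argmin_pt {n : α → ℕ} {f : α → ℕ → ℤ} (hn : PT n) (hb : PB n)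
    (hf : PT (fun p : α × Un => f p.1 p.2.val)) : PT (fun a => argmin (n a) (f a)) := by
  unfold argmin
  refine PT.unVal ?_
  refine PT.foldl_inv (l := fun a => (List.range (n a)).map Un.mk) (z := fun _ => Un.mk 0)
    (s := fun a b m => if f a m.val < f a b.val then m else b) (PT.rangeUn hn hb) (PT.const _) ?_
    n hb (fun a _ c => c.val ≤ n a) (fun a => Nat.zero_le _) ?_ ?_
  · have h1 : PT (fun p : α × Un × Un => f p.1 p.2.2.val) :=
      PT.comp hf (PT.pair (PT.fst PT.id) (PT.snd (PT.snd PT.id)))
    have h2 : PT (fun p : α × Un × Un => f p.1 p.2.1.val) :=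
      PT.comp hf (PT.pair (PT.fst PT.id) (PT.fst (PT.snd PT.id)))
    exact PT.ite (c := fun p : α × Un × Un => f p.1 p.2.2.val < f p.1 p.2.1.val) (PT.intLt h1 h2)
      (PT.snd (PT.snd PT.id)) (PT.fst (PT.snd PT.id))
  · intro a i c x hx hc
    have hx' := List.mem_of_getElem? hx
    rw [List.mem_map] at hx'
    obtain ⟨m, hm, rfl⟩ := hx'
    have := List.mem_range.1 hm
    simp only
    split_ifs
    · exact this.le
    · exact hc
  · intro a i c _ hc
    rw [sz_un]
    exact hc

theorem wstep_pt {n : α → ℕ} {C : α → List (List ℤ)} {s : α → List ℕ} {T : α → List (List ℕ)}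
    (hn : PT n) (hb : PB n) (hC : PT C) (hs : PT s) (hT : PT T) :
    PT (fun a => wstep (n a) (dd (C a) (s a)) (T a)) := by
  unfold wstep
  refine PT.mapRange hn hb ?_
  have hTm : PT (fun p : (α × Un) × Un => (T p.1.1).getD p.2.val []) :=
    PT.listGetD (PT.comp hT (PT.fst (PT.fst PT.id))) (PT.unVal (PT.snd PT.id)) (PT.const [])
  have hm : PT (fun p : α × Un => argmin (n p.1) fun m =>
      wcost (dd (C p.1) (s p.1)) (m :: (T p.1).getD m []) p.2.val) := by
    refine argmin_pt (f := fun (p : α × Un) m =>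
      wcost (dd (C p.1) (s p.1)) (m :: (T p.1).getD m []) p.2.val) (PT.comp hn (PT.fst PT.id))
      (PB.fst hb) ?_
    exact wcost_pt (PT.comp hC (PT.fst (PT.fst PT.id))) (PT.comp hs (PT.fst (PT.fst PT.id)))
      (PT.cons (PT.unVal (PT.snd PT.id)) hTm) (PT.unVal (PT.snd (PT.fst PT.id)))
  exact PT.cons hm (PT.listGetD (PT.comp hT (PT.fst PT.id)) hm (PT.const []))

theorem walk_pt {n : α → ℕ} {C : α → List (List ℤ)} {s : α → List ℕ} {i k j : α → ℕ}
    (hn : PT n) (hb : PB n) (hC : PT C) (hs : PT s) (hi : PT i) (hib : PB i) (hk : PT k) (hkb : PB k)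
    (hj : PT j) : PT (fun a => walk (n a) (dd (C a) (s a)) (i a) (k a) (j a)) := by
  unfold walk
  refine PT.listGetD ?_ hj (PT.const [])
  refine PT.iterate (s := fun a T => wstep (n a) (dd (C a) (s a)) T) hk hkb
    (PT.replicate hn hb (PT.cons hi (PT.const []))) ?_
    (fun a => n a * (2 * ((k a + 1) * (2 * (n a + i a) + 1)) + 1)) ?_ ?_
  · exact wstep_pt (PT.comp hn (PT.fst PT.id)) (PB.fst hb) (PT.comp hC (PT.fst PT.id))
      (PT.comp hs (PT.fst PT.id)) (PT.snd PT.id)
  · exact hb.mul (((PB.const 2).mul ((hkb.add (PB.const 1)).mul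
      (((PB.const 2).mul (hb.add hib)).add (PB.const 1)))).add (PB.const 1))
  · intro a m hm
    have key : ∀ m, ((wstep (n a) (dd (C a) (s a)))^[m] (List.replicate (n a) [i a])).length ≤ n a ∧
        ∀ r ∈ ((wstep (n a) (dd (C a) (s a)))^[m] (List.replicate (n a) [i a])),
          r.length ≤ m + 1 ∧ ∀ x ∈ r, x ≤ n a + i a := by
      intro m
      induction m with
      | zero =>
        refine ⟨by simp, ?_⟩
        intro r hr
        rw [Function.iterate_zero, id] at hr
        rw [List.eq_of_mem_replicate hr]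
        refine ⟨by simp, ?_⟩
        intro x hx
        simp only [List.mem_cons, List.not_mem_nil, or_false] at hx
        omega
      | succ m ih =>
        rw [Function.iterate_succ_apply']
        set T := (wstep (n a) (dd (C a) (s a)))^[m] (List.replicate (n a) [i a]) with hT
        refine ⟨by simp [wstep], ?_⟩
        intro r hr
        unfold wstep at hr
        rw [List.mem_map] at hr
        obtain ⟨j', hj', rfl⟩ := hr
        have hn0 : 0 < n a := lt_of_le_of_lt (Nat.zero_le _) (List.mem_range.1 hj')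
        set q := argmin (n a) fun m => wcost (dd (C a) (s a)) (m :: T.getD m []) j' with hq
        have hqn : q < n a := argmin_lt hn0 _
        have h1 : T.getD q [] = [] ∨ T.getD q [] ∈ T := by
          by_cases hmT : q < T.length
          · right
            rw [List.getD_eq_getElem _ _ hmT]
            exact List.getElem_mem hmT
          · left
            exact List.getD_eq_default _ _ (not_lt.1 hmT)
        rcases h1 with h1 | h1
        · rw [h1]
          refine ⟨by simp, ?_⟩
          intro x hx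
          simp only [List.mem_cons, List.not_mem_nil, or_false] at hx
          omega
        · obtain ⟨h2, h3⟩ := ih.2 _ h1
          refine ⟨by rw [List.length_cons]; omega, ?_⟩
          intro x hx
          rcases List.mem_cons.1 hx with hx | hx
          · omega
          · exact h3 x hx
    obtain ⟨k1, k2⟩ := key m
    refine (sz_list_le ((k a + 1) * (2 * (n a + i a) + 1)) _ ?_).trans
      (Nat.mul_le_mul_right _ k1)
    intro r hr
    obtain ⟨h2, h3⟩ := k2 r hr
    exact sz_natList_le (n a + i a) (k a + 1) r (by omega) h3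

theorem nx_pt {i x : α → ℕ} {r : α → List ℕ} (hi : PT i) (hr : PT r) (hx : PT x) :
    PT (fun a => nx (i a) (r a) (x a)) := by
  unfold nx
  have h1 : PT (fun a => (r a).any fun y => decide (y = x a)) := by
    refine PT.any (l := r) (f := fun a y => decide (y = x a)) hr ?_
    exact PT.eq (PT.snd PT.id) (PT.comp hx (PT.fst PT.id))
  have h2 : PT (fun a => (r a).takeWhile fun y => decide (y ≠ x a)) := by
    refine PT.takeWhile (l := r) (f := fun a y => decide (y ≠ x a)) hr ?_
    exact PT.ne (PT.snd PT.id) (PT.comp hx (PT.fst PT.id))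
  exact PT.ite (c := fun a => ((r a).any fun y => decide (y = x a)) = true)
    (PT.eq h1 (PT.const true)) (PT.listGetD (PT.cons hi hr) (PT.length h2) (PT.const 0)) hx

theorem ap_pt {n i : α → ℕ} {r s : α → List ℕ} (hn : PT n) (hb : PB n) (hi : PT i) (hr : PT r)
    (hs : PT s) : PT (fun a => ap (n a) (i a) (r a) (s a)) := by
  unfold ap
  refine PT.mapRange hn hb ?_
  exact PT.listGetD (PT.comp hs (PT.fst PT.id)) (nx_pt (PT.comp hi (PT.fst PT.id))
    (PT.comp hr (PT.fst PT.id)) (PT.unVal (PT.snd PT.id))) (PT.const 0)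

theorem cost_pt {n : α → ℕ} {C : α → List (List ℤ)} {s : α → List ℕ} (hn : PT n) (hb : PB n)
    (hC : PT C) (hs : PT s) : PT (fun a => cost (n a) (C a) (s a)) := by
  unfold cost
  refine PT.intSumRange hn hb ?_
  exact ent_pt (PT.comp hC (PT.fst PT.id)) (PT.unVal (PT.snd PT.id))
    (PT.listGetD (PT.comp hs (PT.fst PT.id)) (PT.unVal (PT.snd PT.id)) (PT.const 0))

theorem valid_pt {n : α → ℕ} {s : α → List ℕ} (hn : PT n) (hb : PB n) (hs : PT s) :
    PT (fun a => valid (n a) (s a)) := by
  unfold valid
  have h1 : PT (fun a => decide ((s a).length = n a)) := PT.eq (PT.length hs) hn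
  have h2 : PT (fun a => (s a).all fun u => decide (u < n a)) := by
    refine PT.all (l := s) (f := fun a u => decide (u < n a)) hs ?_
    exact PT.natLt (PT.snd PT.id) (PT.comp hn (PT.fst PT.id))
  have h3 : PT (fun a => (List.range (n a)).all fun v => (s a).any fun u => decide (u = v)) := by
    refine PT.allRange (f := fun a v => (s a).any fun u => decide (u = v)) hn hb ?_
    refine PT.any (l := fun p : α × Un => s p.1) (f := fun p u => decide (u = p.2.val))
      (PT.comp hs (PT.fst PT.id)) ?_
    exact PT.eq (PT.snd PT.id) (PT.unVal (PT.snd (PT.fst PT.id)))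
  exact PT.and (PT.and h1 h2) h3

theorem sz_valid {n : ℕ} {s : List ℕ} (h : valid n s = true) : sz s ≤ n * (2 * n + 1) := by
  obtain ⟨h1, h2, -⟩ := valid_iff.1 h
  exact sz_natList_le n n s h1.le fun x hx => (h2 x hx).le

theorem improve_pt {n : α → ℕ} {C : α → List (List ℤ)} {s : α → List ℕ} (hn : PT n) (hb : PB n)
    (hC : PT C) (hs : PT s) : PT (fun a => improve (n a) (C a) (s a)) := by
  unfold improve
  have hL : PT (fun a => (List.range (n a)).flatMap fun i => (List.range (n a)).map fun k =>
      ap (n a) i (walk (n a) (dd (C a) (s a)) i k i) (s a)) := by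
    refine PT.flatMapRange hn hb ?_
    refine PT.mapRange (PT.comp hn (PT.fst PT.id)) (PB.fst hb) ?_
    have hn' : PT (fun p : (α × Un) × Un => n p.1.1) := PT.comp hn (PT.fst (PT.fst PT.id))
    have hb' : PB (fun p : (α × Un) × Un => n p.1.1) := PB.fst (PB.fst hb)
    have hC' : PT (fun p : (α × Un) × Un => C p.1.1) := PT.comp hC (PT.fst (PT.fst PT.id))
    have hs' : PT (fun p : (α × Un) × Un => s p.1.1) := PT.comp hs (PT.fst (PT.fst PT.id))
    have hi' : PT (fun p : (α × Un) × Un => p.1.2.val) := PT.unVal (PT.snd (PT.fst PT.id))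
    have hk' : PT (fun p : (α × Un) × Un => p.2.val) := PT.unVal (PT.snd PT.id)
    exact ap_pt hn' hb' hi' (walk_pt hn' hb' hC' hs' hi' (PB.unVal (PT.snd (PT.fst PT.id))) hk'
      (PB.unVal (PT.snd PT.id)) hi') hs'
  refine PT.foldl_inv (l := fun a => (List.range (n a)).flatMap fun i =>
      (List.range (n a)).map fun k => ap (n a) i (walk (n a) (dd (C a) (s a)) i k i) (s a)) (z := s)
    (s := fun a b t => if (valid (n a) t && decide (cost (n a) (C a) t < cost (n a) (C a) b)) = true
      then t else b) hL hs ?_ (fun a => sz (s a) + n a * (2 * n a + 1)) ?_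
    (fun a _ c => sz c ≤ sz (s a) + n a * (2 * n a + 1)) (fun a => Nat.le_add_right _ _) ?_
    (fun a i c _ hc => hc)
  · have hn' : PT (fun p : α × List ℕ × List ℕ => n p.1) := PT.comp hn (PT.fst PT.id)
    have hb' : PB (fun p : α × List ℕ × List ℕ => n p.1) := PB.fst hb
    have hC' : PT (fun p : α × List ℕ × List ℕ => C p.1) := PT.comp hC (PT.fst PT.id)
    have hbb : PT (fun p : α × List ℕ × List ℕ => p.2.1) := PT.fst (PT.snd PT.id)
    have htt : PT (fun p : α × List ℕ × List ℕ => p.2.2) := PT.snd (PT.snd PT.id)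
    exact PT.ite (c := fun p : α × List ℕ × List ℕ =>
      (valid (n p.1) p.2.2 && decide (cost (n p.1) (C p.1) p.2.2 < cost (n p.1) (C p.1) p.2.1)) = true)
      (PT.eq (PT.and (valid_pt hn' hb' htt) (PT.intLt (cost_pt hn' hb' hC' htt)
        (cost_pt hn' hb' hC' hbb))) (PT.const true)) htt hbb
  · exact (PT.pb_sz hs).add (hb.mul (((PB.const 2).mul hb).add (PB.const 1)))
  · intro a i c x _ hc
    split_ifs with h
    · rw [Bool.and_eq_true] at h
      exact (sz_valid h.1).trans (Nat.le_add_left _ _)
    · exact hc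

/-- **`minAssign` is computable in polynomial time** -/
theorem minAssign_pt {B n : α → ℕ} {C : α → List (List ℤ)} (hB : PT B) (hBb : PB B) (hn : PT n)
    (hb : PB n) (hC : PT C) : PT (fun a => minAssign (B a) (n a) (C a)) := by
  unfold minAssign
  refine PT.iterate (s := fun a s => improve (n a) (C a) s) hB hBb (PT.range hn hb) ?_
    (fun a => n a * (2 * n a + 1)) (hb.mul (((PB.const 2).mul hb).add (PB.const 1))) ?_
  · exact improve_pt (PT.comp hn (PT.fst PT.id)) (PB.fst hb) (PT.comp hC (PT.fst PT.id))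
      (PT.snd PT.id)
  · intro a i _
    exact sz_valid (minAssign_valid i (n a) (C a))

end Crest.Agent.R287.MA
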