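import Crest.Agent.Lib.PolyTime.Api

/-!
# Row 287 (S0432): cycle decomposition of a permutation list, in polynomial time (helper78)

`σ : List ℕ` is a permutation list: `hσ : σ.Perm (List.range σ.length)`; `stp σ x = σ[x]`.
`ring σ x` is the list `[x, σ x, σ² x, …]` of the cycle of `x`, `rings σ` the list of all cycles
(each one starting with its least element).
-/

set_option autoImplicit false

namespace Crest.Agent.R287

open Crest.Agent.PolyT PEnc

/-- one step of the permutation -/
def stp (σ : List ℕ) (x : ℕ) : ℕ := σ.getD x 0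

/-- `k` steps -/
def itr (σ : List ℕ) (k x : ℕ) : ℕ := (stp σ)^[k] x

/-- length of the cycle of `x` -/
def per (σ : List ℕ) (x : ℕ) : ℕ :=
  ((List.range σ.length).filter fun k => decide (itr σ (k + 1) x = x)).headD 0 + 1

/-- the cycle of `x`, starting with `x` -/
def ring (σ : List ℕ) (x : ℕ) : List ℕ := (List.range (per σ x)).map fun k => itr σ k x

/-- `x` is the least element of its cycle -/
def isRep (σ : List ℕ) (x : ℕ) : Bool :=
  (List.range σ.length).all fun k => decide (x ≤ itr σ k x)

/-- all cycles -/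
def rings (σ : List ℕ) : List (List ℕ) := ((List.range σ.length).filter (isRep σ)).map (ring σ)

/-- the least element of the cycle of `x`: the name of the cycle -/
def rep (σ : List ℕ) (x : ℕ) : ℕ :=
  ((List.range σ.length).filter fun y => decide (isRep σ y = true ∧ y ∈ ring σ x)).headD 0

/-! ### combinatorics -/

section comb

variable {σ : List ℕ}

theorem itr_zero (x : ℕ) : itr σ 0 x = x := rfl

theorem itr_succ (k x : ℕ) : itr σ (k + 1) x = stp σ (itr σ k x) :=
  Function.iterate_succ_apply' _ _ _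

theorem itr_succ' (k x : ℕ) : itr σ (k + 1) x = itr σ k (stp σ x) := rfl

theorem itr_add (j k x : ℕ) : itr σ (j + k) x = itr σ j (itr σ k x) :=
  Function.iterate_add_apply _ _ _ _

variable (hσ : σ.Perm (List.range σ.length))
include hσ

theorem stp_lt {x : ℕ} (hx : x < σ.length) : stp σ x < σ.length := by
  unfold stp
  rw [List.getD_eq_getElem _ _ hx]
  exact List.mem_range.1 (hσ.subset (List.getElem_mem hx))

theorem itr_lt (k : ℕ) {x : ℕ} (hx : x < σ.length) : itr σ k x < σ.length := by
  induction k with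
  | zero => exact hx
  | succ k ih => rw [itr_succ]; exact stp_lt hσ ih

theorem stp_inj {x y : ℕ} (hx : x < σ.length) (hy : y < σ.length) (h : stp σ x = stp σ y) :
    x = y := by
  unfold stp at h
  rw [List.getD_eq_getElem _ _ hx, List.getD_eq_getElem _ _ hy] at h
  have hnd : σ.Nodup := hσ.nodup_iff.2 List.nodup_range
  exact (List.Nodup.getElem_inj_iff hnd).1 h

theorem itr_inj (k : ℕ) {x y : ℕ} (hx : x < σ.length) (hy : y < σ.length)
    (h : itr σ k x = itr σ k y) : x = y := by
  induction k with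
  | zero => exact h
  | succ k ih =>
    rw [itr_succ, itr_succ] at h
    exact ih (stp_inj hσ (itr_lt hσ k hx) (itr_lt hσ k hy) h)

theorem exists_per {x : ℕ} (hx : x < σ.length) :
    ∃ m, m < σ.length ∧ itr σ (m + 1) x = x := by
  classical
  have hmap : ∀ k ∈ Finset.range (σ.length + 1), itr σ k x ∈ Finset.range σ.length :=
    fun k _ => Finset.mem_range.2 (itr_lt hσ k hx)
  obtain ⟨i, hi, j, hj, hij, h⟩ := Finset.exists_ne_map_eq_of_card_lt_of_maps_to
    (by simp) hmap
  have key : ∀ i j, i < j → j ≤ σ.length → itr σ i x = itr σ j x →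
      ∃ m, m < σ.length ∧ itr σ (m + 1) x = x := by
    intro i j hij hj h
    refine ⟨j - i - 1, by omega, ?_⟩
    have h1 : itr σ j x = itr σ i (itr σ (j - i - 1 + 1) x) := by
      rw [← itr_add]; congr 1; omega
    rw [h1] at h
    exact (itr_inj hσ i hx (itr_lt hσ _ hx) h).symm
  rw [Finset.mem_range] at hi hj
  rcases lt_or_gt_of_ne hij with h1 | h1
  · exact key i j h1 (by omega) h
  · exact key j i h1 (by omega) h.symm

theorem per_spec {x : ℕ} (hx : x < σ.length) :
    0 < per σ x ∧ per σ x ≤ σ.length ∧ itr σ (per σ x) x = x ∧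
      ∀ m, 0 < m → m < per σ x → itr σ m x ≠ x := by
  obtain ⟨m, hm, hmx⟩ := exists_per hσ hx
  unfold per
  rw [List.headD_eq_head?_getD, List.head?_filter]
  cases hf : (List.range σ.length).find? (fun k => decide (itr σ (k + 1) x = x)) with
  | none =>
    rw [List.find?_eq_none] at hf
    exact absurd (by simpa using hmx) (hf m (List.mem_range.2 hm))
  | some i =>
    rw [List.find?_range_eq_some] at hf
    obtain ⟨h1, h2, h3⟩ := hf
    rw [decide_eq_true_eq] at h1
    rw [List.mem_range] at h2
    refine ⟨by simp, by simp; omega, by simpa using h1, ?_⟩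
    intro k hk0 hk
    simp only [Option.getD_some] at hk
    have := h3 (k - 1) (by omega)
    rw [show k - 1 + 1 = k by omega] at this
    simpa using this

theorem per_pos {x : ℕ} (hx : x < σ.length) : 0 < per σ x := (per_spec hσ hx).1

theorem per_le {x : ℕ} (hx : x < σ.length) : per σ x ≤ σ.length := (per_spec hσ hx).2.1

theorem itr_per {x : ℕ} (hx : x < σ.length) : itr σ (per σ x) x = x := (per_spec hσ hx).2.2.1

theorem itr_mod {x : ℕ} (hx : x < σ.length) (k : ℕ) : itr σ k x = itr σ (k % per σ x) x := by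
  have h1 : ∀ q, itr σ (per σ x * q) x = x := by
    intro q
    induction q with
    | zero => rfl
    | succ q ih => rw [Nat.mul_succ, itr_add, itr_per hσ hx, ih]
  conv_lhs => rw [← Nat.mod_add_div k (per σ x), itr_add, h1]

omit hσ in
theorem length_ring (x : ℕ) : (ring σ x).length = per σ x := by
  unfold ring; simp

omit hσ in
theorem getElem_ring {x j : ℕ} (hj : j < (ring σ x).length) : (ring σ x)[j] = itr σ j x := by
  have h : (ring σ x)[j]? = some (itr σ j x) := by
    have h1 : j < per σ x := by rwa [length_ring] at hj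
    unfold ring
    rw [List.getElem?_map, List.getElem?_range h1]
    rfl
  rw [List.getElem?_eq_getElem hj] at h
  exact Option.some.inj h

theorem mem_ring {x y : ℕ} (hx : x < σ.length) : y ∈ ring σ x ↔ ∃ k, y = itr σ k x := by
  unfold ring
  rw [List.mem_map]
  constructor
  · rintro ⟨k, _, rfl⟩; exact ⟨k, rfl⟩
  · rintro ⟨k, rfl⟩
    exact ⟨k % per σ x, List.mem_range.2 (Nat.mod_lt _ (per_pos hσ hx)), (itr_mod hσ hx k).symm⟩

theorem self_mem_ring {x : ℕ} (hx : x < σ.length) : x ∈ ring σ x :=
  (mem_ring hσ hx).2 ⟨0, rfl⟩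

theorem ring_ne_nil {x : ℕ} (hx : x < σ.length) : ring σ x ≠ [] :=
  List.ne_nil_of_mem (self_mem_ring hσ hx)

theorem ring_lt {x y : ℕ} (hx : x < σ.length) (hy : y ∈ ring σ x) : y < σ.length := by
  obtain ⟨k, rfl⟩ := (mem_ring hσ hx).1 hy
  exact itr_lt hσ k hx

theorem nodup_ring {x : ℕ} (hx : x < σ.length) : (ring σ x).Nodup := by
  unfold ring
  refine List.Nodup.map_on ?_ List.nodup_range
  intro i hi j hj h
  rw [List.mem_range] at hi hj
  have key : ∀ i j, i < j → j < per σ x → itr σ i x ≠ itr σ j x := by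
    intro i j hij hj h
    have h1 : itr σ j x = itr σ i (itr σ (j - i) x) := by
      rw [← itr_add]; congr 1; omega
    rw [h1] at h
    exact (per_spec hσ hx).2.2.2 (j - i) (by omega) (by omega)
      (itr_inj hσ i hx (itr_lt hσ _ hx) h).symm
  by_contra hne
  rcases lt_or_gt_of_ne hne with h1 | h1
  · exact key i j h1 hj h
  · exact key j i h1 hi h.symm

/-- cyclic successor -/
theorem ring_next {x j : ℕ} (hx : x < σ.length) (hj : j < (ring σ x).length) :
    stp σ ((ring σ x)[j]) = (ring σ x)[(j + 1) % (ring σ x).length]'(Nat.mod_lt _ (by omega)) := by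
  rw [getElem_ring, getElem_ring, length_ring, ← itr_mod hσ hx, itr_succ]

/-- being in the same cycle is symmetric -/
theorem ring_symm {x y : ℕ} (hx : x < σ.length) (hy : y ∈ ring σ x) : x ∈ ring σ y := by
  obtain ⟨k, rfl⟩ := (mem_ring hσ hx).1 hy
  rw [mem_ring hσ (itr_lt hσ k hx)]
  refine ⟨per σ x * (k + 1) - k, ?_⟩
  have hp := per_pos hσ hx
  have h1 : k ≤ per σ x * (k + 1) := by nlinarith
  rw [← itr_add, Nat.sub_add_cancel h1, itr_mod hσ hx, Nat.mul_mod_right, itr_zero]

theorem ring_trans {x y z : ℕ} (hx : x < σ.length) (hy : y ∈ ring σ x) (hz : z ∈ ring σ y) :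
    z ∈ ring σ x := by
  obtain ⟨k, rfl⟩ := (mem_ring hσ hx).1 hy
  obtain ⟨j, rfl⟩ := (mem_ring hσ (itr_lt hσ k hx)).1 hz
  exact (mem_ring hσ hx).2 ⟨j + k, (itr_add j k x).symm⟩

theorem stp_mem_ring {x y : ℕ} (hx : x < σ.length) (hy : y ∈ ring σ x) : stp σ y ∈ ring σ x := by
  obtain ⟨k, rfl⟩ := (mem_ring hσ hx).1 hy
  exact (mem_ring hσ hx).2 ⟨k + 1, (itr_succ k x).symm⟩

theorem isRep_iff {x : ℕ} (hx : x < σ.length) : isRep σ x = true ↔ ∀ y ∈ ring σ x, x ≤ y := by
  unfold isRep
  rw [List.all_eq_true]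
  constructor
  · intro h y hy
    obtain ⟨k, rfl⟩ := (mem_ring hσ hx).1 hy
    rw [itr_mod hσ hx]
    have := h (k % per σ x) (List.mem_range.2
      (lt_of_lt_of_le (Nat.mod_lt _ (per_pos hσ hx)) (per_le hσ hx)))
    simpa using this
  · intro h k _
    rw [decide_eq_true_eq]
    exact h _ ((mem_ring hσ hx).2 ⟨k, rfl⟩)

theorem exists_rep {x : ℕ} (hx : x < σ.length) :
    ∃ y, y ∈ ring σ x ∧ y < σ.length ∧ isRep σ y = true := by
  classical
  obtain ⟨y, hy, hmin⟩ := Finset.exists_min_image (ring σ x).toFinset (fun y => y)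
    ⟨x, List.mem_toFinset.2 (self_mem_ring hσ hx)⟩
  rw [List.mem_toFinset] at hy
  have hyn := ring_lt hσ hx hy
  refine ⟨y, hy, hyn, (isRep_iff hσ hyn).2 fun z hz => hmin z ?_⟩
  rw [List.mem_toFinset]
  exact ring_trans hσ hx hy hz

theorem rep_unique {x y : ℕ} (hx : x < σ.length) (hy : y < σ.length) (hrx : isRep σ x = true)
    (hry : isRep σ y = true) (h : y ∈ ring σ x) : x = y :=
  le_antisymm ((isRep_iff hσ hx).1 hrx y h) ((isRep_iff hσ hy).1 hry x (ring_symm hσ hx h))

omit hσ in
theorem mem_rings {r : List ℕ} : r ∈ rings σ ↔ ∃ x, x < σ.length ∧ isRep σ x = true ∧ ring σ x = r := by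
  unfold rings
  simp only [List.mem_map, List.mem_filter, List.mem_range]
  constructor
  · rintro ⟨x, ⟨h1, h2⟩, h3⟩; exact ⟨x, h1, h2, h3⟩
  · rintro ⟨x, h1, h2, h3⟩; exact ⟨x, ⟨h1, h2⟩, h3⟩

/-- the cycles partition `{0, …, n-1}` -/
theorem rings_flatten : ((rings σ).flatten).Perm (List.range σ.length) := by
  refine (List.perm_ext_iff_of_nodup ?_ List.nodup_range).2 ?_
  · rw [List.nodup_flatten]
    constructor
    · intro r hr
      obtain ⟨x, hx, _, rfl⟩ := mem_rings.1 hr
      exact nodup_ring hσ hx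
    · unfold rings
      rw [List.pairwise_map]
      have h1 : ((List.range σ.length).filter (isRep σ)).Pairwise
          (fun x y => x ≠ y ∧ (x < σ.length ∧ isRep σ x = true) ∧ (y < σ.length ∧ isRep σ y = true)) := by
        have hnd : ((List.range σ.length).filter (isRep σ)).Nodup :=
          List.Nodup.filter _ List.nodup_range
        refine List.Pairwise.imp_of_mem ?_ hnd
        intro a b ha hb hab
        rw [List.mem_filter, List.mem_range] at ha hb
        exact ⟨hab, ha, hb⟩
      refine h1.imp ?_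
      rintro x y ⟨hxy, ⟨hx, hrx⟩, ⟨hy, hry⟩⟩
      rw [List.disjoint_left]
      intro z hz1 hz2
      refine hxy (rep_unique hσ hx hy hrx hry ?_)
      exact ring_trans hσ hx hz1 (ring_symm hσ hy hz2)
  · intro y
    rw [List.mem_flatten, List.mem_range]
    constructor
    · rintro ⟨r, hr, hy⟩
      obtain ⟨x, hx, _, rfl⟩ := mem_rings.1 hr
      exact ring_lt hσ hx hy
    · intro hy
      obtain ⟨x, hx, hxn, hrx⟩ := exists_rep hσ hy
      exact ⟨ring σ x, mem_rings.2 ⟨x, hxn, hrx, rfl⟩, ring_symm hσ hy hx⟩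

/-- sums over `{0, …, n-1}` are sums over the cycles -/
theorem sum_rings {β : Type} [AddCommMonoid β] (w : ℕ → β) :
    ((rings σ).map fun r => (r.map w).sum).sum = ((List.range σ.length).map w).sum := by
  rw [← ((rings_flatten hσ).map w).sum_eq, List.map_flatten, List.sum_flatten, List.map_map]
  rfl

theorem rep_spec {x : ℕ} (hx : x < σ.length) :
    rep σ x < σ.length ∧ isRep σ (rep σ x) = true ∧ rep σ x ∈ ring σ x := by
  obtain ⟨y, hy, hyn, hry⟩ := exists_rep hσ hx
  unfold rep
  rw [List.headD_eq_head?_getD, List.head?_filter]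
  cases hf : (List.range σ.length).find? (fun y => decide (isRep σ y = true ∧ y ∈ ring σ x)) with
  | none =>
    rw [List.find?_eq_none] at hf
    exact absurd (by simpa using ⟨hry, hy⟩) (hf y (List.mem_range.2 hyn))
  | some i =>
    have h1 := List.find?_some hf
    have h2 := List.mem_of_find?_eq_some hf
    rw [decide_eq_true_eq] at h1
    exact ⟨List.mem_range.1 h2, h1.1, h1.2⟩

theorem rep_eq_iff {x y : ℕ} (hx : x < σ.length) (hy : y < σ.length) :
    rep σ x = rep σ y ↔ y ∈ ring σ x := by
  obtain ⟨h1, h2, h3⟩ := rep_spec hσ hx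
  obtain ⟨h1', h2', h3'⟩ := rep_spec hσ hy
  constructor
  · intro h
    rw [← h] at h3'
    exact ring_trans hσ hx h3 (ring_symm hσ hy h3')
  · intro h
    refine rep_unique hσ h1 h1' h2 h2' ?_
    have h4 : rep σ y ∈ ring σ x := ring_trans hσ hx h h3'
    exact ring_trans hσ h1 (ring_symm hσ hx h3) h4

end comb

/-! ### polynomial time -/

section pt

variable {α : Type} [PEnc α] {f : α → List ℕ} {g n : α → ℕ}

theorem stp_pt (hf : PT f) (hg : PT g) : PT (fun a => stp (f a) (g a)) := by
  unfold stp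
  fun_prop

theorem sz_stp_le (σ : List ℕ) (x : ℕ) : sz (stp σ x) ≤ sz σ := by
  unfold stp
  by_cases hx : x < σ.length
  · rw [List.getD_eq_getElem _ _ hx]
    exact sz_le_of_mem (List.getElem_mem hx)
  · rw [List.getD_eq_default _ _ (by omega)]
    have : sz (0 : ℕ) = 0 := by rfl
    omega

theorem itr_pt (hf : PT f) (hn : PT n) (hb : PB n) (hg : PT g) :
    PT (fun a => itr (f a) (n a) (g a)) := by
  unfold itr
  refine PT.iterate (s := fun a x => stp (f a) x) hn hb hg ?_ (fun a => sz (g a) + sz (f a)) ?_ ?_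
  · exact stp_pt (PT.comp hf (PT.fst PT.id)) (PT.snd PT.id)
  · exact (PT.pb_sz hg).add (PT.pb_sz hf)
  · intro a i _
    cases i with
    | zero => simp
    | succ i =>
      rw [Function.iterate_succ_apply']
      exact (sz_stp_le _ _).trans (Nat.le_add_left _ _)

theorem per_pt (hf : PT f) (hg : PT g) : PT (fun a => per (f a) (g a)) := by
  unfold per
  refine PT.natAdd (PT.headD ?_ (PT.const 0)) (PT.const 1)
  refine PT.filterRange (n := fun a => (f a).length)
    (f := fun a k => decide (itr (f a) (k + 1) (g a) = g a)) (PT.length hf) (PT.pb_length hf) ?_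
  refine PT.eq (itr_pt (PT.comp hf (PT.fst PT.id)) ?_ ?_ (PT.comp hg (PT.fst PT.id)))
    (PT.comp hg (PT.fst PT.id))
  · exact PT.natAdd (PT.unVal (PT.snd PT.id)) (PT.const 1)
  · exact (PB.unVal (PT.snd PT.id)).add (PB.const 1)

theorem per_le_succ (σ : List ℕ) (x : ℕ) : per σ x ≤ σ.length + 1 := by
  unfold per
  rw [List.headD_eq_head?_getD, List.head?_filter]
  cases hf : (List.range σ.length).find? (fun k => decide (itr σ (k + 1) x = x)) with
  | none => simp
  | some i =>
    have h2 := List.mem_range.1 (List.mem_of_find?_eq_some hf)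
    simp only [Option.getD_some]
    omega

theorem per_pb (hf : PT f) : PB (fun a => per (f a) (g a)) :=
  PB.of_le ((PT.pb_length hf).add (PB.const 1)) fun _ => per_le_succ _ _

theorem ring_pt (hf : PT f) (hg : PT g) : PT (fun a => ring (f a) (g a)) := by
  unfold ring
  refine PT.mapRange (n := fun a => per (f a) (g a)) (f := fun a k => itr (f a) k (g a))
    (per_pt hf hg) (per_pb hf) ?_
  exact itr_pt (PT.comp hf (PT.fst PT.id)) (PT.unVal (PT.snd PT.id)) (PB.unVal (PT.snd PT.id))
    (PT.comp hg (PT.fst PT.id))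

theorem isRep_pt (hf : PT f) (hg : PT g) : PT (fun a => isRep (f a) (g a)) := by
  unfold isRep
  refine PT.allRange (n := fun a => (f a).length)
    (f := fun a k => decide (g a ≤ itr (f a) k (g a))) (PT.length hf) (PT.pb_length hf) ?_
  exact PT.natLe (PT.comp hg (PT.fst PT.id)) (itr_pt (PT.comp hf (PT.fst PT.id))
    (PT.unVal (PT.snd PT.id)) (PB.unVal (PT.snd PT.id)) (PT.comp hg (PT.fst PT.id)))

theorem rings_pt (hf : PT f) : PT (fun a => rings (f a)) := by
  unfold rings
  refine PT.map (l := fun a => (List.range (f a).length).filter (isRep (f a)))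
    (f := fun a x => ring (f a) x) ?_ (ring_pt (PT.comp hf (PT.fst PT.id)) (PT.snd PT.id))
  refine PT.filterRange (n := fun a => (f a).length) (f := fun a x => isRep (f a) x)
    (PT.length hf) (PT.pb_length hf) ?_
  exact isRep_pt (PT.comp hf (PT.fst PT.id)) (PT.unVal (PT.snd PT.id))

theorem mem_pt {l : α → List ℕ} (hg : PT g) (hl : PT l) : PT (fun a => decide (g a ∈ l a)) := by
  have h : (fun a => decide (g a ∈ l a)) = fun a => (l a).any fun y => decide (y = g a) := by
    funext a
    rw [Bool.eq_iff_iff, decide_eq_true_eq, List.any_eq_true]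
    constructor
    · intro h; exact ⟨_, h, by simp⟩
    · rintro ⟨y, hy, h⟩
      rw [decide_eq_true_eq] at h
      rwa [← h]
  rw [h]
  exact PT.any (l := l) (f := fun a y => decide (y = g a)) hl
    (PT.eq (PT.snd PT.id) (PT.comp hg (PT.fst PT.id)))

theorem rep_pt (hf : PT f) (hg : PT g) : PT (fun a => rep (f a) (g a)) := by
  unfold rep
  refine PT.headD ?_ (PT.const 0)
  refine PT.filterRange (n := fun a => (f a).length)
    (f := fun a y => decide (isRep (f a) y = true ∧ y ∈ ring (f a) (g a)))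
    (PT.length hf) (PT.pb_length hf) ?_
  have h : (fun p : α × Un => decide (isRep (f p.1) p.2.val = true ∧ p.2.val ∈ ring (f p.1) (g p.1)))
      = fun p : α × Un => (isRep (f p.1) p.2.val && decide (p.2.val ∈ ring (f p.1) (g p.1))) := by
    funext p
    rw [Bool.eq_iff_iff]
    simp
  rw [h]
  refine PT.and (isRep_pt (PT.comp hf (PT.fst PT.id)) (PT.unVal (PT.snd PT.id))) ?_
  exact mem_pt (PT.unVal (PT.snd PT.id)) (ring_pt (PT.comp hf (PT.fst PT.id))
    (PT.comp hg (PT.fst PT.id)))

end pt

end Crest.Agent.R287
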