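import Crest.Agent.R287.Monge
import Crest.Agent.R287.MinAssignPT
import Crest.Agent.R287.Rings

/-!
# Row 287 (S0432): the minimum cycle cover in polynomial time, with the stability property (helper78)

`S : List (List ℕ)` (append the empty string if you want `eps`), `ovm S i j` = overlap of the members
number `i` and `j`, `cov S : List ℕ` = permutation list maximising `∑ ov(i, σ i)` and, among those,
`∑ ov(i, σ i)²`; hence (`cov_spec`) it is STABLE: `ov(i, j) ≤ max (ov(i, σ i)) (ov(l, σ l))` for
`σ l = j`.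
-/

set_option autoImplicit false

namespace Crest.Agent.R287

open Crest.Agent.PolyT PEnc

/-- overlap of the members number `i` and `j` -/
def ovm (S : List (List ℕ)) (i j : ℕ) : ℕ := ov (S.getD i []) (S.getD j [])

/-- total length -/
def LL (S : List (List ℕ)) : ℕ := (S.map List.length).sum

/-- the big factor -/
def BB (S : List (List ℕ)) : ℕ := S.length * (LL S * LL S) + 1

/-- cost matrix -/
def cmat (S : List (List ℕ)) : List (List ℤ) :=
  (List.range S.length).map fun i => (List.range S.length).map fun j =>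
    -((ovm S i j * BB S + ovm S i j * ovm S i j : ℕ) : ℤ)

/-- number of rounds -/
def rnds (S : List (List ℕ)) : ℕ := S.length * (LL S * BB S + LL S * LL S)

/-- the minimum cover -/
def cov (S : List (List ℕ)) : List ℕ := MA.minAssign (rnds S) S.length (cmat S)

theorem ov_nil_left (t : List ℕ) : ov [] t = 0 := by
  have := ov_le_left [] t
  simpa using this

theorem ov_nil_right (s : List ℕ) : ov s [] = 0 := by
  have := ov_le_right s []
  simpa using this

theorem length_getD_le (S : List (List ℕ)) (i : ℕ) : (S.getD i []).length ≤ LL S := by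
  by_cases hi : i < S.length
  · rw [List.getD_eq_getElem _ _ hi]
    exact List.single_le_sum (by simp) _ (List.mem_map.2 ⟨_, List.getElem_mem hi, rfl⟩)
  · rw [List.getD_eq_default _ _ (by omega)]
    simp

theorem ovm_le (S : List (List ℕ)) (i j : ℕ) : ovm S i j ≤ LL S :=
  (ov_le_left _ _).trans (length_getD_le S i)

theorem ent_cmat (S : List (List ℕ)) {i j : ℕ} (hi : i < S.length) (hj : j < S.length) :
    MA.ent (cmat S) i j = -((ovm S i j * BB S + ovm S i j * ovm S i j : ℕ) : ℤ) := by
  have h1 : (cmat S).getD i [] = (List.range S.length).map fun j =>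
      -((ovm S i j * BB S + ovm S i j * ovm S i j : ℕ) : ℤ) := by
    unfold cmat
    rw [List.getD_eq_getElem _ _ (by rw [List.length_map, List.length_range]; exact hi),
      List.getElem_map, List.getElem_range]
  unfold MA.ent
  rw [h1, List.getD_eq_getElem _ _ (by rw [List.length_map, List.length_range]; exact hj),
    List.getElem_map, List.getElem_range]

/-- **the cover** -/
theorem cov_spec (S : List (List ℕ)) :
    ∃ e : Equiv.Perm (Fin S.length), (∀ i : Fin S.length, (cov S).getD i 0 = e i) ∧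
      (∀ f : Equiv.Perm (Fin S.length), ∑ i : Fin S.length, ovm S i (f i) ≤
        ∑ i : Fin S.length, ovm S i (e i)) ∧
      ∀ i l : Fin S.length, ovm S i (e l) ≤ max (ovm S i (e i)) (ovm S l (e l)) := by
  classical
  set n := S.length with hn
  set w : ℕ → ℕ → ℕ := fun i j => ovm S i j * BB S + ovm S i j * ovm S i j with hw
  have hsum : ∀ f : Equiv.Perm (Fin n), ∑ i : Fin n, MA.ent (cmat S) i (f i) =
      -((∑ i : Fin n, w i (f i) : ℕ) : ℤ) := by
    intro f
    rw [Nat.cast_sum, ← Finset.sum_neg_distrib]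
    exact Finset.sum_congr rfl fun i _ => ent_cmat S i.2 (f i).2
  have hwle : ∀ i j, w i j ≤ LL S * BB S + LL S * LL S := by
    intro i j
    have h1 := ovm_le S i j
    exact Nat.add_le_add (Nat.mul_le_mul_right _ h1) (Nat.mul_le_mul h1 h1)
  obtain ⟨e, he, hopt⟩ := MA.minAssign_perm (rnds S) n (cmat S) (by
    intro f
    have h1 := hsum 1
    simp only [Equiv.Perm.coe_one, id_eq] at h1
    rw [h1, hsum f]
    have h2 : ∑ i : Fin n, w i (f i) ≤ n * (LL S * BB S + LL S * LL S) := by
      have := Finset.sum_le_card_nsmul Finset.univ (fun i : Fin n => w i (f i)) _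
        (fun i _ => hwle i (f i))
      simpa using this
    have h3 : (rnds S : ℤ) = ((n * (LL S * BB S + LL S * LL S) : ℕ) : ℤ) := rfl
    rw [h3]
    have h4 : ((∑ i : Fin n, w i (f i) : ℕ) : ℤ) ≤ ((n * (LL S * BB S + LL S * LL S) : ℕ) : ℤ) := by
      exact_mod_cast h2
    have h5 : (0 : ℤ) ≤ ((∑ i : Fin n, w i i : ℕ) : ℤ) := by positivity
    linarith)
  have hopt' : ∀ f : Equiv.Perm (Fin n), ∑ i : Fin n, w i (f i) ≤ ∑ i : Fin n, w i (e i) := by
    intro f
    have := hopt f
    rw [hsum, hsum] at this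
    have h1 : ((∑ i : Fin n, w i (f i) : ℕ) : ℤ) ≤ ((∑ i : Fin n, w i (e i) : ℕ) : ℤ) := by
      linarith
    exact_mod_cast h1
  have hsplit : ∀ f : Equiv.Perm (Fin n), ∑ i : Fin n, w i (f i) =
      (∑ i : Fin n, ovm S i (f i)) * BB S + ∑ i : Fin n, ovm S i (f i) * ovm S i (f i) := by
    intro f
    rw [Finset.sum_mul, ← Finset.sum_add_distrib]
  have hsq : ∀ f : Equiv.Perm (Fin n), ∑ i : Fin n, ovm S i (f i) * ovm S i (f i) < BB S := by
    intro f
    have := Finset.sum_le_card_nsmul Finset.univ
      (fun i : Fin n => ovm S i (f i) * ovm S i (f i)) (LL S * LL S)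
      (fun i _ => Nat.mul_le_mul (ovm_le S _ _) (ovm_le S _ _))
    simp only [Finset.card_univ, Fintype.card_fin, smul_eq_mul] at this
    exact Nat.lt_succ_of_le this
  have hmax : ∀ f : Equiv.Perm (Fin n), ∑ i : Fin n, ovm S i (f i) ≤
      ∑ i : Fin n, ovm S i (e i) := by
    intro f
    by_contra hlt
    push Not at hlt
    have h1 := hopt' f
    rw [hsplit, hsplit] at h1
    have h2 := hsq e
    have h3 : (∑ i : Fin n, ovm S i (e i) + 1) * BB S ≤ (∑ i : Fin n, ovm S i (f i)) * BB S :=
      Nat.mul_le_mul_right _ hlt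
    rw [Nat.add_mul, one_mul] at h3
    omega
  refine ⟨e, he, hmax, ?_⟩
  intro i l
  by_contra hlt
  push Not at hlt
  rw [max_lt_iff] at hlt
  obtain ⟨hx1, hx2⟩ := hlt
  have hil : i ≠ l := by
    rintro rfl
    exact absurd hx1 (lt_irrefl _)
  -- the exchange
  set f : Equiv.Perm (Fin n) := (Equiv.swap i l).trans e with hf
  have hfi : f i = e l := by simp [hf]
  have hfl : f l = e i := by simp [hf]
  have hfo : ∀ k, k ≠ i → k ≠ l → f k = e k := by
    intro k h1 h2
    simp [hf, Equiv.swap_apply_of_ne_of_ne h1 h2]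
  have hex : ∀ g : ℕ → ℕ → ℕ, ∑ k : Fin n, g k (f k) + (g i (e i) + g l (e l)) =
      ∑ k : Fin n, g k (e k) + (g i (e l) + g l (e i)) := by
    intro g
    have hl' : l ∈ (Finset.univ.erase i : Finset (Fin n)) := by simp [Ne.symm hil]
    rw [← Finset.add_sum_erase _ (fun k : Fin n => g k (f k)) (Finset.mem_univ i),
      ← Finset.add_sum_erase _ (fun k : Fin n => g k (e k)) (Finset.mem_univ i),
      ← Finset.add_sum_erase _ (fun k : Fin n => g k (f k)) hl',
      ← Finset.add_sum_erase _ (fun k : Fin n => g k (e k)) hl', hfi, hfl]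
    have h0 : ∑ x ∈ (Finset.univ.erase i).erase l, g (x : Fin n) (f x) =
        ∑ x ∈ (Finset.univ.erase i).erase l, g (x : Fin n) (e x) := by
      refine Finset.sum_congr rfl fun k hk => ?_
      rw [Finset.mem_erase, Finset.mem_erase] at hk
      rw [hfo k hk.2.1 hk.1]
    rw [h0]
    ring
  -- Monge
  have hmonge : ovm S i (e i) + ovm S l (e l) ≤ ovm S i (e l) + ovm S l (e i) := by
    by_cases h1 : S.getD (l : ℕ) [] = []
    · have h2 : ovm S l (e l) = 0 := by unfold ovm; rw [h1, ov_nil_left]
      omega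
    by_cases h2 : S.getD ((e i : Fin n) : ℕ) [] = []
    · have h3 : ovm S i (e i) = 0 := by unfold ovm; rw [h2, ov_nil_right]
      omega
    unfold ovm at *
    exact ov_monge h1 h2 hx1.le hx2.le
  have e1 := hex (ovm S)
  have e2 := hmax f
  have e3 := hex fun a b => ovm S a b * ovm S a b
  have e4 := hopt' f
  rw [hsplit, hsplit] at e4
  have e5 : ∑ k : Fin n, ovm S k (f k) = ∑ k : Fin n, ovm S k (e k) := by omega
  rw [e5] at e4
  have e6 : ovm S i (e i) + ovm S l (e l) = ovm S i (e l) + ovm S l (e i) := by omega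
  have e7 : ovm S i (e l) * ovm S i (e l) + ovm S l (e i) * ovm S l (e i) ≤
      ovm S i (e i) * ovm S i (e i) + ovm S l (e l) * ovm S l (e l) := by omega
  zify at hx1 hx2 e6 e7
  nlinarith [mul_pos (sub_pos.2 hx1) (sub_pos.2 hx2)]

theorem cov_valid (S : List (List ℕ)) : MA.valid S.length (cov S) = true :=
  MA.minAssign_valid _ _ _

theorem length_cov (S : List (List ℕ)) : (cov S).length = S.length :=
  (MA.valid_iff.1 (cov_valid S)).1

/-- the hypothesis `hσ` of `Rings.lean` -/
theorem cov_perm (S : List (List ℕ)) : (cov S).Perm (List.range (cov S).length) := by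
  obtain ⟨h1, h2, h3⟩ := MA.valid_iff.1 (cov_valid S)
  rw [h1]
  have hsub : List.range S.length ⊆ cov S := fun v hv => h3 v (List.mem_range.1 hv)
  have hsp := List.Nodup.subperm List.nodup_range hsub
  exact (hsp.perm_of_length_le (by rw [h1, List.length_range])).symm

theorem stp_cov (S : List (List ℕ)) {e : Equiv.Perm (Fin S.length)}
    (he : ∀ i : Fin S.length, (cov S).getD i 0 = e i) (i : Fin S.length) :
    stp (cov S) i = e i := he i

section pt

variable {α : Type} [PEnc α] {f : α → List (List ℕ)} {i j : α → ℕ}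

theorem ovm_pt (hf : PT f) (hi : PT i) (hj : PT j) : PT (fun a => ovm (f a) (i a) (j a)) := by
  unfold ovm
  exact ov_pt (PT.listGetD hf hi (PT.const [])) (PT.listGetD hf hj (PT.const []))

theorem LL_pt (hf : PT f) : PT (fun a => LL (f a)) := by
  unfold LL
  exact PT.listSum (PT.map (f := fun _ s => s.length) hf (PT.length (PT.snd PT.id)))

theorem LL_le_sz (S : List (List ℕ)) : LL S ≤ sz S := by
  unfold LL
  induction S with
  | nil => simp
  | cons a l ih =>
    rw [sz_cons, List.map_cons, List.sum_cons]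
    have h1 : a.length ≤ sz a := by
      clear ih
      induction a with
      | nil => simp
      | cons b m ih => rw [sz_cons, List.length_cons]; omega
    omega

theorem LL_pb (hf : PT f) : PB (fun a => LL (f a)) :=
  PB.of_le (PT.pb_sz hf) fun _ => LL_le_sz _

theorem BB_pt (hf : PT f) : PT (fun a => BB (f a)) := by
  unfold BB
  exact PT.natAdd (PT.natMul (PT.length hf) (PT.natMul (LL_pt hf) (LL_pt hf))) (PT.const 1)

theorem BB_pb (hf : PT f) : PB (fun a => BB (f a)) := by
  unfold BB
  exact ((PT.pb_length hf).mul ((LL_pb hf).mul (LL_pb hf))).add (PB.const 1)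

theorem cmat_pt (hf : PT f) : PT (fun a => cmat (f a)) := by
  unfold cmat
  refine PT.mapRange (n := fun a => (f a).length)
    (f := fun a i => (List.range (f a).length).map fun j =>
      -((ovm (f a) i j * BB (f a) + ovm (f a) i j * ovm (f a) i j : ℕ) : ℤ))
    (PT.length hf) (PT.pb_length hf) ?_
  refine PT.mapRange (n := fun p : α × Un => (f p.1).length)
    (f := fun p j => -((ovm (f p.1) p.2.val j * BB (f p.1) +
      ovm (f p.1) p.2.val j * ovm (f p.1) p.2.val j : ℕ) : ℤ))
    (PT.length (PT.comp hf (PT.fst PT.id))) (PT.pb_length (PT.comp hf (PT.fst PT.id))) ?_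
  have h0 : PT (fun q : (α × Un) × Un => f q.1.1) := PT.comp hf (PT.fst (PT.fst PT.id))
  have h1 : PT (fun q : (α × Un) × Un => ovm (f q.1.1) q.1.2.val q.2.val) :=
    ovm_pt h0 (PT.unVal (PT.snd (PT.fst PT.id))) (PT.unVal (PT.snd PT.id))
  have h2 : PT (fun q : (α × Un) × Un => (0 : ℤ) - ((ovm (f q.1.1) q.1.2.val q.2.val *
      BB (f q.1.1) + ovm (f q.1.1) q.1.2.val q.2.val * ovm (f q.1.1) q.1.2.val q.2.val : ℕ) : ℤ)) :=
    PT.intSub (PT.const 0) (PT.natCast (PT.natAdd (PT.natMul h1 (BB_pt h0)) (PT.natMul h1 h1)))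
  simpa only [zero_sub] using h2

theorem rnds_pt (hf : PT f) : PT (fun a => rnds (f a)) := by
  unfold rnds
  exact PT.natMul (PT.length hf) (PT.natAdd (PT.natMul (LL_pt hf) (BB_pt hf))
    (PT.natMul (LL_pt hf) (LL_pt hf)))

theorem rnds_pb (hf : PT f) : PB (fun a => rnds (f a)) := by
  unfold rnds
  exact (PT.pb_length hf).mul (((LL_pb hf).mul (BB_pb hf)).add ((LL_pb hf).mul (LL_pb hf)))

/-- **the cover is computable in polynomial time** -/
theorem cov_pt (hf : PT f) : PT (fun a => cov (f a)) := by
  unfold cov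
  exact MA.minAssign_pt (rnds_pt hf) (rnds_pb hf) (PT.length hf) (PT.pb_length hf) (cmat_pt hf)

end pt

end Crest.Agent.R287
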