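import Crest.Agent.R287.FW

/-!
# Row 287 (S0432): tours through the empty string as permutations (helper7)

`S : ι → List ℕ`, `e : ι` with `S e = []`.
`tour_cost`: the closed tour `e → l₀ → l₁ → ... → e` costs `tourLen (l.map S)`.
`exists_tour`: a superstring `T'` of a factor-free family gives a permutation `τ` of `ι` with one cycle and
`cost S τ ≤ |T'|`.
`len_le_out`, `len_le_in`: `|S k| ≤ link + per`.
-/

set_option autoImplicit false
set_option linter.unusedSectionVars false

namespace Crest.Agent.R287.Ring

open Finset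

variable {ι : Type*}

/-- cost of the open chain `x → l₀ → ... → z` -/
def chainD (S : ι → List ℕ) : ι → List ι → ι → ℕ
  | x, [], z => dd S x z
  | x, y :: l, z => dd S x y + chainD S y l z

theorem chainD_eq (S : ι → List ℕ) {e : ι} (he : S e = []) (x : ι) (l : List ι) :
    chainD S x l e = (S x).length + chainCost (S x) (l.map S) := by
  induction l generalizing x with
  | nil =>
    have := ov_le_right (S x) (S e)
    simp only [chainD, dd, List.map_nil, chainCost]
    rw [he] at this ⊢
    simp only [List.length_nil] at this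
    omega
  | cons y l ih =>
    have h1 := ov_le_left (S x) (S y)
    have h2 := ov_le_right (S x) (S y)
    simp only [chainD, List.map_cons, chainCost, ih, dd]
    omega

theorem chainD_tour (S : ι → List ℕ) {e : ι} (he : S e = []) (l : List ι) :
    chainD S e l e = tourLen (l.map S) := by
  rw [chainD_eq S he, he]
  cases l with
  | nil => rfl
  | cons y l => simp [chainCost, tourLen, ov_nil]

theorem sum_chain (S : ι → List ℕ) (τ : ι → ι) (x : ι) (l : List ι) (z : ι)
    (h : ∀ n (hn : n + 1 < (x :: l).length), τ ((x :: l)[n]) = (x :: l)[n + 1])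
    (hz : τ ((x :: l).getLast (List.cons_ne_nil _ _)) = z) :
    ((x :: l).map fun k => dd S k (τ k)).sum = chainD S x l z := by
  induction l generalizing x with
  | nil =>
    simp only [List.getLast_singleton] at hz
    simp [chainD, hz]
  | cons y l ih =>
    have h0 : τ x = y := by
      have := h 0 (by simp)
      simpa using this
    rw [List.map_cons, List.sum_cons, h0, chainD]
    congr 1
    apply ih y
    · intro n hn
      have := h (n + 1) (by simpa using hn)
      simpa using this
    · rw [List.getLast_cons (List.cons_ne_nil _ _)] at hz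
      exact hz

variable [Fintype ι] [DecidableEq ι]

/-- the closed tour `e → l₀ → l₁ → ... → e` -/
theorem tour_cost (S : ι → List ℕ) {e : ι} (he : S e = []) (l : List ι) (hl : (e :: l).Nodup)
    (hall : ∀ x, x ∈ e :: l) : cost S (e :: l).formPerm = tourLen (l.map S) := by
  rw [← chainD_tour S he]
  rw [← sum_chain S (e :: l).formPerm e l e]
  · unfold cost
    rw [← List.sum_toFinset _ hl]
    congr 1
    ext x
    simp only [List.mem_toFinset, mem_univ, true_iff]
    exact hall x
  · intro n hn
    exact List.formPerm_apply_lt_getElem _ hl n hn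
  · exact List.formPerm_apply_getLast _ _

theorem tour_sameCycle {e : ι} (l : List ι) (hl : (e :: l).Nodup) (hall : ∀ x, x ∈ e :: l) (x y : ι) :
    (e :: l).formPerm.SameCycle x y := by
  have h1 : ∀ x, (e :: l).formPerm.SameCycle e x := by
    intro x
    obtain ⟨n, hn, rfl⟩ := List.getElem_of_mem (hall x)
    refine ⟨n, ?_⟩
    rw [zpow_natCast]
    have := List.formPerm_pow_apply_getElem (e :: l) hl n 0 (by simp)
    simp only [zero_add, List.getElem_cons_zero] at this
    rw [this]
    congr 1
    exact Nat.mod_eq_of_lt hn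
  exact (h1 x).symm.trans (h1 y)

/-- **the tour of a superstring** -/
theorem exists_tour (S : ι → List ℕ) {e : ι} (he : S e = []) (hne : ∀ x, x ≠ e → S x ≠ [])
    (hff : ∀ x y, x ≠ y → S x ≠ [] → ¬ S x <:+: S y) (T' : List ℕ) (hT : ∀ x, S x <:+: T') :
    ∃ l : List ι, (e :: l).Nodup ∧ (∀ x, x ∈ e :: l) ∧ tourLen (l.map S) ≤ T'.length := by
  classical
  have hinj : ∀ x y, x ≠ e → y ≠ e → S x = S y → x = y := by
    intro x y hx hy hxy
    by_contra h
    exact hff x y h (hne x hx) (by rw [hxy])
  set l₀ : List ι := (univ.erase e).toList with hl₀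
  have hl₀m : ∀ x, x ∈ l₀ ↔ x ≠ e := fun x => by simp [hl₀]
  have hl₀n : l₀.Nodup := Finset.nodup_toList _
  have hFF : FF (l₀.map S) := by
    refine ⟨?_, ?_⟩
    · rw [List.pairwise_map]
      refine hl₀n.imp_of_mem ?_
      intro a b ha hb hab
      exact ⟨hff a b hab (hne a ((hl₀m a).1 ha)), hff b a hab.symm (hne b ((hl₀m b).1 hb))⟩
    · intro s hs
      obtain ⟨x, hx, rfl⟩ := List.mem_map.1 hs
      exact hne x ((hl₀m x).1 hx)
  obtain ⟨L, hL, hle⟩ := tour_lb hFF T' (fun s hs => by
    obtain ⟨x, _, rfl⟩ := List.mem_map.1 hs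
    exact hT x)
  -- lift the order of the strings to an order of the indices
  have hlift : ∀ s : List ℕ, ∃ x : ι, s ∈ L → x ≠ e ∧ S x = s := by
    intro s
    by_cases hs : s ∈ L
    · obtain ⟨x, hx, hxs⟩ := List.mem_map.1 (hL.mem_iff.1 hs)
      exact ⟨x, fun _ => ⟨(hl₀m x).1 hx, hxs⟩⟩
    · exact ⟨e, fun h => absurd h hs⟩
  choose ix hix using hlift
  have hmapL : (L.map ix).map S = L := by
    rw [List.map_map]
    conv_rhs => rw [← List.map_id L]
    exact List.map_congr_left fun s hs => (hix s hs).2
  have hLn : L.Nodup := by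
    rw [hL.nodup_iff, List.nodup_map_iff_inj_on hl₀n]
    intro x hx y hy hxy
    exact hinj x y ((hl₀m x).1 hx) ((hl₀m y).1 hy) hxy
  refine ⟨L.map ix, ?_, ?_, ?_⟩
  · rw [List.nodup_cons]
    refine ⟨?_, ?_⟩
    · intro h
      obtain ⟨s, hs, hse⟩ := List.mem_map.1 h
      exact (hix s hs).1 hse
    · rw [List.nodup_map_iff_inj_on hLn]
      intro s hs t ht hst
      rw [← (hix s hs).2, ← (hix t ht).2, hst]
  · intro x
    by_cases hx : x = e
    · rw [hx]; simp
    · refine List.mem_cons_of_mem _ ?_
      have h1 : S x ∈ L := hL.mem_iff.2 (List.mem_map.2 ⟨x, (hl₀m x).2 hx, rfl⟩)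
      refine List.mem_map.2 ⟨S x, h1, ?_⟩
      exact hinj _ _ (hix _ h1).1 hx (hix _ h1).2
  · rw [hmapL]; exact hle

/-- permutation form -/
theorem exists_tour_perm (S : ι → List ℕ) {e : ι} (he : S e = []) (hne : ∀ x, x ≠ e → S x ≠ [])
    (hff : ∀ x y, x ≠ y → S x ≠ [] → ¬ S x <:+: S y) (T' : List ℕ) (hT : ∀ x, S x <:+: T') :
    ∃ τ : Equiv.Perm ι, (∀ x y, τ.SameCycle x y) ∧ cost S τ ≤ T'.length := by
  obtain ⟨l, h1, h2, h3⟩ := exists_tour S he hne hff T' hT
  exact ⟨(e :: l).formPerm, tour_sameCycle l h1 h2, by rw [tour_cost S he l h1 h2]; exact h3⟩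

/-! ## lengths, links and costs of cycles -/

theorem dd_add_ov (S : ι → List ℕ) (i j : ι) : dd S i j + ov (S i) (S j) = (S i).length := by
  have := ov_le_left (S i) (S j)
  unfold dd
  omega

theorem dd_le_per (S : ι → List ℕ) (π : Equiv.Perm ι) {i k : ι} (h : π.SameCycle i k) :
    dd S k (π k) ≤ per S π i := by
  classical
  unfold per
  exact Finset.single_le_sum (f := fun k => dd S k (π k)) (fun _ _ => Nat.zero_le _)
    (by simpa using h)

/-- `|S k| ≤ (out link of k) + per` -/
theorem len_le_out (S : ι → List ℕ) (π : Equiv.Perm ι) {i k : ι} (h : π.SameCycle i k) :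
    (S k).length ≤ ov (S k) (S (π k)) + per S π i := by
  have h1 := dd_le_per S π h
  have h2 := dd_add_ov S k (π k)
  omega

theorem sum_length_cycle (S : ι → List ℕ) (π : Equiv.Perm ι) (i : ι) (w : ι → ℕ) :
    open scoped Classical in
    ∑ k ∈ univ.filter (fun k => π.SameCycle i k), w (π k) =
      ∑ k ∈ univ.filter (fun k => π.SameCycle i k), w k := by
  classical
  refine Finset.sum_bij (fun k _ => π k) ?_ ?_ ?_ ?_
  · intro k hk
    simp only [mem_filter, mem_univ, true_and] at hk ⊢
    exact Equiv.Perm.sameCycle_apply_right.2 hk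
  · intro a _ b _ hab
    exact π.injective hab
  · intro b hb
    refine ⟨π.symm b, ?_, by simp⟩
    simp only [mem_filter, mem_univ, true_and] at hb ⊢
    rw [← Equiv.Perm.sameCycle_apply_right, Equiv.apply_symm_apply]
    exact hb
  · intro a _; rfl

/-- `|S (π k)| ≤ (in link of π k) + per` -/
theorem len_le_in (S : ι → List ℕ) (π : Equiv.Perm ι) {i k : ι} (h : π.SameCycle i k) :
    (S (π k)).length ≤ ov (S k) (S (π k)) + per S π i := by
  classical
  have h1 : ∑ k ∈ univ.filter (fun k => π.SameCycle i k), ((S (π k)).length - ov (S k) (S (π k))) =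
      per S π i := by
    have e1 : ∑ k ∈ univ.filter (fun k => π.SameCycle i k),
        ((S (π k)).length - ov (S k) (S (π k))) +
        ∑ k ∈ univ.filter (fun k => π.SameCycle i k), ov (S k) (S (π k)) =
        ∑ k ∈ univ.filter (fun k => π.SameCycle i k), (S (π k)).length := by
      rw [← Finset.sum_add_distrib]
      refine Finset.sum_congr rfl fun k _ => ?_
      have := ov_le_right (S k) (S (π k))
      omega
    have e2 : per S π i +
        ∑ k ∈ univ.filter (fun k => π.SameCycle i k), ov (S k) (S (π k)) =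
        ∑ k ∈ univ.filter (fun k => π.SameCycle i k), (S k).length := by
      unfold per
      rw [← Finset.sum_add_distrib]
      exact Finset.sum_congr rfl fun k _ => dd_add_ov S k (π k)
    have e3 := sum_length_cycle S π i (fun k => (S k).length)
    omega
  have h2 : (S (π k)).length - ov (S k) (S (π k)) ≤ per S π i := by
    rw [← h1]
    exact Finset.single_le_sum (f := fun k => (S (π k)).length - ov (S k) (S (π k)))
      (fun _ _ => Nat.zero_le _) (by simpa using h)
  omega

end Crest.Agent.R287.Ring
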