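import Crest.Agent.R287.Tour

/-!
# Row 287 (S0432): Monge inequality for overlaps (helper7)
-/

set_option autoImplicit false

namespace Crest.Agent.R287

/-- an overlap of length `a` of `s'` with `t`, an overlap of length `b` of `s` with `t'`, an overlap of length
`c` of `s` with `t`, `a, b ≤ c ≤ a + b`: overlap of length `a + b - c` of `s'` with `t'` -/
theorem ovl_monge {s s' t t' : List ℕ} {a b c : ℕ} (h1 : Ovl s' t a) (h2 : Ovl s t' b)
    (h3 : Ovl s t c) (has : a ≤ s'.length) (hbt : b ≤ t'.length) (hbs : b ≤ s.length)
    (hcs : c ≤ s.length) (hct : c ≤ t.length) (hac : a ≤ c) (hbc : b ≤ c) (habc : c ≤ a + b) :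
    Ovl s' t' (a + b - c) := by
  unfold Ovl at *
  have e1 : s'.drop (s'.length - (a + b - c)) = (t.take a).drop (c - b) := by
    rw [← h1, List.drop_drop]
    congr 1
    omega
  have e2 : t'.take (a + b - c) = ((t.take c).drop (c - b)).take (a + b - c) := by
    have h4 : t'.take b = (t.take c).drop (c - b) := by
      rw [← h2, ← h3, List.drop_drop]
      congr 1
      omega
    rw [← h4, List.take_take]
    congr 1
    omega
  rw [e1, e2, List.drop_take, List.drop_take, List.take_take]
  congr 1
  omega

/-- **Monge inequality**: `ov s t` at least `ov s t'` and `ov s' t` -/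
theorem ov_monge {s s' t t' : List ℕ} (hs' : s' ≠ []) (ht' : t' ≠ [])
    (h1 : ov s t' ≤ ov s t) (h2 : ov s' t ≤ ov s t) :
    ov s t' + ov s' t ≤ ov s t + ov s' t' := by
  rcases Nat.lt_or_ge (ov s t' + ov s' t) (ov s t) with h | h
  · omega
  · have h3 := ovl_monge (ovl_ov s' t) (ovl_ov s t') (ovl_ov s t) (ov_le_left _ _)
      (ov_le_right _ _) (ov_le_left _ _) (ov_le_left _ _) (ov_le_right _ _) h2 h1 (by omega)
    rcases Nat.eq_zero_or_pos (ov s' t + ov s t' - ov s t) with h0 | h0
    · omega
    · have ha : ov s' t < s'.length ∨ ov s' t = 0 := by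
        rcases Nat.eq_zero_or_pos (ov s' t) with h4 | h4
        · exact Or.inr h4
        · left
          have ht : t ≠ [] := by
            intro h5
            have := ov_le_right s' t
            rw [h5] at this h4
            simp at this
            omega
          exact lt_of_lt_of_le (ov_lt hs' ht) (min_le_left _ _)
      have hb : ov s t' < t'.length ∨ ov s t' = 0 := by
        rcases Nat.eq_zero_or_pos (ov s t') with h4 | h4
        · exact Or.inr h4
        · left
          have hs : s ≠ [] := by
            intro h5
            have := ov_le_left s t'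
            rw [h5] at this h4
            simp at this
            omega
          exact lt_of_lt_of_le (ov_lt hs ht') (min_le_right _ _)
      have h4 := le_ov (s := s') (t := t') (k := ov s' t + ov s t' - ov s t)
        (lt_min (by omega) (by omega)) h3
      omega

end Crest.Agent.R287
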