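import Crest.Agent.R287.Cyc
import Crest.Agent.R287.Monge

/-!
# Row 287 (S0432): string facts for rings and rotations (helper7)

* `root_len_le`: in a cycle through `e` (with `S e = []`) every string is at most as long as the cost.
* `ov_le_out`, `ov_le_in`: overlaps at a link are at most link + per.
* `gamma_peak`: removing a peak does not increase gamma.
* `ovl_shift`, `ov_monge_per`: the periodic Monge inequality.
* `str_period`: every string of a ring has period `per`.
* `exists_order`: a permutation with one cycle gives an order, `tourLen = cost`.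
-/

set_option autoImplicit false
set_option linter.unusedSectionVars false

namespace Crest.Agent.R287.Ring

open Finset

variable {ι : Type*} [Fintype ι] [DecidableEq ι]

theorem ov_le_out (S : ι → List ℕ) (π : Equiv.Perm ι) {i k : ι} (h : π.SameCycle i k) (t : List ℕ) :
    ov (S k) t ≤ ov (S k) (S (π k)) + per S π i :=
  (ov_le_left _ _).trans (len_le_out S π h)

theorem ov_le_in (S : ι → List ℕ) (π : Equiv.Perm ι) {i k : ι} (h : π.SameCycle i k) (s : List ℕ) :
    ov s (S (π k)) ≤ ov (S k) (S (π k)) + per S π i :=
  (ov_le_right _ _).trans (len_le_in S π h)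

/-- sum over an injective orbit segment -/
theorem sum_orbit_le (f : ι → ℕ) (π : Equiv.Perm ι) (i k : ι) (h : π.SameCycle i k) (n : ℕ)
    (hinj : ∀ a < n, ∀ b < n, (π ^ a) k = (π ^ b) k → a = b) :
    open scoped Classical in
    ∑ j ∈ range n, f ((π ^ j) k) ≤ ∑ x ∈ univ.filter (fun x => π.SameCycle i x), f x := by
  classical
  rw [← Finset.sum_image (s := range n) (g := fun j => (π ^ j) k) (f := f)]
  · refine Finset.sum_le_sum_of_subset ?_
    intro x hx
    obtain ⟨j, _, rfl⟩ := Finset.mem_image.1 hx
    simp only [mem_filter, mem_univ, true_and]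
    exact h.trans (Equiv.Perm.sameCycle_pow_right.2 (Equiv.Perm.SameCycle.refl _ _))
  · intro a ha b hb hab
    simp only [coe_range, Set.mem_Iio] at ha hb
    exact hinj a ha b hb hab

/-- telescoping along the ring -/
theorem len_le_walk (S : ι → List ℕ) (π : Equiv.Perm ι) (k : ι) (n : ℕ) :
    (S k).length ≤ (∑ j ∈ range n, dd S ((π ^ j) k) (π ((π ^ j) k))) + (S ((π ^ n) k)).length := by
  induction n with
  | zero => simp
  | succ n ih =>
    rw [Finset.sum_range_succ]
    have h1 := dd_add_ov S ((π ^ n) k) (π ((π ^ n) k))
    have h2 := ov_le_right (S ((π ^ n) k)) (S (π ((π ^ n) k)))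
    have h3 : (π ^ (n + 1)) k = π ((π ^ n) k) := by rw [pow_succ']; rfl
    rw [h3]
    omega

/-- in a cycle through `e` every string is at most as long as the cost of the cycle -/
theorem root_len_le (S : ι → List ℕ) (π : Equiv.Perm ι) {e k : ι} (he : S e = [])
    (h : π.SameCycle e k) : (S k).length ≤ per S π e := by
  classical
  obtain ⟨n, hn⟩ : ∃ n : ℕ, (π ^ n) k = e := by
    obtain ⟨n, _, hn⟩ := h.symm.exists_pow_eq' 
    exact ⟨n, hn⟩
  have hex : ∃ n : ℕ, (π ^ n) k = e := ⟨n, hn⟩
  have h1 := len_le_walk S π k (Nat.find hex)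
  rw [Nat.find_spec hex, he] at h1
  have h2 := sum_orbit_le (fun x => dd S x (π x)) π e k h (Nat.find hex) (by
    have key : ∀ a b : ℕ, a < b → b < Nat.find hex → (π ^ a) k ≠ (π ^ b) k := by
      intro a b hab hb heq
      have e1 : (π ^ (b - a)) k = k := by
        have e2 : (π ^ b) k = (π ^ a) ((π ^ (b - a)) k) := by
          rw [← Equiv.Perm.mul_apply, ← pow_add]
          congr 2
          omega
        rw [← heq] at e2
        exact ((π ^ a).injective e2).symm
      have e3 : (π ^ (Nat.find hex - (b - a))) k = e := by
        have e4 : (π ^ Nat.find hex) k = (π ^ (Nat.find hex - (b - a))) ((π ^ (b - a)) k) := by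
          rw [← Equiv.Perm.mul_apply, ← pow_add]
          congr 2
          omega
        rw [e1, Nat.find_spec hex] at e4
        exact e4.symm
      exact Nat.find_min hex (by omega) e3
    intro a ha b hb hab
    rcases Nat.lt_trichotomy a b with h' | h' | h'
    · exact absurd hab (key a b h' hb)
    · exact h'
    · exact absurd hab.symm (key b a h' ha))
  unfold per
  simp only [List.length_nil, Nat.add_zero] at h1
  exact h1.trans h2

/-! ## Monge facts for rotations -/

/-- removing a peak `j` (link `o → t`, entered from `o'`, left to `t'`) does not increase gamma -/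
theorem gamma_peak {o t o' t' : List ℕ} (ho : o' ≠ []) (ht : t' ≠ [])
    (h1 : ov o' t ≤ ov o t) (h2 : ov o t' ≤ ov o t) :
    ov o' t + ov o t' ≤ ov o t + ov o' t' := by
  have := ov_monge ho ht h2 h1
  omega

/-- a prefix of length `a` and a suffix of length `b` of a word `t.take c = s.drop (|s| - c)` with period
`m`, `a + m ≤ c`, `b + m ≤ c`, overlap by `a + b + m - c` -/
theorem ovl_shift {s s' t t' : List ℕ} {a b c m : ℕ} (h1 : Ovl s' t a) (h2 : Ovl s t' b)
    (h3 : Ovl s t c) (has : a ≤ s'.length) (hbt : b ≤ t'.length)
    (hcs : c ≤ s.length) (hct : c ≤ t.length) (ham : a + m ≤ c) (hbm : b + m ≤ c)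
    (hper : ∀ x, x + m < c → (t.getD x 0) = t.getD (x + m) 0) :
    Ovl s' t' (a + b + m - c) := by
  unfold Ovl at *
  apply List.ext_getElem
  · simp only [List.length_drop, List.length_take]
    omega
  · intro n hn1 hn2
    simp only [List.length_drop, List.length_take] at hn1 hn2
    rw [List.getElem_drop, List.getElem_take]
    -- left: `s'` at `|s'| - k + n`, in the suffix of length `a` at place `a - k + n`
    have e1 : s'[s'.length - (a + b + m - c) + n]'(by omega) = t.getD (c - b - m + n) 0 := by
      have h4 : (s'.drop (s'.length - a)).getD (c - b - m + n) 0 = (t.take a).getD (c - b - m + n) 0 := by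
        rw [h1]
      rw [List.getD_eq_getElem _ _ (by simp only [List.length_drop]; omega),
        List.getD_eq_getElem _ _ (by simp only [List.length_take]; omega),
        List.getElem_drop, List.getElem_take] at h4
      rw [List.getD_eq_getElem _ _ (by omega), ← h4]
      congr 1
      omega
    have e2 : t'[n]'(by omega) = s.getD (s.length - b + n) 0 := by
      have h4 : (s.drop (s.length - b)).getD n 0 = (t'.take b).getD n 0 := by rw [h2]
      rw [List.getD_eq_getElem _ _ (by simp only [List.length_drop]; omega),
        List.getD_eq_getElem _ _ (by simp only [List.length_take]; omega),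
        List.getElem_drop, List.getElem_take] at h4
      rw [List.getD_eq_getElem _ _ (by omega), ← h4]
    have e3 : s.getD (s.length - b + n) 0 = t.getD (c - b + n) 0 := by
      have h4 : (s.drop (s.length - c)).getD (c - b + n) 0 = (t.take c).getD (c - b + n) 0 := by rw [h3]
      rw [List.getD_eq_getElem _ _ (by simp only [List.length_drop]; omega),
        List.getD_eq_getElem _ _ (by simp only [List.length_take]; omega),
        List.getElem_drop, List.getElem_take] at h4
      rw [List.getD_eq_getElem _ _ (by omega), List.getD_eq_getElem _ _ (by omega), ← h4]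
      congr 1
      omega
    rw [e1, e2, e3, hper _ (by omega)]
    congr 1
    omega

/-- periodic Monge inequality: the link `ov s t` has period `m` -/
theorem ov_monge_per {s s' t t' : List ℕ} (hs' : s' ≠ []) (ht' : t' ≠ []) {m : ℕ}
    (h1 : ov s t' + m ≤ ov s t) (h2 : ov s' t + m ≤ ov s t)
    (hper : ∀ x, x + m < ov s t → (t.getD x 0) = t.getD (x + m) 0) :
    ov s t' + ov s' t + m ≤ ov s t + ov s' t' := by
  rcases Nat.lt_or_ge (ov s t' + ov s' t + m) (ov s t) with h | h
  · omega
  · have h3 := ovl_shift (ovl_ov s' t) (ovl_ov s t') (ovl_ov s t) (ov_le_left _ _)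
      (ov_le_right _ _) (ov_le_left _ _) (ov_le_right _ _) h2 h1 hper
    rcases Nat.eq_zero_or_pos (ov s' t + ov s t' + m - ov s t) with h0 | h0
    · omega
    · have hs : s ≠ [] := by
        rintro rfl
        simp [ov_nil] at h1 h2 h0
        omega
      have ht : t ≠ [] := by
        rintro rfl
        have := ov_le_right s []
        have := ov_le_right s' []
        simp only [List.length_nil] at *
        omega
      have ha := ov_lt hs' ht
      have hb := ov_lt hs ht'
      have hk : ov s' t + ov s t' + m - ov s t < min s'.length t'.length := by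
        simp only [lt_min_iff] at ha hb ⊢
        constructor <;> omega
      have := le_ov hk h3
      omega

/-! ## periods of the strings of a ring -/

/-- every string of a ring has period `per` (and hence every multiple of it) -/
theorem str_period (S : ι → List ℕ) (π : Equiv.Perm ι) (i : ι)
    (hne : ∀ k, π.SameCycle i k → S k ≠ []) {k : ι} (hk : π.SameCycle i k) (z x : ℕ)
    (hx : x + z * per S π i < (S k).length) :
    (S k).getD x 0 = (S k).getD (x + z * per S π i) 0 := by
  obtain ⟨W, hW, hS⟩ := ring_word S π i hne
  obtain ⟨a, ha⟩ := hS k hk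
  rw [ha x (by omega), ha _ hx, ← add_assoc, mul_comm]
  have := periodic_add_mul hW (a + x) z
  first
    | rw [this]
    | rw [mul_comm] at this; rw [this]

/-- periodic Monge at the link `k → π k` of a ring of cost `p`: the gain of removing a peak is at least
`z p` if both neighbouring overlaps are at most `link - z p` -/
theorem gamma_peak_per (S : ι → List ℕ) (π : Equiv.Perm ι) (i : ι)
    (hne : ∀ k, π.SameCycle i k → S k ≠ []) {k : ι} (hk : π.SameCycle i k) (z : ℕ)
    {o' t' : List ℕ} (ho : o' ≠ []) (ht : t' ≠ [])
    (h1 : ov o' (S (π k)) + z * per S π i ≤ ov (S k) (S (π k)))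
    (h2 : ov (S k) t' + z * per S π i ≤ ov (S k) (S (π k))) :
    ov o' (S (π k)) + ov (S k) t' + z * per S π i ≤ ov (S k) (S (π k)) + ov o' t' := by
  have := ov_monge_per ho ht h2 h1 (fun x hx => str_period S π i hne
    (Equiv.Perm.sameCycle_apply_right.2 hk) z x (lt_of_lt_of_le hx (ov_le_right _ _)))
  omega

/-! ## from a permutation with one cycle to an order -/

theorem exists_order (S : ι → List ℕ) {e : ι} (he : S e = []) (τ : Equiv.Perm ι)
    (hτ : ∀ x y, τ.SameCycle x y) :
    ∃ l : List ι, (e :: l).Nodup ∧ (∀ x, x ∈ e :: l) ∧ (e :: l).formPerm = τ ∧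
      tourLen (l.map S) = cost S τ := by
  classical
  by_cases hs : e ∈ τ.support
  · have hnd := Equiv.Perm.nodup_toList τ e
    have hmem : ∀ x, x ∈ τ.toList e := fun x => Equiv.Perm.mem_toList_iff.2 ⟨hτ e x, hs⟩
    have hne : τ.toList e ≠ [] := List.ne_nil_of_mem (hmem e)
    have hhead : (τ.toList e).head hne = e := by
      rw [List.head_eq_getElem]
      simp [Equiv.Perm.getElem_toList]
    obtain ⟨l, hl⟩ : ∃ l, τ.toList e = e :: l := by
      refine ⟨(τ.toList e).tail, ?_⟩
      conv_lhs => rw [← List.cons_head_tail hne]
      rw [hhead]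
    have hform : (e :: l).formPerm = τ := by
      rw [← hl, Equiv.Perm.formPerm_toList]
      ext x
      rw [Equiv.Perm.cycleOf_apply, if_pos (hτ e x)]
    rw [hl] at hnd hmem
    refine ⟨l, hnd, hmem, hform, ?_⟩
    rw [← tour_cost S he l hnd hmem, hform]
  · have hfix : τ e = e := by simpa using hs
    have hall : ∀ x, x = e := fun x => by
      have h1 := hτ e x
      exact (h1.eq_of_left hfix).symm
    refine ⟨[], by simp, fun x => by simp [hall x], ?_, ?_⟩
    · ext x
      rw [hall x]
      simp [hfix]
    · have h2 := tour_cost S he [] (by simp) (fun x => by simp [hall x])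
      rw [← h2]
      congr 1
      ext x
      rw [hall x]
      simp [hfix]

end Crest.Agent.R287.Ring
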