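import Crest.Agent.R287.Monge

/-!
# Row 287 (S0432): overlap lemma of Blum et al. (helper7)

`fw_lemma`: in a cheapest cycle cover the overlap of two strings of different cycles is smaller than the sum
of the costs of the two cycles.
-/

set_option autoImplicit false
set_option linter.unusedSectionVars false

namespace Crest.Agent.R287.Ring

open Finset

/-! ## periods -/

theorem periodic_add_mul {f : ℕ → ℕ} {p : ℕ} (hp : ∀ x, f (x + p) = f x) (x n : ℕ) :
    f (x + n * p) = f x := by
  induction n with
  | zero => simp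
  | succ n ih => rw [show x + (n + 1) * p = (x + n * p) + p by ring, hp, ih]

theorem periodic_mod {f : ℕ → ℕ} {p : ℕ} (hp : ∀ x, f (x + p) = f x) (x t : ℕ) :
    f (x + t) = f (x % p + t) := by
  have h := periodic_add_mul hp (x % p + t) (x / p)
  rw [← h]
  congr 1
  have := Nat.mod_add_div' x p
  omega

theorem gcd_period {f : ℕ → ℕ} : ∀ a b : ℕ, (∀ x, f (x + a) = f x) → (∀ x, f (x + b) = f x) →
    ∀ x, f (x + Nat.gcd a b) = f x := by
  intro a b
  induction a, b using Nat.gcd.induction with
  | H0 b => intro _ hb; simpa using hb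
  | H1 a b ha ih =>
    intro h1 h2
    rw [Nat.gcd_rec]
    refine ih ?_ h1
    intro x
    have h3 := periodic_add_mul h1 (x + b % a) (b / a)
    rw [← h3, ← h2 x]
    congr 1
    have := Nat.mod_add_div' b a
    omega

/-- two words with a long common piece (Fine-Wilf) -/
theorem common_period {W W' : ℕ → ℕ} {p p' c c' L : ℕ} (hp : 0 < p) (hp' : 0 < p')
    (hW : ∀ x, W (x + p) = W x) (hW' : ∀ x, W' (x + p') = W' x) (hL : p + p' ≤ L + Nat.gcd p p')
    (h : ∀ t < L, W (c + t) = W' (c' + t)) :
    (∀ t, W (c + (t + Nat.gcd p p')) = W (c + t)) ∧ ∀ t, W' (c' + t) = W (c + t) := by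
  have h1 : ∀ t, W (c + (t + p)) = W (c + t) := fun t => by rw [← add_assoc]; exact hW _
  have h1' : ∀ t, W' (c' + (t + p')) = W' (c' + t) := fun t => by rw [← add_assoc]; exact hW' _
  obtain ⟨g, hg⟩ : ∃ g, g = Nat.gcd p p' := ⟨_, rfl⟩
  have hgp : g ≤ p := by rw [hg]; exact Nat.gcd_le_left _ hp
  have hgp' : g ≤ p' := by rw [hg]; exact Nat.gcd_le_right _ hp'
  have hgd : g ∣ p := by rw [hg]; exact Nat.gcd_dvd_left _ _
  have hgd' : g ∣ p' := by rw [hg]; exact Nat.gcd_dvd_right _ _
  have hLp : p ≤ L := by omega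
  have hLp' : p' ≤ L := by omega
  obtain ⟨w, hw⟩ : ∃ w : List ℕ, w = (List.range L).map (fun t => W (c + t)) := ⟨_, rfl⟩
  have hwl : w.length = L := by rw [hw]; simp
  have hwi : ∀ i < L, w[i]? = some (W (c + i)) := by
    intro i hi
    rw [hw]
    simp [hi]
  have q1 : w.HasPeriod p := by
    rw [List.hasPeriod_iff_getElem?]
    intro i hi
    rw [hwl] at hi
    rw [hwi i (by omega), hwi (i + p) (by omega), h1]
  have q2 : w.HasPeriod p' := by
    rw [List.hasPeriod_iff_getElem?]
    intro i hi
    rw [hwl] at hi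
    rw [hwi i (by omega), hwi (i + p') (by omega), h i (by omega), h (i + p') (by omega), h1']
  have q3 : w.HasPeriod g := by
    rw [hg]
    exact q1.gcd q2 (by rw [hwl]; omega)
  have q4 : ∀ i < L, W (c + i % g) = W (c + i) := by
    intro i hi
    have h3 := q3.getElem?_mod g i w (by rw [hwl]; exact hi)
    have h4 : i % g < L := lt_of_le_of_lt (Nat.mod_le _ _) hi
    rw [hwi _ h4, hwi _ hi] at h3
    exact Option.some.inj h3
  have key : ∀ t, W (c + t) = W (c + t % g) := by
    intro t
    have e1 := periodic_mod (f := fun t => W (c + t)) h1 t 0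
    simp only [add_zero] at e1
    have hm := Nat.mod_lt t hp
    rw [e1, ← q4 (t % p) (by omega), Nat.mod_mod_of_dvd t hgd]
  rw [← hg]
  refine ⟨fun t => ?_, fun t => ?_⟩
  · rw [key (t + g), key t, Nat.add_mod_right]
  · have e1 := periodic_mod (f := fun t => W' (c' + t)) h1' t 0
    simp only [add_zero] at e1
    have hm := Nat.mod_lt t hp'
    rw [e1, ← h (t % p') (by omega), key, Nat.mod_mod_of_dvd t hgd', ← key]

/-! ## covering the strings of a periodic word -/

theorem drop_eq_take_of_getD {s u : List ℕ} {δ k : ℕ} (hs : δ + k = s.length) (hu : k ≤ u.length)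
    (h : ∀ t < k, s.getD (δ + t) 0 = u.getD t 0) : s.drop δ = u.take k := by
  apply List.ext_getElem
  · simp only [List.length_drop, List.length_take]
    omega
  · intro i h1 h2
    simp only [List.length_drop] at h1
    have hi : i < k := by omega
    have h3 := h i hi
    rw [List.getD_eq_getElem _ _ (by omega), List.getD_eq_getElem _ _ (by omega)] at h3
    rw [List.getElem_drop, List.getElem_take]
    exact h3

section Cover

variable {ι : Type*} [DecidableEq ι]

/-- cost of the arc `i → j` -/
def dd (S : ι → List ℕ) (i j : ι) : ℕ := (S i).length - ov (S i) (S j)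

theorem exists_perm_le (S : ι → List ℕ) (U : Finset ι)
    (hff : ∀ x ∈ U, ∀ y ∈ U, x ≠ y → ¬ S x <:+: S y) {F : ℕ → ℕ} {g : ℕ} (hg : 0 < g)
    (hF : ∀ x, F (x + g) = F x) (α : ι → ℕ) (hα : ∀ x ∈ U, α x < g)
    (hS : ∀ x ∈ U, ∀ t < (S x).length, (S x).getD t 0 = F (α x + t)) :
    ∃ τ : ι → ι, (∀ x ∈ U, τ x ∈ U) ∧ Set.InjOn τ U ∧ ∑ x ∈ U, dd S x (τ x) ≤ g := by
  classical
  -- `α` is injective on `U`
  have hαinj : ∀ x ∈ U, ∀ y ∈ U, α x = α y → x = y := by
    intro x hx y hy hxy
    by_contra hne'
    rcases le_total (S x).length (S y).length with h | h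
    · apply hff x hx y hy hne'
      have : (S x).drop 0 = (S y).take (S x).length :=
        drop_eq_take_of_getD (by simp) h fun t ht => by
          rw [zero_add, hS x hx t ht, hS y hy t (by omega), hxy]
      rw [List.drop_zero] at this
      rw [this]
      exact (List.take_prefix _ _).isInfix
    · apply hff y hy x hx (Ne.symm hne')
      have : (S y).drop 0 = (S x).take (S y).length :=
        drop_eq_take_of_getD (by simp) h fun t ht => by
          rw [zero_add, hS y hy t ht, hS x hx t (by omega), hxy]
      rw [List.drop_zero] at this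
      rw [this]
      exact (List.take_prefix _ _).isInfix
  let P : ι → ℕ → Prop := fun x d => 1 ≤ d ∧ ∃ y ∈ U, (α x + d) % g = α y
  have hex : ∀ x ∈ U, ∃ d, P x d := fun x hx => ⟨g, hg, x, hx, by
    rw [Nat.add_mod_right, Nat.mod_eq_of_lt (hα x hx)]⟩
  let δ : ι → ℕ := fun x => if h : ∃ d, P x d then Nat.find h else 0
  have hδ : ∀ x ∈ U, P x (δ x) := fun x hx => by
    have h := hex x hx
    simp only [δ, dif_pos h]
    exact Nat.find_spec h
  have hδmin : ∀ x ∈ U, ∀ d, P x d → δ x ≤ d := fun x hx d hd => by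
    have h := hex x hx
    simp only [δ, dif_pos h]
    exact Nat.find_min' h hd
  have key : ∀ x ∈ U, ∀ y ∈ U, ∀ e, (α y + e) % g = α x → e < δ y → e = 0 := by
    intro x hx y hy e he hlt
    by_contra h0
    have := hδmin y hy e ⟨Nat.one_le_iff_ne_zero.2 h0, x, hx, he⟩
    omega
  -- two arcs which meet coincide
  have key2 : ∀ x ∈ U, ∀ y ∈ U, ∀ s s', s ≤ s' → s' - s < δ y → (α x + s) % g = (α y + s') % g →
      x = y ∧ s = s' := by
    intro x hx y hy s s' hle hlt heq
    have h1 : α x + s ≡ (α y + (s' - s)) + s [MOD g] := by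
      have : (α y + (s' - s)) + s = α y + s' := by omega
      rw [this]; exact heq
    have h2 : α x ≡ α y + (s' - s) [MOD g] := Nat.ModEq.add_right_cancel' s h1
    have h3 : (α y + (s' - s)) % g = α x := by
      rw [← h2, Nat.mod_eq_of_lt (hα x hx)]
    have h4 := key x hx y hy _ h3 hlt
    have h5 : s = s' := by omega
    refine ⟨?_, h5⟩
    rw [h4, add_zero, Nat.mod_eq_of_lt (hα y hy)] at h3
    exact (hαinj y hy x hx h3).symm
  have hτ : ∀ x, ∃ y, x ∈ U → y ∈ U ∧ (α x + δ x) % g = α y := by
    intro x
    by_cases hx : x ∈ U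
    · obtain ⟨-, y, hy, h⟩ := hδ x hx
      exact ⟨y, fun _ => ⟨hy, h⟩⟩
    · exact ⟨x, fun h => absurd h hx⟩
  choose τ hτ using hτ
  refine ⟨τ, fun x hx => (hτ x hx).1, ?_, ?_⟩
  · intro x hx y hy hxy
    have hx' : x ∈ U := hx
    have hy' : y ∈ U := hy
    have h1 := (hτ x hx').2
    have h2 := (hτ y hy').2
    rw [hxy, ← h2] at h1
    have hx1 := (hδ x hx').1
    have hy1 := (hδ y hy').1
    rcases le_total (δ x) (δ y) with h | h
    · exact (key2 x hx' y hy' _ _ h (by omega) h1).1
    · exact (key2 y hy' x hx' _ _ h (by omega) h1.symm).1.symm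
  · -- arcs have length at most `δ`
    have harc : ∀ x ∈ U, dd S x (τ x) ≤ δ x := by
      intro x hx
      unfold dd
      rcases Nat.lt_or_ge (δ x) (S x).length with h | h
      · obtain ⟨k, hk⟩ : ∃ k, δ x + k = (S x).length := ⟨(S x).length - δ x, by omega⟩
        have h1 := (hδ x hx).1
        obtain ⟨hτU, hτe⟩ := hτ x hx
        have hkx : k < (S x).length := by omega
        have hlet : ∀ t, t < k → t < (S (τ x)).length →
            (S x).getD (δ x + t) 0 = (S (τ x)).getD t 0 := by
          intro t ht ht'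
          rw [hS x hx _ (by omega), hS _ hτU t ht', ← add_assoc, periodic_mod hF (α x + δ x) t, hτe]
        have hkτ : k < (S (τ x)).length := by
          by_contra hge
          push Not at hge
          by_cases hxτ : τ x = x
          · rw [hxτ] at hge; omega
          · apply hff _ hτU x hx hxτ
            have h2 : ((S x).drop (δ x)).take (S (τ x)).length = S (τ x) := by
              apply List.ext_getElem
              · simp only [List.length_take, List.length_drop]; omega
              · intro i h3 h4
                have h5 := hlet i (by omega) h4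
                rw [List.getD_eq_getElem _ _ (by omega), List.getD_eq_getElem _ _ h4] at h5
                rw [List.getElem_take, List.getElem_drop]
                exact h5
            rw [← h2]
            exact ((List.take_prefix _ _).isInfix).trans ((List.drop_suffix _ _).isInfix)
        have hO : Ovl (S x) (S (τ x)) k := by
          unfold Ovl
          rw [show (S x).length - k = δ x by omega]
          exact drop_eq_take_of_getD hk hkτ.le fun t ht => hlet t ht (by omega)
        have := le_ov (lt_min hkx hkτ) hO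
        omega
      · omega
    calc ∑ x ∈ U, dd S x (τ x) ≤ ∑ x ∈ U, δ x := Finset.sum_le_sum harc
      _ = (U.sigma fun x => Finset.range (δ x)).card := by
          rw [Finset.card_sigma]; simp
      _ ≤ (Finset.range g).card := by
          apply Finset.card_le_card_of_injOn (fun z : (_ : ι) × ℕ => (α z.1 + z.2) % g)
          · intro z _
            simp only [Finset.coe_range, Set.mem_Iio]
            exact Nat.mod_lt _ hg
          · rintro ⟨x, s⟩ hx ⟨y, s'⟩ hy heq
            simp only [Finset.coe_sigma, Set.mem_sigma_iff, Finset.mem_coe, Finset.coe_range,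
              Set.mem_Iio] at hx hy heq
            rcases le_total s s' with h | h
            · obtain ⟨h1, h2⟩ := key2 x hx.1 y hy.1 s s' h (by omega) heq
              subst h1; subst h2; rfl
            · obtain ⟨h1, h2⟩ := key2 y hy.1 x hx.1 s' s h (by omega) heq.symm
              subst h1; subst h2; rfl
      _ = g := Finset.card_range g

end Cover

section Ring

variable {ι : Type*} [Fintype ι] [DecidableEq ι]

/-- cost of a cycle cover -/
def cost (S : ι → List ℕ) (π : Equiv.Perm ι) : ℕ := ∑ k, dd S k (π k)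

open scoped Classical in
/-- cost of the cycle of `i` -/
noncomputable def per (S : ι → List ℕ) (π : Equiv.Perm ι) (i : ι) : ℕ :=
  ∑ k ∈ univ.filter (fun k => π.SameCycle i k), dd S k (π k)

theorem dd_pos {S : ι → List ℕ} {i j : ι} (hi : S i ≠ []) : 0 < dd S i j := by
  unfold dd
  have h1 := List.length_pos_iff.2 hi
  by_cases hj : S j = []
  · have := ov_le_right (S i) (S j)
    rw [hj] at this ⊢
    simp only [List.length_nil] at this
    omega
  · have := ov_lt hi hj
    omega

theorem per_pos {S : ι → List ℕ} {π : Equiv.Perm ι} {i : ι} (hi : S i ≠ []) : 0 < per S π i := by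
  classical
  unfold per
  exact Finset.sum_pos' (fun _ _ => Nat.zero_le _)
    ⟨i, by simp [Equiv.Perm.SameCycle.refl], dd_pos hi⟩

/-- the periodic word of a ring -/
theorem ring_word (S : ι → List ℕ) (π : Equiv.Perm ι) (i : ι)
    (hne : ∀ k, π.SameCycle i k → S k ≠ []) :
    ∃ W : ℕ → ℕ, (∀ x, W (x + per S π i) = W x) ∧
      ∀ k, π.SameCycle i k → ∃ a, ∀ t < (S k).length, (S k).getD t 0 = W (a + t) := by
  classical
  let q : ℕ → ι := fun m => π^[m] i
  have hqs : ∀ m, q (m + 1) = π (q m) := fun m => Function.iterate_succ_apply' _ _ _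
  have hq : ∀ m, π.SameCycle i (q m) := fun m => by
    refine ⟨m, ?_⟩
    rw [zpow_natCast]
    show (π ^ m) i = π^[m] i
    rw [Equiv.Perm.iterate_eq_pow]
  have hqne : ∀ m, S (q m) ≠ [] := fun m => hne _ (hq m)
  let f : ℕ → ℕ := fun l => dd S (q l) (q (l + 1))
  let a : ℕ → ℕ := fun m => ∑ l ∈ range m, f l
  have hf : ∀ l, 0 < f l := fun l => dd_pos (hqne l)
  have ha : ∀ m, a (m + 1) = a m + f m := fun m => Finset.sum_range_succ _ _
  have ham : ∀ m, m ≤ a m := fun m => by
    induction m with
    | zero => exact Nat.zero_le _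
    | succ m ih => have := ha m; have := hf m; omega
  have hmem : i ∈ Function.periodicPts π := by
    refine Function.mk_mem_periodicPts (orderOf_pos π) ?_
    show π^[orderOf π] i = i
    rw [Equiv.Perm.iterate_eq_pow, pow_orderOf_eq_one]
    rfl
  set L := Function.minimalPeriod π i with hL
  have hLpos : 0 < L := Function.minimalPeriod_pos_of_mem_periodicPts hmem
  have hqL : ∀ m, q (m + L) = q m := fun m => by
    show π^[m + L] i = π^[m] i
    rw [Function.iterate_add_apply, hL, Function.iterate_minimalPeriod]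
  have hqmod : ∀ m, q (m % L) = q m := fun m => Function.iterate_mod_minimalPeriod_eq
  have haL : ∀ m, a (m + L) = a m + a L := fun m => by
    induction m with
    | zero => simp [a]
    | succ m ih =>
      have h1 : f (m + L) = f m := by
        show dd S (q (m + L)) (q (m + L + 1)) = dd S (q m) (q (m + 1))
        rw [hqL, show m + L + 1 = (m + 1) + L by ring, hqL]
      rw [show m + 1 + L = (m + L) + 1 by ring, ha, ha, ih, h1]
      ring
  have hper : per S π i = a L := by
    unfold per
    have himg : univ.filter (fun k => π.SameCycle i k) = (range L).image q := by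
      ext k
      simp only [mem_filter, mem_univ, true_and, mem_image, mem_range]
      constructor
      · intro h
        obtain ⟨n, hn⟩ := h.exists_nat_pow_eq
        refine ⟨n % L, Nat.mod_lt _ hLpos, ?_⟩
        rw [hqmod, ← hn]
        show π^[n] i = (π ^ n) i
        rw [Equiv.Perm.iterate_eq_pow]
      · rintro ⟨m, _, rfl⟩
        exact hq m
    rw [himg, Finset.sum_image]
    · refine Finset.sum_congr rfl fun l _ => ?_
      show dd S (q l) (π (q l)) = dd S (q l) (q (l + 1))
      rw [hqs]
    · intro x hx y hy hxy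
      simp only [coe_range, Set.mem_Iio] at hx hy
      exact Function.iterate_injOn_Iio_minimalPeriod (f := π) (x := i) hx hy hxy
  have hlet : ∀ m t, t < (S (q m)).length → ∀ n, a (m + n) ≤ a m + t →
      a m + t - a (m + n) < (S (q (m + n))).length ∧
      (S (q m)).getD t 0 = (S (q (m + n))).getD (a m + t - a (m + n)) 0 := by
    intro m t ht n
    induction n with
    | zero => intro _; simpa using ht
    | succ n ih =>
      intro hle
      have h1 := ha (m + n)
      rw [← add_assoc] at hle ⊢
      obtain ⟨h2, h3⟩ := ih (by omega)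
      obtain ⟨t', ht'⟩ : ∃ t', t' = a m + t - a (m + n) := ⟨_, rfl⟩
      rw [← ht'] at h2 h3
      have h4 : f (m + n) + ov (S (q (m + n))) (S (q (m + n + 1))) = (S (q (m + n))).length := by
        have := ov_le_left (S (q (m + n))) (S (q (m + n + 1)))
        show (S (q (m + n))).length - ov (S (q (m + n))) (S (q (m + n + 1))) + _ = _
        omega
      obtain ⟨u, hu⟩ : ∃ u, t' = f (m + n) + u := ⟨t' - f (m + n), by omega⟩
      have h5 : u < ov (S (q (m + n))) (S (q (m + n + 1))) := by omega
      have h6 := ov_le_right (S (q (m + n))) (S (q (m + n + 1)))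
      have h7 : a m + t - a (m + n + 1) = u := by omega
      refine ⟨by omega, ?_⟩
      rw [h3, h7, hu]
      have h8 := ovl_ov (S (q (m + n))) (S (q (m + n + 1)))
      unfold Ovl at h8
      rw [show (S (q (m + n))).length - ov (S (q (m + n))) (S (q (m + n + 1))) = f (m + n) by omega]
        at h8
      have h9 := congrArg (fun l : List ℕ => l.getD u 0) h8
      simp only [List.getD_eq_getElem?_getD, List.getElem?_drop, List.getElem?_take, h5, if_true]
        at h9 ⊢
      exact h9
  let Mx : ℕ → ℕ := fun x => Nat.findGreatest (fun m => a m ≤ x) x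
  have hMx1 : ∀ x, a (Mx x) ≤ x := fun x =>
    Nat.findGreatest_spec (P := fun m => a m ≤ x) (m := 0) (Nat.zero_le _) (by simp [a])
  have hMx2 : ∀ x m, a m ≤ x → m ≤ Mx x := fun x m h =>
    Nat.le_findGreatest (le_trans (ham m) h) h
  let W : ℕ → ℕ := fun x => (S (q (Mx x))).getD (x - a (Mx x)) 0
  have hW : ∀ m t, t < (S (q m)).length → (S (q m)).getD t 0 = W (a m + t) := by
    intro m t ht
    have h1 := hMx1 (a m + t)
    have h2 := hMx2 (a m + t) m (by omega)
    obtain ⟨n, hn⟩ : ∃ n, Mx (a m + t) = m + n := ⟨Mx (a m + t) - m, by omega⟩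
    have h3 := (hlet m t ht n (by rw [← hn]; exact h1)).2
    show _ = (S (q (Mx (a m + t)))).getD (a m + t - a (Mx (a m + t))) 0
    rw [hn]
    exact h3
  refine ⟨W, ?_, ?_⟩
  · intro x
    have h1 := hMx1 x
    have h2 : x < a (Mx x + 1) := by
      by_contra h
      have := hMx2 x (Mx x + 1) (by omega)
      omega
    have h3 := ha (Mx x)
    obtain ⟨t, ht⟩ : ∃ t, x = a (Mx x) + t := ⟨x - a (Mx x), by omega⟩
    have h4 : f (Mx x) ≤ (S (q (Mx x))).length := Nat.sub_le _ _
    have h5 : t < (S (q (Mx x))).length := by omega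
    have h6 : x + per S π i = a (Mx x + L) + t := by rw [hper, haL]; omega
    have h7 := hW (Mx x + L) t (by rw [hqL]; exact h5)
    rw [h6, ← h7, hqL, hW (Mx x) t h5]
    congr 1
    exact ht.symm
  · intro k hk
    obtain ⟨n, hn⟩ := hk.exists_nat_pow_eq
    have hkq : q n = k := by
      rw [← hn]
      show π^[n] i = (π ^ n) i
      rw [Equiv.Perm.iterate_eq_pow]
    refine ⟨a n, fun t ht => ?_⟩
    rw [← hkq] at ht ⊢
    exact hW n t ht

/-- **overlap lemma** (sharp form): in a cheapest cycle cover the overlap of two strings of different cycles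
(without the empty string) is smaller than the sum of the costs of the cycles minus their gcd -/
theorem fw_lemma_gcd (S : ι → List ℕ) (π : Equiv.Perm ι) (hπ : ∀ τ : Equiv.Perm ι, cost S π ≤ cost S τ)
    (hff : ∀ x y, x ≠ y → S x ≠ [] → ¬ S x <:+: S y) {i j : ι} (hij : ¬ π.SameCycle i j)
    (hi : ∀ k, π.SameCycle i k → S k ≠ []) (hj : ∀ k, π.SameCycle j k → S k ≠ []) :
    ov (S i) (S j) + Nat.gcd (per S π i) (per S π j) < per S π i + per S π j := by
  classical
  by_contra hcon
  push Not at hcon
  obtain ⟨W, hW1, hW2⟩ := ring_word S π i hi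
  obtain ⟨W', hW1', hW2'⟩ := ring_word S π j hj
  have hSi : S i ≠ [] := hi i (Equiv.Perm.SameCycle.refl _ _)
  have hSj : S j ≠ [] := hj j (Equiv.Perm.SameCycle.refl _ _)
  have hp : 0 < per S π i := per_pos hSi
  have hp' : 0 < per S π j := per_pos hSj
  obtain ⟨ai, hai⟩ := hW2 i (Equiv.Perm.SameCycle.refl _ _)
  obtain ⟨aj, haj⟩ := hW2' j (Equiv.Perm.SameCycle.refl _ _)
  obtain ⟨L, hL⟩ : ∃ L, L = ov (S i) (S j) := ⟨_, rfl⟩
  have hL1 : L ≤ (S i).length := by rw [hL]; exact ov_le_left _ _
  have hL2 : L ≤ (S j).length := by rw [hL]; exact ov_le_right _ _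
  obtain ⟨c, hc⟩ : ∃ c, c = ai + ((S i).length - L) := ⟨_, rfl⟩
  have hcom : ∀ t < L, W (c + t) = W' (aj + t) := by
    intro t ht
    rw [← haj t (by omega)]
    have h1 := hai ((S i).length - L + t) (by omega)
    rw [← add_assoc, ← hc] at h1
    rw [← h1]
    have h2 := ovl_ov (S i) (S j)
    unfold Ovl at h2
    rw [← hL] at h2
    have h3 := congrArg (fun l : List ℕ => l.getD t 0) h2
    simp only [List.getD_eq_getElem?_getD, List.getElem?_drop, List.getElem?_take, ht, if_true]
      at h3 ⊢
    exact h3
  obtain ⟨hF, hF'⟩ := common_period hp hp' hW1 hW1' (by rw [hL]; exact hcon) hcom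
  obtain ⟨g, hg⟩ : ∃ g, g = Nat.gcd (per S π i) (per S π j) := ⟨_, rfl⟩
  rw [← hg] at hF
  have hgpos : 0 < g := by rw [hg]; exact Nat.gcd_pos_of_pos_left _ hp
  have hgle : g ≤ per S π i := by rw [hg]; exact Nat.gcd_le_left _ hp
  let F : ℕ → ℕ := fun t => W (c + t)
  have hFg : ∀ x, F (x + g) = F x := hF
  let U : Finset ι := univ.filter (fun k => π.SameCycle i k ∨ π.SameCycle j k)
  have hα : ∀ k, ∃ α, k ∈ U → α < g ∧ ∀ t < (S k).length, (S k).getD t 0 = F (α + t) := by
    intro k
    by_cases hk : k ∈ U
    · have hk' : π.SameCycle i k ∨ π.SameCycle j k := by simpa [U] using hk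
      have hβ : ∃ β, ∀ t < (S k).length, (S k).getD t 0 = F (β + t) := by
        rcases hk' with h | h
        · obtain ⟨a, ha⟩ := hW2 k h
          have hcp : c ≤ c * per S π i := Nat.le_mul_of_pos_right _ hp
          refine ⟨a + (c * per S π i - c), fun t ht => ?_⟩
          rw [ha t ht]
          show _ = W (c + (a + (c * per S π i - c) + t))
          rw [show c + (a + (c * per S π i - c) + t) = (a + t) + c * per S π i by omega,
            periodic_add_mul hW1]
        · obtain ⟨a, ha⟩ := hW2' k h
          have hcp : aj ≤ aj * per S π j := Nat.le_mul_of_pos_right _ hp'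
          refine ⟨a + (aj * per S π j - aj), fun t ht => ?_⟩
          rw [ha t ht]
          show _ = W (c + (a + (aj * per S π j - aj) + t))
          rw [← hF', show aj + (a + (aj * per S π j - aj) + t) = (a + t) + aj * per S π j by omega,
            periodic_add_mul hW1']
      obtain ⟨β, hβ⟩ := hβ
      refine ⟨β % g, fun _ => ⟨Nat.mod_lt _ hgpos, fun t ht => ?_⟩⟩
      rw [hβ t ht]
      exact periodic_mod hFg β t
    · exact ⟨0, fun h => absurd h hk⟩
  choose α hα using hα
  have hUne : ∀ x ∈ U, S x ≠ [] := by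
    intro x hx
    have hx' : π.SameCycle i x ∨ π.SameCycle j x := by simpa [U] using hx
    rcases hx' with h | h
    · exact hi x h
    · exact hj x h
  obtain ⟨τ, hτU, hτinj, hτle⟩ := exists_perm_le S U
    (fun x hx y _ hxy => hff x y hxy (hUne x hx)) hgpos hFg α (fun x hx => (hα x hx).1)
    (fun x hx => (hα x hx).2)
  have hUπ : ∀ x, π x ∈ U ↔ x ∈ U := by
    intro x
    simp [U, Equiv.Perm.sameCycle_apply_right]
  let f : ι → ι := fun x => if x ∈ U then τ x else π x
  have hfinj : Function.Injective f := by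
    intro x y hxy
    by_cases hx : x ∈ U
    · by_cases hy : y ∈ U
      · simp only [f, hx, hy, if_true] at hxy
        exact hτinj hx hy hxy
      · simp only [f, hx, hy, if_true, if_false] at hxy
        have := hτU x hx
        rw [hxy] at this
        exact absurd ((hUπ y).1 this) hy
    · by_cases hy : y ∈ U
      · simp only [f, hx, hy, if_true, if_false] at hxy
        have := hτU y hy
        rw [← hxy] at this
        exact absurd ((hUπ x).1 this) hx
      · simp only [f, hx, hy, if_false] at hxy
        exact π.injective hxy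
  let ρ : Equiv.Perm ι := Equiv.ofBijective f (Finite.injective_iff_bijective.1 hfinj)
  have hρ : cost S ρ = ∑ x ∈ U, dd S x (τ x) + ∑ x ∈ Uᶜ, dd S x (π x) := by
    unfold cost
    rw [← Finset.sum_add_sum_compl U]
    congr 1
    · refine Finset.sum_congr rfl fun x hx => ?_
      show dd S x (f x) = _
      simp only [f, hx, if_true]
    · refine Finset.sum_congr rfl fun x hx => ?_
      rw [Finset.mem_compl] at hx
      show dd S x (f x) = _
      simp only [f, hx, if_false]
  have hcπ : cost S π = ∑ x ∈ U, dd S x (π x) + ∑ x ∈ Uᶜ, dd S x (π x) := by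
    unfold cost
    rw [← Finset.sum_add_sum_compl U]
  have hUs : ∑ x ∈ U, dd S x (π x) = per S π i + per S π j := by
    unfold per
    rw [← Finset.sum_union]
    · congr 1
      ext x
      simp [U]
    · rw [Finset.disjoint_left]
      intro x hx hy
      simp only [mem_filter, mem_univ, true_and] at hx hy
      exact hij (hx.trans hy.symm)
  have h1 := hπ ρ
  rw [hρ, hcπ, hUs] at h1
  omega

/-- **overlap lemma** -/
theorem fw_lemma (S : ι → List ℕ) (π : Equiv.Perm ι) (hπ : ∀ τ : Equiv.Perm ι, cost S π ≤ cost S τ)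
    (hff : ∀ x y, x ≠ y → S x ≠ [] → ¬ S x <:+: S y) {i j : ι} (hij : ¬ π.SameCycle i j)
    (hi : ∀ k, π.SameCycle i k → S k ≠ []) (hj : ∀ k, π.SameCycle j k → S k ≠ []) :
    ov (S i) (S j) < per S π i + per S π j := by
  have := fw_lemma_gcd S π hπ hff hij hi hj
  omega

/-- **overlap lemma**: `ov ≤ p + p' - 2` -/
theorem fw_lemma_two (S : ι → List ℕ) (π : Equiv.Perm ι)
    (hπ : ∀ τ : Equiv.Perm ι, cost S π ≤ cost S τ)
    (hff : ∀ x y, x ≠ y → S x ≠ [] → ¬ S x <:+: S y) {i j : ι} (hij : ¬ π.SameCycle i j)
    (hi : ∀ k, π.SameCycle i k → S k ≠ []) (hj : ∀ k, π.SameCycle j k → S k ≠ []) :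
    ov (S i) (S j) + 2 ≤ per S π i + per S π j := by
  have h1 := fw_lemma_gcd S π hπ hff hij hi hj
  have h2 : 0 < per S π i := per_pos (hi i (Equiv.Perm.SameCycle.refl _ _))
  have h3 := Nat.gcd_pos_of_pos_left (per S π j) h2
  omega

end Ring

end Crest.Agent.R287.Ring
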