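import Mathlib
import Crest.Agent.Lib.PolyTime.Api

/-!
# Row 287 (S0432): minimum cost assignment by cancelling negative cycles (helper33)

`minAssign B n C : List ℕ` (cost matrix `C : List (List ℤ)`, `B` = number of rounds).
-/

set_option autoImplicit false

namespace Crest.Agent.R287.MA

open Crest.Agent.PolyT PEnc

/-! ### definitions -/

/-- entry of the cost matrix -/
def ent (C : List (List ℤ)) (i j : ℕ) : ℤ := (C.getD i []).getD j 0

/-- change of the cost of row `i` when it takes the column of row `j` -/
def dd (C : List (List ℤ)) (s : List ℕ) (i j : ℕ) : ℤ :=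
  ent C i (s.getD j 0) - ent C i (s.getD i 0)

/-- cost of a walk (the list is in reverse order) which ends in `j` -/
def wcost (d : ℕ → ℕ → ℤ) (r : List ℕ) (j : ℕ) : ℤ :=
  ∑ t ∈ Finset.range r.length, d (r.getD t 0) ((j :: r).getD t 0)

/-- the best index below `n` -/
def argmin (n : ℕ) (f : ℕ → ℤ) : ℕ :=
  (((List.range n).map Un.mk).foldl (fun b m => if f m.val < f b.val then m else b) (Un.mk 0)).val

/-- one step of the dynamic program for the best walks with a given number of arcs -/
def wstep (n : ℕ) (d : ℕ → ℕ → ℤ) (T : List (List ℕ)) : List (List ℕ) :=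
  (List.range n).map fun j =>
    (argmin n fun m => wcost d (m :: T.getD m []) j) ::
      T.getD (argmin n fun m => wcost d (m :: T.getD m []) j) []

/-- the best walk from `i` to `j` with `k + 1` arcs -/
def walk (n : ℕ) (d : ℕ → ℕ → ℤ) (i k j : ℕ) : List ℕ :=
  ((wstep n d)^[k] (List.replicate n [i])).getD j []

/-- the successor of `x` in the closed walk `r` (reversed) from `i` to `i` -/
def nx (i : ℕ) (r : List ℕ) (x : ℕ) : ℕ :=
  if (r.any fun y => decide (y = x)) = true then
    (i :: r).getD (r.takeWhile fun y => decide (y ≠ x)).length 0 else x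

/-- rotate the assignment `s` along the closed walk -/
def ap (n i : ℕ) (r s : List ℕ) : List ℕ := (List.range n).map fun x => s.getD (nx i r x) 0

/-- cost of an assignment -/
def cost (n : ℕ) (C : List (List ℤ)) (s : List ℕ) : ℤ :=
  ∑ i ∈ Finset.range n, ent C i (s.getD i 0)

/-- permutations of `0, ..., n - 1` as lists -/
def valid (n : ℕ) (s : List ℕ) : Bool :=
  (decide (s.length = n) && s.all fun u => decide (u < n)) &&
    (List.range n).all fun v => s.any fun u => decide (u = v)

/-- one round -/
def improve (n : ℕ) (C : List (List ℤ)) (s : List ℕ) : List ℕ :=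
  ((List.range n).flatMap fun i => (List.range n).map fun k =>
    ap n i (walk n (dd C s) i k i) s).foldl
    (fun b t => if (valid n t && decide (cost n C t < cost n C b)) = true then t else b) s

/-- minimum cost assignment -/
def minAssign (B n : ℕ) (C : List (List ℤ)) : List ℕ := (improve n C)^[B] (List.range n)

/-! ### argmin -/

theorem fold_spec (f : ℕ → ℤ) (l : List Un) : ∀ b : Un,
    let r := l.foldl (fun b m => if f m.val < f b.val then m else b) b
    (r = b ∨ r ∈ l) ∧ f r.val ≤ f b.val ∧ ∀ m ∈ l, f r.val ≤ f m.val := by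
  induction l with
  | nil => intro b; simp
  | cons a l ih =>
    intro b
    simp only [List.foldl_cons]
    by_cases h : f a.val < f b.val
    · rw [if_pos h]
      obtain ⟨h1, h2, h3⟩ := ih a
      refine ⟨?_, h2.trans h.le, ?_⟩
      · rcases h1 with h1 | h1
        · right; rw [h1]; simp
        · right; exact List.mem_cons_of_mem _ h1
      · intro m hm
        rcases List.mem_cons.1 hm with hm | hm
        · rw [hm]; exact h2
        · exact h3 m hm
    · rw [if_neg h]
      obtain ⟨h1, h2, h3⟩ := ih b
      refine ⟨?_, h2, ?_⟩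
      · rcases h1 with h1 | h1
        · left; exact h1
        · right; exact List.mem_cons_of_mem _ h1
      · intro m hm
        rcases List.mem_cons.1 hm with hm | hm
        · rw [hm]; exact h2.trans (not_lt.1 h)
        · exact h3 m hm

theorem argmin_lt {n : ℕ} (hn : 0 < n) (f : ℕ → ℤ) : argmin n f < n := by
  obtain ⟨h1, -, -⟩ := fold_spec f ((List.range n).map Un.mk) (Un.mk 0)
  unfold argmin
  rcases h1 with h1 | h1
  · rw [h1]; exact hn
  · rw [List.mem_map] at h1
    obtain ⟨m, hm, h2⟩ := h1
    rw [← h2]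
    exact List.mem_range.1 hm

theorem argmin_le {n : ℕ} (f : ℕ → ℤ) {m : ℕ} (hm : m < n) : f (argmin n f) ≤ f m := by
  obtain ⟨-, -, h3⟩ := fold_spec f ((List.range n).map Un.mk) (Un.mk 0)
  exact h3 (Un.mk m) (List.mem_map.2 ⟨m, List.mem_range.2 hm, rfl⟩)

/-! ### walks -/

theorem wcost_cons (d : ℕ → ℕ → ℤ) (u : ℕ) (r : List ℕ) (j : ℕ) :
    wcost d (u :: r) j = d u j + wcost d r u := by
  unfold wcost
  rw [List.length_cons, Finset.sum_range_succ']
  simp only [List.getD_cons_succ, List.getD_cons_zero]
  ring

@[simp] theorem wcost_nil (d : ℕ → ℕ → ℤ) (j : ℕ) : wcost d [] j = 0 := by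
  simp [wcost]

/-- walks from `i` with `k + 1` arcs -/
def IsW (n i k : ℕ) (r : List ℕ) : Prop :=
  r.length = k + 1 ∧ (∀ v ∈ r, v < n) ∧ r.getLast? = some i

theorem walk_spec {n i : ℕ} (hi : i < n) (d : ℕ → ℕ → ℤ) (k : ℕ) :
    ∀ j < n, IsW n i k (walk n d i k j) ∧ ∀ r, IsW n i k r → wcost d (walk n d i k j) j ≤ wcost d r j := by
  have hn : 0 < n := lt_of_le_of_lt (Nat.zero_le _) hi
  induction k with
  | zero =>
    intro j hj
    have e : walk n d i 0 j = [i] := by
      unfold walk
      rw [Function.iterate_zero, id, List.getD_eq_getElem?_getD, List.getElem?_replicate, if_pos hj]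
      rfl
    rw [e]
    refine ⟨⟨rfl, by simpa using hi, rfl⟩, ?_⟩
    rintro r ⟨h1, -, h3⟩
    obtain ⟨x, rfl⟩ := List.length_eq_one_iff.1 h1
    simp at h3
    rw [h3]
  | succ k ih =>
    intro j hj
    set T := (wstep n d)^[k] (List.replicate n [i]) with hT
    set m := argmin n fun m => wcost d (m :: T.getD m []) j with hm
    have e : walk n d i (k + 1) j = m :: T.getD m [] := by
      unfold walk
      rw [Function.iterate_succ_apply', ← hT]
      unfold wstep
      rw [List.getD_eq_getElem?_getD, List.getElem?_map, List.getElem?_range hj]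
      rfl
    have hmn : m < n := argmin_lt hn _
    have eT : ∀ j, T.getD j [] = walk n d i k j := fun j => rfl
    rw [e]
    refine ⟨⟨?_, ?_, ?_⟩, ?_⟩
    · rw [List.length_cons, eT, (ih m hmn).1.1]
    · intro v hv
      rcases List.mem_cons.1 hv with hv | hv
      · rw [hv]; exact hmn
      · rw [eT] at hv; exact (ih m hmn).1.2.1 v hv
    · rw [eT]
      have h := (ih m hmn).1
      have hne : walk n d i k m ≠ [] := by
        intro h0
        have := h.1
        rw [h0] at this
        simp at this
      rw [List.getLast?_cons_of_ne_nil hne]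
      exact h.2.2
    · rintro r ⟨h1, h2, h3⟩
      cases r with
      | nil => simp at h1
      | cons u r =>
        have hr : IsW n i k r := by
          refine ⟨by simpa using h1, fun v hv => h2 v (List.mem_cons_of_mem _ hv), ?_⟩
          have hne : r ≠ [] := by
            intro h0
            rw [h0] at h1
            simp at h1
          rwa [List.getLast?_cons_of_ne_nil hne] at h3
        have hu : u < n := h2 u (by simp)
        have h4 := argmin_le (fun m => wcost d (m :: T.getD m []) j) hu
        refine h4.trans ?_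
        rw [wcost_cons, wcost_cons, eT]
        have := (ih u hu).2 r hr
        omega

theorem wcost_split1 (d : ℕ → ℕ → ℤ) (x : ℕ) (C : List ℕ) : ∀ (B : List ℕ) (y : ℕ),
    wcost d (B ++ x :: C) y = wcost d C x + wcost d (B ++ [x]) y := by
  intro B
  induction B with
  | nil => intro y; simp only [List.nil_append, wcost_cons, wcost_nil]; ring
  | cons b B ih =>
    intro y
    simp only [List.cons_append, wcost_cons]
    rw [ih b]
    ring

theorem wcost_split2 (d : ℕ → ℕ → ℤ) (x : ℕ) (B C : List ℕ) : ∀ (A : List ℕ) (j : ℕ),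
    wcost d (A ++ x :: (B ++ x :: C)) j = wcost d (A ++ x :: C) j + wcost d (B ++ [x]) x := by
  intro A
  induction A with
  | nil =>
    intro j
    simp only [List.nil_append, wcost_cons]
    rw [wcost_split1]
    ring
  | cons a A ih =>
    intro j
    simp only [List.cons_append, wcost_cons]
    rw [ih a]
    ring

theorem exists_dup : ∀ r : List ℕ, ¬ r.Nodup → ∃ (A : List ℕ) (x : ℕ) (B C : List ℕ),
    r = A ++ x :: (B ++ x :: C) := by
  intro r
  induction r with
  | nil => intro h; exact absurd List.nodup_nil h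
  | cons u r ih =>
    intro h
    by_cases hu : u ∈ r
    · obtain ⟨B, C, rfl⟩ := List.append_of_mem hu
      exact ⟨[], u, B, C, rfl⟩
    · have : ¬ r.Nodup := fun h1 => h (List.nodup_cons.2 ⟨hu, h1⟩)
      obtain ⟨A, x, B, C, rfl⟩ := ih this
      exact ⟨u :: A, x, B, C, rfl⟩

/-- if there is a negative closed walk then one of the walks of the dynamic program is a negative
closed walk without repeated vertices -/
theorem exists_nodup {n : ℕ} (d : ℕ → ℕ → ℤ)
    (h : ∃ k i r, i < n ∧ IsW n i k r ∧ wcost d r i < 0) :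
    ∃ k i, i < n ∧ k < n ∧ (walk n d i k i).Nodup ∧ IsW n i k (walk n d i k i) ∧
      wcost d (walk n d i k i) i < 0 := by
  classical
  let P : ℕ → Prop := fun k => ∃ i r, i < n ∧ IsW n i k r ∧ wcost d r i < 0
  have hP : ∃ k, P k := h
  obtain ⟨i, r, hi, hr, hneg⟩ := Nat.find_spec hP
  set k := Nat.find hP with hk
  have hmin : ∀ k' < k, ¬ P k' := fun k' hk' => Nat.find_min hP hk'
  obtain ⟨hw1, hw2⟩ := walk_spec hi d k i hi
  have hw3 : wcost d (walk n d i k i) i < 0 := lt_of_le_of_lt (hw2 r hr) hneg
  have hnd : (walk n d i k i).Nodup := by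
    by_contra hnd
    obtain ⟨A, x, B, C, hABC⟩ := exists_dup _ hnd
    rw [hABC] at hw1 hw3
    obtain ⟨h1, h2, h3⟩ := hw1
    rw [wcost_split2] at hw3
    have hl : A.length + B.length + C.length + 1 = k := by
      simp only [List.length_append, List.length_cons] at h1
      omega
    have hx : x < n := h2 x (by simp)
    have hout : ¬ wcost d (A ++ x :: C) i < 0 := by
      intro h4
      refine hmin (A.length + C.length) (by omega) ⟨i, A ++ x :: C, hi, ⟨?_, ?_, ?_⟩, h4⟩
      · simp only [List.length_append, List.length_cons]; omega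
      · intro v hv
        refine h2 v ?_
        simp only [List.mem_append, List.mem_cons] at hv ⊢
        tauto
      · rw [← h3]
        have e1 : A ++ x :: (B ++ x :: C) = (A ++ x :: B) ++ (x :: C) := by simp
        rw [e1, List.getLast?_append_of_ne_nil _ (by simp), List.getLast?_append_of_ne_nil _ (by simp)]
    have hin : ¬ wcost d (B ++ [x]) x < 0 := by
      intro h4
      refine hmin B.length (by omega) ⟨x, B ++ [x], hx, ⟨?_, ?_, ?_⟩, h4⟩
      · simp
      · intro v hv
        refine h2 v ?_
        simp only [List.mem_append, List.mem_cons, List.not_mem_nil, or_false] at hv ⊢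
        tauto
      · simp
    omega
  refine ⟨k, i, hi, ?_, hnd, hw1, hw3⟩
  have h5 : (walk n d i k i).length ≤ n := by
    have h6 : (walk n d i k i) ⊆ List.range n := fun v hv => List.mem_range.2 (hw1.2.1 v hv)
    have := (hnd.subperm h6).length_le
    simpa using this
  have := hw1.1
  omega

/-! ### permutations -/

theorem valid_iff {n : ℕ} {s : List ℕ} : valid n s = true ↔
    s.length = n ∧ (∀ u ∈ s, u < n) ∧ ∀ v < n, v ∈ s := by
  unfold valid
  simp only [Bool.and_eq_true, decide_eq_true_eq, List.all_eq_true, List.mem_range, List.any_eq_true,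
    and_assoc]
  refine and_congr Iff.rfl (and_congr Iff.rfl ?_)
  constructor
  · intro h v hv
    obtain ⟨u, hu, h1⟩ := h v hv
    rwa [h1] at hu
  · intro h v hv
    exact ⟨v, h v hv, rfl⟩

theorem valid_range (n : ℕ) : valid n (List.range n) = true := by
  rw [valid_iff]
  refine ⟨by simp, by simp, by simp⟩

theorem exists_perm {n : ℕ} {s : List ℕ} (h : valid n s = true) :
    ∃ e : Equiv.Perm (Fin n), ∀ i : Fin n, s.getD i 0 = e i := by
  obtain ⟨h1, h2, h3⟩ := valid_iff.1 h
  have hlt : ∀ i : Fin n, s.getD i 0 < n := by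
    intro i
    have hi : (i : ℕ) < s.length := by rw [h1]; exact i.2
    rw [List.getD_eq_getElem _ _ hi]
    exact h2 _ (List.getElem_mem hi)
  let f : Fin n → Fin n := fun i => ⟨s.getD i 0, hlt i⟩
  have hf : Function.Surjective f := by
    intro v
    obtain ⟨i, hi, hiv⟩ := List.mem_iff_getElem.1 (h3 v v.2)
    refine ⟨⟨i, by omega⟩, ?_⟩
    apply Fin.ext
    show s.getD i 0 = v
    rw [List.getD_eq_getElem _ _ hi]
    exact hiv
  refine ⟨Equiv.ofBijective f ⟨Finite.injective_iff_surjective.2 hf, hf⟩, fun i => rfl⟩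

theorem cost_eq {n : ℕ} (C : List (List ℤ)) {s : List ℕ} (e : Equiv.Perm (Fin n))
    (he : ∀ i : Fin n, s.getD i 0 = e i) : cost n C s = ∑ i : Fin n, ent C i (e i) := by
  unfold cost
  rw [Finset.sum_range]
  exact Finset.sum_congr rfl fun i _ => by rw [he i]

/-- the list of a permutation -/
def ofPerm {n : ℕ} (e : Equiv.Perm (Fin n)) : List ℕ := List.ofFn fun i => ((e i : Fin n) : ℕ)

theorem ofPerm_getD {n : ℕ} (e : Equiv.Perm (Fin n)) (i : Fin n) : (ofPerm e).getD i 0 = e i := by
  unfold ofPerm
  rw [List.getD_eq_getElem _ _ (by simp)]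
  simp

theorem valid_ofPerm {n : ℕ} (e : Equiv.Perm (Fin n)) : valid n (ofPerm e) = true := by
  rw [valid_iff]
  refine ⟨by simp [ofPerm], ?_, ?_⟩
  · intro u hu
    unfold ofPerm at hu
    rw [List.mem_ofFn] at hu
    obtain ⟨i, rfl⟩ := hu
    exact (e i).2
  · intro v hv
    unfold ofPerm
    rw [List.mem_ofFn]
    exact ⟨e.symm ⟨v, hv⟩, by simp⟩

/-! ### a better permutation gives a negative closed walk -/

theorem exists_neg {n : ℕ} {C : List (List ℤ)} {s t : List ℕ} (hs : valid n s = true)
    (ht : valid n t = true) (hlt : cost n C t < cost n C s) :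
    ∃ k i r, i < n ∧ IsW n i k r ∧ wcost (dd C s) r i < 0 := by
  obtain ⟨e, he⟩ := exists_perm hs
  obtain ⟨f, hf⟩ := exists_perm ht
  set d := dd C s with hd
  set π : Equiv.Perm (Fin n) := e⁻¹ * f with hπ
  have hsum : ∑ i : Fin n, d i (π i) < 0 := by
    have h1 : ∀ i : Fin n, d i (π i) = ent C i (f i) - ent C i (e i) := by
      intro i
      rw [hd]
      unfold dd
      rw [he (π i), he i]
      have : e (π i) = f i := by rw [hπ]; simp
      rw [this]
    rw [Finset.sum_congr rfl fun i _ => h1 i, Finset.sum_sub_distrib, ← cost_eq C e he,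
      ← cost_eq C f hf]
    omega
  -- the walk along the orbit
  let R : Fin n → ℕ → List ℕ := fun i k =>
    Nat.rec (motive := fun _ => List ℕ) [(i : ℕ)] (fun k r => (((π ^ (k + 1)) i : Fin n) : ℕ) :: r) k
  have hR0 : ∀ i : Fin n, R i 0 = [(i : ℕ)] := fun i => rfl
  have hRs : ∀ (i : Fin n) (k : ℕ), R i (k + 1) = (((π ^ (k + 1)) i : Fin n) : ℕ) :: R i k := fun i k => rfl
  have hRW : ∀ (i : Fin n) (k : ℕ), IsW n i k (R i k) := by
    intro i k
    induction k with
    | zero => rw [hR0]; exact ⟨rfl, by simp, rfl⟩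
    | succ k ih =>
      rw [hRs]
      obtain ⟨h1, h2, h3⟩ := ih
      refine ⟨by rw [List.length_cons, h1], ?_, ?_⟩
      · intro v hv
        rcases List.mem_cons.1 hv with hv | hv
        · rw [hv]; exact ((π ^ (k + 1)) i).2
        · exact h2 v hv
      · have hne : R i k ≠ [] := by
          intro h0
          rw [h0] at h1
          simp at h1
        rw [List.getLast?_cons_of_ne_nil hne]
        exact h3
  have hRc : ∀ (i : Fin n) (k : ℕ), wcost d (R i k) (((π ^ (k + 1)) i : Fin n) : ℕ) =
      ∑ t ∈ Finset.range (k + 1), d ((π ^ t) i : Fin n) ((π ^ (t + 1)) i : Fin n) := by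
    intro i k
    induction k with
    | zero => rw [hR0, wcost_cons, wcost_nil]; simp
    | succ k ih => rw [hRs, wcost_cons, ih, Finset.sum_range_succ _ (k + 1)]; ring
  have hN : 0 < orderOf π := orderOf_pos π
  obtain ⟨N, hN'⟩ : ∃ N, orderOf π = N + 1 := ⟨orderOf π - 1, by omega⟩
  have hone : π ^ (N + 1) = 1 := by rw [← hN']; exact pow_orderOf_eq_one π
  have htot : ∑ i : Fin n, wcost d (R i N) i < 0 := by
    have h1 : ∀ i : Fin n, wcost d (R i N) i =
        ∑ t ∈ Finset.range (N + 1), d ((π ^ t) i : Fin n) ((π ^ (t + 1)) i : Fin n) := by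
      intro i
      rw [← hRc i N, hone]
      rfl
    rw [Finset.sum_congr rfl fun i _ => h1 i, Finset.sum_comm]
    have h2 : ∀ t ∈ Finset.range (N + 1),
        ∑ i : Fin n, d ((π ^ t) i : Fin n) ((π ^ (t + 1)) i : Fin n) = ∑ i : Fin n, d i (π i) := by
      intro t _
      have h3 := Equiv.sum_comp (π ^ t) (fun i : Fin n => d i (π i))
      rw [← h3]
      refine Finset.sum_congr rfl fun i _ => ?_
      rw [pow_succ']
      rfl
    rw [Finset.sum_congr rfl h2, Finset.sum_const, Finset.card_range, nsmul_eq_mul]
    have : (0 : ℤ) < ((N + 1 : ℕ) : ℤ) := by omega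
    exact mul_neg_of_pos_of_neg this hsum
  obtain ⟨i, hi⟩ : ∃ i : Fin n, wcost d (R i N) i < 0 := by
    by_contra hcon
    push Not at hcon
    exact absurd (Finset.sum_nonneg fun i _ => hcon i) (not_le.2 htot)
  exact ⟨N, i, R i N, i.2, hRW i N, hi⟩

/-! ### rotating along a closed walk -/

theorem takeWhile_idx : ∀ (r : List ℕ), r.Nodup → ∀ (t : ℕ) (ht : t < r.length),
    (r.takeWhile fun y => decide (y ≠ r[t])).length = t := by
  intro r
  induction r with
  | nil => intro _ t ht; simp at ht
  | cons u r ih =>
    intro hnd t ht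
    cases t with
    | zero => simp
    | succ t =>
      have ht' : t < r.length := by simpa using ht
      have hne : u ≠ r[t] := by
        intro h0
        exact (List.nodup_cons.1 hnd).1 (h0 ▸ List.getElem_mem ht')
      rw [List.getElem_cons_succ, List.takeWhile_cons, if_pos (by simpa using hne), List.length_cons,
        ih (List.nodup_cons.1 hnd).2 t ht']

theorem nx_getElem {i : ℕ} {r : List ℕ} (hnd : r.Nodup) {t : ℕ} (ht : t < r.length) :
    nx i r r[t] = (i :: r).getD t 0 := by
  unfold nx
  rw [if_pos (by rw [List.any_eq_true]; exact ⟨r[t], List.getElem_mem ht, by simp⟩),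
    takeWhile_idx r hnd t ht]

theorem nx_not_mem {i : ℕ} {r : List ℕ} {x : ℕ} (hx : x ∉ r) : nx i r x = x := by
  unfold nx
  rw [if_neg]
  rw [List.any_eq_true]
  rintro ⟨y, hy, h⟩
  rw [decide_eq_true_eq] at h
  exact hx (h ▸ hy)

theorem nx_lt {n i k : ℕ} {r : List ℕ} (hi : i < n) (hnd : r.Nodup) (h : IsW n i k r) {x : ℕ}
    (hx : x < n) : nx i r x < n := by
  by_cases hxr : x ∈ r
  · obtain ⟨t, ht, rfl⟩ := List.mem_iff_getElem.1 hxr
    rw [nx_getElem hnd ht]
    have ht' : t < (i :: r).length := by simp only [List.length_cons]; omega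
    rw [List.getD_eq_getElem _ _ ht']
    have := List.getElem_mem ht'
    rcases List.mem_cons.1 this with h1 | h1
    · rw [h1]; exact hi
    · exact h.2.1 _ h1
  · rw [nx_not_mem hxr]; exact hx

theorem nx_surj {n i k : ℕ} {r : List ℕ} (hnd : r.Nodup) (h : IsW n i k r) {y : ℕ}
    (hy : y < n) : ∃ x < n, nx i r x = y := by
  by_cases hyr : y ∈ r
  · obtain ⟨t, ht, rfl⟩ := List.mem_iff_getElem.1 hyr
    by_cases h1 : t + 1 < r.length
    · refine ⟨r[t + 1], h.2.1 _ (List.getElem_mem h1), ?_⟩
      rw [nx_getElem hnd h1, List.getD_cons_succ, List.getD_eq_getElem _ _ ht]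
    · have h0 : 0 < r.length := by omega
      refine ⟨r[0], h.2.1 _ (List.getElem_mem h0), ?_⟩
      rw [nx_getElem hnd h0, List.getD_cons_zero]
      have h3 := h.2.2
      rw [List.getLast?_eq_getElem?] at h3
      have h4 : r.length - 1 = t := by omega
      rw [h4, List.getElem?_eq_getElem ht] at h3
      exact (Option.some.inj h3).symm
  · exact ⟨y, hy, nx_not_mem hyr⟩

theorem ap_getD {n i : ℕ} (r s : List ℕ) {x : ℕ} (hx : x < n) :
    (ap n i r s).getD x 0 = s.getD (nx i r x) 0 := by
  unfold ap
  rw [List.getD_eq_getElem?_getD, List.getElem?_map, List.getElem?_range hx]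
  rfl

theorem ap_valid {n i k : ℕ} {r s : List ℕ} (hi : i < n) (hnd : r.Nodup) (h : IsW n i k r)
    (hs : valid n s = true) : valid n (ap n i r s) = true := by
  obtain ⟨h1, h2, h3⟩ := valid_iff.1 hs
  rw [valid_iff]
  refine ⟨by simp [ap], ?_, ?_⟩
  · intro u hu
    unfold ap at hu
    rw [List.mem_map] at hu
    obtain ⟨x, hx, rfl⟩ := hu
    have hlt := nx_lt hi hnd h (List.mem_range.1 hx)
    rw [List.getD_eq_getElem _ _ (by omega)]
    exact h2 _ (List.getElem_mem _)
  · intro v hv
    obtain ⟨y, hy, hyv⟩ := List.mem_iff_getElem.1 (h3 v hv)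
    obtain ⟨x, hx, hxy⟩ := nx_surj hnd h (show y < n by omega)
    unfold ap
    rw [List.mem_map]
    refine ⟨x, List.mem_range.2 hx, ?_⟩
    rw [hxy, List.getD_eq_getElem _ _ hy]
    exact hyv

theorem sum_map_getD (g : ℕ → ℤ) : ∀ r : List ℕ,
    (r.map g).sum = ∑ t ∈ Finset.range r.length, g (r.getD t 0) := by
  intro r
  induction r with
  | nil => simp
  | cons u r ih =>
    rw [List.map_cons, List.sum_cons, List.length_cons, Finset.sum_range_succ', ih]
    simp only [List.getD_cons_succ, List.getD_cons_zero]
    ring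

theorem ap_cost {n i k : ℕ} {C : List (List ℤ)} {r s : List ℕ} (hnd : r.Nodup) (h : IsW n i k r) :
    cost n C (ap n i r s) = cost n C s + wcost (dd C s) r i := by
  have h1 : cost n C (ap n i r s) - cost n C s = ∑ x ∈ Finset.range n, dd C s x (nx i r x) := by
    unfold cost
    rw [← Finset.sum_sub_distrib]
    refine Finset.sum_congr rfl fun x hx => ?_
    rw [ap_getD r s (Finset.mem_range.1 hx)]
    rfl
  have h2 : ∑ x ∈ Finset.range n, dd C s x (nx i r x) = ∑ x ∈ r.toFinset, dd C s x (nx i r x) := by
    symm
    refine Finset.sum_subset ?_ ?_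
    · intro x hx
      exact Finset.mem_range.2 (h.2.1 x (List.mem_toFinset.1 hx))
    · intro x _ hx
      rw [nx_not_mem (fun h0 => hx (List.mem_toFinset.2 h0))]
      simp [dd]
  have h3 : ∑ x ∈ r.toFinset, dd C s x (nx i r x) = wcost (dd C s) r i := by
    rw [List.sum_toFinset _ hnd, sum_map_getD]
    unfold wcost
    refine Finset.sum_congr rfl fun t ht => ?_
    have ht' : t < r.length := Finset.mem_range.1 ht
    rw [List.getD_eq_getElem _ _ ht', nx_getElem hnd ht']
  omega

/-! ### the rounds -/

theorem foldl_spec (n : ℕ) (C : List (List ℤ)) (L : List (List ℕ)) : ∀ b : List ℕ,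
    valid n b = true →
    let r := L.foldl (fun b t => if (valid n t && decide (cost n C t < cost n C b)) = true
      then t else b) b
    valid n r = true ∧ cost n C r ≤ cost n C b ∧ ∀ t ∈ L, valid n t = true → cost n C r ≤ cost n C t := by
  induction L with
  | nil => intro b hb; simp [hb]
  | cons a L ih =>
    intro b hb
    simp only [List.foldl_cons]
    by_cases h : (valid n a && decide (cost n C a < cost n C b)) = true
    · rw [if_pos h]
      rw [Bool.and_eq_true, decide_eq_true_eq] at h
      obtain ⟨h1, h2, h3⟩ := ih a h.1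
      refine ⟨h1, h2.trans h.2.le, ?_⟩
      intro t ht hv
      rcases List.mem_cons.1 ht with ht | ht
      · rw [ht]; exact h2
      · exact h3 t ht hv
    · rw [if_neg h]
      obtain ⟨h1, h2, h3⟩ := ih b hb
      refine ⟨h1, h2, ?_⟩
      intro t ht hv
      rcases List.mem_cons.1 ht with ht | ht
      · rw [ht] at hv ⊢
        rw [hv, Bool.true_and, decide_eq_true_eq, not_lt] at h
        exact h2.trans h
      · exact h3 t ht hv

theorem improve_valid {n : ℕ} {C : List (List ℤ)} {s : List ℕ} (hs : valid n s = true) :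
    valid n (improve n C s) = true := (foldl_spec n C _ s hs).1

theorem improve_le {n : ℕ} {C : List (List ℤ)} {s : List ℕ} (hs : valid n s = true) :
    cost n C (improve n C s) ≤ cost n C s := (foldl_spec n C _ s hs).2.1

theorem improve_lt {n : ℕ} {C : List (List ℤ)} {s t : List ℕ} (hs : valid n s = true)
    (ht : valid n t = true) (hlt : cost n C t < cost n C s) :
    cost n C (improve n C s) < cost n C s := by
  obtain ⟨k, i, hi, hk, hnd, hW, hneg⟩ := exists_nodup (dd C s) (exists_neg hs ht hlt)
  have h1 := (foldl_spec n C ((List.range n).flatMap fun i => (List.range n).map fun k =>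
    ap n i (walk n (dd C s) i k i) s) s hs).2.2 (ap n i (walk n (dd C s) i k i) s) (by
      rw [List.mem_flatMap]
      refine ⟨i, List.mem_range.2 hi, ?_⟩
      rw [List.mem_map]
      exact ⟨k, List.mem_range.2 hk, rfl⟩) (ap_valid hi hnd hW hs)
  have h2 := ap_cost (C := C) (s := s) hnd hW
  have h3 : cost n C (improve n C s) ≤ cost n C (ap n i (walk n (dd C s) i k i) s) := h1
  omega

theorem minAssign_valid (B n : ℕ) (C : List (List ℤ)) : valid n (minAssign B n C) = true := by
  unfold minAssign
  induction B with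
  | zero => exact valid_range n
  | succ B ih => rw [Function.iterate_succ_apply']; exact improve_valid ih

/-- **optimality** -/
theorem minAssign_le (B n : ℕ) (C : List (List ℤ))
    (hB : ∀ t, valid n t = true → cost n C (List.range n) ≤ cost n C t + B) (t : List ℕ)
    (ht : valid n t = true) : cost n C (minAssign B n C) ≤ cost n C t := by
  have key : ∀ k : ℕ, (∀ t, valid n t = true → cost n C (minAssign k n C) ≤ cost n C t) ∨
      cost n C (minAssign k n C) ≤ cost n C (List.range n) - k := by
    intro k
    induction k with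
    | zero => right; simp [minAssign]
    | succ k ih =>
      have e : minAssign (k + 1) n C = improve n C (minAssign k n C) := by
        unfold minAssign
        rw [Function.iterate_succ_apply']
      have hv := minAssign_valid k n C
      rcases ih with ih | ih
      · left
        intro t ht
        rw [e]
        exact (improve_le hv).trans (ih t ht)
      · by_cases hex : ∃ t, valid n t = true ∧ cost n C t < cost n C (minAssign k n C)
        · obtain ⟨t, ht, hlt⟩ := hex
          right
          rw [e]
          have := improve_lt hv ht hlt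
          push_cast
          omega
        · left
          push Not at hex
          intro t ht
          rw [e]
          exact (improve_le hv).trans (hex t ht)
  rcases key B with h | h
  · exact h t ht
  · have := hB t ht
    omega

/-- optimality, in terms of permutations -/
theorem minAssign_perm (B n : ℕ) (C : List (List ℤ))
    (hB : ∀ e : Equiv.Perm (Fin n), ∑ i : Fin n, ent C i i ≤ ∑ i : Fin n, ent C i (e i) + B) :
    ∃ e : Equiv.Perm (Fin n), (∀ i : Fin n, (minAssign B n C).getD i 0 = e i) ∧
      ∀ f : Equiv.Perm (Fin n), ∑ i : Fin n, ent C i (e i) ≤ ∑ i : Fin n, ent C i (f i) := by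
  obtain ⟨e, he⟩ := exists_perm (minAssign_valid B n C)
  refine ⟨e, he, ?_⟩
  intro f
  rw [← cost_eq C e he, ← cost_eq C f (ofPerm_getD f)]
  refine minAssign_le B n C ?_ _ (valid_ofPerm f)
  intro t ht
  obtain ⟨g, hg⟩ := exists_perm ht
  rw [cost_eq C g hg]
  refine le_trans (le_of_eq ?_) (hB g)
  refine cost_eq C (1 : Equiv.Perm (Fin n)) ?_
  intro i
  rw [List.getD_eq_getElem _ _ (by simp)]
  simp

end Crest.Agent.R287.MA
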