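import Mathlib

/-!
# Row 287 (S0432): realization of a cycle of rings by a linear text (helper34)

`tl L` : merged length of the list `L` (`ln` = lengths, `o` = overlaps).
`pc R` : cost of the ring `R`; `lk R i` : overlap at the link in front of position `i`.
`path first rest` : the linear text of a cyclic list of rings, cut between the last and the first.
-/

set_option autoImplicit false

namespace Crest.Agent.R287.Real

variable {α : Type} (ln : α → ℤ) (o : α → α → ℤ)

/-- merged length -/
def tl : List α → ℤ
  | [] => 0
  | [a] => ln a
  | a :: b :: L => ln a - o a b + tl (b :: L)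

/-- last element, with default -/
def la (d : α) (L : List α) : α := L.getLastD d

/-- overlap between the end of `A` and the beginning of `B` (0 if one of them is empty) -/
def jn (A B : List α) : ℤ :=
  match A.getLast?, B.head? with
  | some a, some b => o a b
  | _, _ => 0

/-- cost of the ring `R` -/
def pc (R : List α) : ℤ := tl ln o R - jn o R R

/-- overlap at the link in front of position `i` -/
def lk (R : List α) (i : ℕ) : ℤ := jn o (R.rotate i) (R.rotate i)

variable {ln o}

theorem jn_congr {A A' B B' : List α} (h1 : A.getLast? = A'.getLast?) (h2 : B.head? = B'.head?) :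
    jn o A B = jn o A' B' := by
  unfold jn; rw [h1, h2]

theorem tl_append (A B : List α) (hA : A ≠ []) (hB : B ≠ []) :
    tl ln o (A ++ B) = tl ln o A + tl ln o B - jn o A B := by
  induction A with
  | nil => exact absurd rfl hA
  | cons a A ih =>
    cases A with
    | nil =>
      cases B with
      | nil => exact absurd rfl hB
      | cons b B =>
        simp only [List.cons_append, List.nil_append, tl, jn, List.getLast?_singleton, List.head?_cons]
        ring
    | cons a' A =>
      have h1 := ih (by simp)
      have h2 : jn o (a :: a' :: A) B = jn o (a' :: A) B := jn_congr (by simp) rfl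
      rw [h2]
      simp only [List.cons_append, tl] at h1 ⊢
      rw [h1]
      ring

section bounds

variable (h0 : ∀ a b, o a b ≤ ln a) (h1 : ∀ a b, o a b ≤ ln b)

include h1 in
theorem le_tl_head (a : α) (L : List α) : ln a ≤ tl ln o (a :: L) := by
  induction L generalizing a with
  | nil => simp [tl]
  | cons b L ih =>
    have := ih b
    have := h1 a b
    simp only [tl]
    linarith

include h0 in
theorem le_tl_last (L : List α) (a : α) (h : L.getLast? = some a) : ln a ≤ tl ln o L := by
  induction L with
  | nil => simp at h
  | cons b L ih =>
    cases L with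
    | nil =>
      simp at h
      simp [tl, h]
    | cons c L =>
      have h2 : (c :: L).getLast? = some a := by simpa using h
      have := ih h2
      have := h0 b c
      simp only [tl]
      linarith

include h0 in
theorem jn_le_left {A : List α} (B : List α) (hA : A ≠ []) (hln : ∀ a, 0 ≤ ln a) :
    jn o A B ≤ tl ln o A := by
  obtain ⟨a, ha⟩ : ∃ a, A.getLast? = some a := by
    cases h : A.getLast? with
    | none => simp [List.getLast?_eq_none_iff] at h; exact absurd h hA
    | some a => exact ⟨a, rfl⟩
  have h2 := le_tl_last h0 A a ha
  unfold jn
  rw [ha]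
  cases hb : B.head? with
  | none =>
    have := hln a
    show (0 : ℤ) ≤ _
    linarith
  | some b =>
    show o a b ≤ _
    have := h0 a b
    linarith

include h1 in
theorem jn_le_right (A : List α) {B : List α} (hB : B ≠ []) (hln : ∀ a, 0 ≤ ln a) :
    jn o A B ≤ tl ln o B := by
  cases B with
  | nil => exact absurd rfl hB
  | cons b B =>
    have h2 := le_tl_head h1 b B
    unfold jn
    cases ha : A.getLast? with
    | none =>
      have := hln b
      show (0 : ℤ) ≤ _
      linarith
    | some a =>
      show o a b ≤ _
      have := h1 a b
      linarith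

end bounds

theorem pc_rotate (R : List α) (i : ℕ) : pc ln o (R.rotate i) = pc ln o R := by
  induction i generalizing R with
  | zero => simp
  | succ n ih =>
    cases R with
    | nil => simp
    | cons a R =>
      rw [List.rotate_cons_succ, ih]
      cases R with
      | nil => rfl
      | cons b R =>
        have e1 : tl ln o (b :: R ++ [a]) = tl ln o (b :: R) + ln a - jn o (b :: R) [a] := by
          rw [tl_append _ _ (by simp) (by simp)]; rfl
        have e2 : jn o (b :: R ++ [a]) (b :: R ++ [a]) = o a b := by
          have h1 : (b :: R ++ [a]).getLast? = some a := List.getLast?_concat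
          have h2 : (b :: R ++ [a]).head? = some b := rfl
          unfold jn
          rw [h1, h2]
        have e3 : tl ln o (a :: b :: R) = ln a - o a b + tl ln o (b :: R) := rfl
        have e4 : jn o (a :: b :: R) (a :: b :: R) = jn o (b :: R) [a] :=
          jn_congr (by simp) (by simp)
        unfold pc
        rw [e1, e2, e3, e4]
        ring

theorem tl_rotate (R : List α) (i : ℕ) :
    tl ln o (R.rotate i) = pc ln o R + lk o R i := by
  have := pc_rotate (ln := ln) (o := o) R i
  unfold pc at this ⊢
  unfold lk
  linarith

/-- one round from link `i`, continued to link `k` -/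
def mid (R : List α) (i k : ℕ) : List α :=
  R.rotate i ++ (R.rotate i).take ((k + (R.length - i)) % R.length)

theorem mid_ne {R : List α} (hR : R ≠ []) (i k : ℕ) : mid R i k ≠ [] := by
  unfold mid
  simp [hR]

theorem mid_head {R : List α} (hR : R ≠ []) (i k : ℕ) : (mid R i k).head? = (R.rotate i).head? := by
  unfold mid
  rw [List.head?_append]
  cases h : (R.rotate i).head? with
  | none => simp at h; exact absurd h hR
  | some a => rfl

theorem rot_eq {R : List α} {i k : ℕ} (hi : i < R.length) :
    (R.rotate i).rotate ((k + (R.length - i)) % R.length) = R.rotate k := by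
  rw [List.rotate_rotate, ← List.rotate_mod, Nat.add_mod_mod]
  have : (i + (k + (R.length - i))) = k + R.length := by omega
  rw [this, Nat.add_mod_right, List.rotate_mod]

theorem mid_last {R : List α} {i : ℕ} (hi : i < R.length) (k : ℕ) :
    (mid R i k).getLast? = (R.rotate k).getLast? := by
  have h := rot_eq (k := k) hi
  set d := (k + (R.length - i)) % R.length with hd
  have hdl : d < (R.rotate i).length := by
    rw [List.length_rotate]; exact Nat.mod_lt _ (by omega)
  unfold mid
  rw [← hd, ← h, List.rotate_eq_drop_append_take hdl.le]
  rcases Nat.eq_zero_or_pos d with h0 | h0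
  · rw [h0]; simp
  · have hne : (R.rotate i).take d ≠ [] := by
      intro h1
      have := congrArg List.length h1
      rw [List.length_take] at this
      simp only [List.length_nil] at this
      omega
    rw [List.getLast?_append_of_ne_nil _ hne, List.getLast?_append_of_ne_nil _ hne]

theorem mid_tl (h0 : ∀ a b, o a b ≤ ln a) (h1 : ∀ a b, o a b ≤ ln b) (hln : ∀ a, 0 ≤ ln a)
    {R : List α} {i : ℕ} (hi : i < R.length) (k : ℕ) (hp : 0 ≤ pc ln o R) :
    2 * tl ln o (mid R i k) ≤ 4 * pc ln o R + lk o R i + lk o R k := by
  have h := rot_eq (k := k) hi
  have hQ := tl_rotate (ln := ln) (o := o) R i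
  have hK := tl_rotate (ln := ln) (o := o) R k
  have hlast := mid_last hi k
  set d := (k + (R.length - i)) % R.length with hd
  have hdl : d < (R.rotate i).length := by
    rw [List.length_rotate]; exact Nat.mod_lt _ (by omega)
  unfold mid
  rw [← hd]
  rcases Nat.eq_zero_or_pos d with hd0 | hd0
  · rw [hd0] at h ⊢
    rw [List.rotate_zero] at h
    rw [List.take_zero, List.append_nil]
    have e : lk o R i = lk o R k := by unfold lk; rw [h]
    linarith
  · set Q := R.rotate i with hQdef
    have hQne : Q ≠ [] := by intro h2; rw [h2] at hdl; simp at hdl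
    have hT : Q.take d ≠ [] := by
      intro h2
      have := congrArg List.length h2
      rw [List.length_take] at this
      simp only [List.length_nil] at this
      omega
    have hD : Q.drop d ≠ [] := by
      intro h2
      have := congrArg List.length h2
      rw [List.length_drop] at this
      simp only [List.length_nil] at this
      omega
    have hTh : (Q.take d).head? = Q.head? := by
      rw [List.head?_take, if_neg (by omega)]
    have hDl : (Q.drop d).getLast? = Q.getLast? := by
      conv_rhs => rw [← List.take_append_drop d Q]
      rw [List.getLast?_append_of_ne_nil _ hD]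
    have hrot : R.rotate k = Q.drop d ++ Q.take d := by
      rw [← h, List.rotate_eq_drop_append_take hdl.le]
    have hkl : lk o R k = jn o (Q.take d) (Q.drop d) := by
      unfold lk
      rw [hrot]
      refine jn_congr (List.getLast?_append_of_ne_nil _ hT) ?_
      rw [List.head?_append]
      cases h2 : (Q.drop d).head? with
      | none => simp at h2; exact absurd h2 (by omega)
      | some a => rfl
    have hil : lk o R i = jn o Q Q := rfl
    have e1 : tl ln o (Q ++ Q.take d) = tl ln o Q + tl ln o (Q.take d) - jn o Q Q := by
      rw [tl_append _ _ hQne hT]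
      congr 1
      exact jn_congr rfl hTh
    have e2 : tl ln o Q = tl ln o (Q.take d) + tl ln o (Q.drop d) - lk o R k := by
      conv_lhs => rw [← List.take_append_drop d Q]
      rw [tl_append _ _ hT hD, hkl]
    have e3 : lk o R k ≤ tl ln o (Q.drop d) := by
      rw [hkl]; exact jn_le_right h1 _ hD hln
    have e4 : lk o R i ≤ tl ln o (Q.drop d) := by
      rw [hil]
      have : jn o Q Q = jn o (Q.drop d) Q := jn_congr hDl.symm rfl
      rw [this]
      exact jn_le_left h0 _ hD hln
    rw [e1]
    linarith

/-! ## cyclic lists of rings -/

/-- a ring with an in-link and an out-link -/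
structure It (α : Type) where
  R : List α
  i : ℕ
  k : ℕ

/-- overlap of consecutive items -/
def xx (o : α → α → ℤ) (z z' : It α) : ℤ := jn o (z.R.rotate z.k) (z'.R.rotate z'.i)

/-- the text of the items after the first one -/
def tailPath : List (It α) → List α
  | [] => []
  | [z] => z.R.rotate z.i
  | z :: z' :: L => mid z.R z.i z.k ++ tailPath (z' :: L)

/-- the text of the cyclic list `first :: rest`, cut in front of `first` -/
def path (first : It α) (rest : List (It α)) : List α := first.R.rotate first.k ++ tailPath rest

/-- sum of the overlaps along a list of items, starting with `z` -/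
def xs (o : α → α → ℤ) : It α → List (It α) → ℤ
  | _, [] => 0
  | z, z' :: L => xx o z z' + xs o z' L

/-- weight of an item -/
def wt (ln : α → ℤ) (o : α → α → ℤ) (z : It α) : ℤ := 4 * pc ln o z.R + lk o z.R z.i + lk o z.R z.k

/-- good item -/
def Ok (ln : α → ℤ) (o : α → α → ℤ) (z : It α) : Prop :=
  z.i < z.R.length ∧ z.k < z.R.length ∧ 0 ≤ pc ln o z.R

theorem tailPath_ne {z : It α} {L : List (It α)} (h : ∀ y ∈ z :: L, y.R ≠ []) :
    tailPath (z :: L) ≠ [] := by
  cases L with
  | nil => simpa [tailPath] using h z (by simp)
  | cons z' L =>
    have := mid_ne (h z (by simp)) z.i z.k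
    simp [tailPath, this]

theorem tailPath_head {z : It α} {L : List (It α)} (h : z.R ≠ []) :
    (tailPath (z :: L)).head? = (z.R.rotate z.i).head? := by
  cases L with
  | nil => rfl
  | cons z' L =>
    rw [tailPath, List.head?_append, mid_head h]
    cases h2 : (z.R.rotate z.i).head? with
    | none => simp at h2; exact absurd h2 h
    | some a => rfl

theorem tailPath_le (h0 : ∀ a b, o a b ≤ ln a) (h1 : ∀ a b, o a b ≤ ln b) (hln : ∀ a, 0 ≤ ln a)
    (z : It α) (L : List (It α)) (hok : ∀ y ∈ z :: L, Ok ln o y) :
    2 * tl ln o (tailPath (z :: L)) ≤ ((z :: L).map (wt ln o)).sum - 2 * xs o z L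
      - (2 * pc ln o ((z :: L).getLast (by simp)).R
        + lk o ((z :: L).getLast (by simp)).R ((z :: L).getLast (by simp)).k
        - lk o ((z :: L).getLast (by simp)).R ((z :: L).getLast (by simp)).i) := by
  induction L generalizing z with
  | nil =>
    have := tl_rotate (ln := ln) (o := o) z.R z.i
    simp only [tailPath, List.map_cons, List.map_nil, List.sum_cons, List.sum_nil, xs,
      List.getLast_singleton, wt]
    linarith
  | cons z' L ih =>
    have hz := hok z (by simp)
    have hne : z.R ≠ [] := List.ne_nil_of_length_pos (by have := hz.1; omega)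
    have hz' := hok z' (by simp)
    have hne' : z'.R ≠ [] := List.ne_nil_of_length_pos (by have := hz'.1; omega)
    have h2 := ih z' (fun y hy => hok y (List.mem_cons_of_mem _ hy))
    have h3 := mid_tl h0 h1 hln hz.1 z.k hz.2.2
    have h4 : tailPath (z' :: L) ≠ [] := tailPath_ne fun y hy => by
      have := (hok y (List.mem_cons_of_mem _ hy)).1
      exact List.ne_nil_of_length_pos (by omega)
    have h5 : tl ln o (tailPath (z :: z' :: L)) =
        tl ln o (mid z.R z.i z.k) + tl ln o (tailPath (z' :: L)) - xx o z z' := by
      rw [tailPath, tl_append _ _ (mid_ne hne _ _) h4]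
      congr 1
      exact jn_congr (mid_last hz.1 _) (tailPath_head hne')
    have h6 : (z :: z' :: L).getLast (by simp) = (z' :: L).getLast (by simp) := by
      simp
    rw [h5, h6]
    simp only [List.map_cons, List.sum_cons, xs] at h2 ⊢
    have h7 : wt ln o z = 4 * pc ln o z.R + lk o z.R z.i + lk o z.R z.k := rfl
    linarith

/-- twice the cost of the cyclic list `first :: rest` -/
def c2 (o : α → α → ℤ) (first : It α) (rest : List (It α)) (last : It α) : ℤ :=
  ((first :: rest).map fun z => lk o z.R z.i + lk o z.R z.k).sum
    - 2 * xs o first rest - 2 * xx o last first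

/-- **realization lemma** for a given cut -/
theorem path_le (h0 : ∀ a b, o a b ≤ ln a) (h1 : ∀ a b, o a b ≤ ln b) (hln : ∀ a, 0 ≤ ln a)
    (first : It α) (rest : List (It α)) (hrest : rest ≠ []) (hok : ∀ y ∈ first :: rest, Ok ln o y)
    (hx : xx o (rest.getLast hrest) first ≤ pc ln o first.R + pc ln o (rest.getLast hrest).R)
    (he : lk o first.R first.k - lk o first.R first.i
      ≤ lk o (rest.getLast hrest).R (rest.getLast hrest).k
        - lk o (rest.getLast hrest).R (rest.getLast hrest).i) :
    2 * tl ln o (path first rest) ≤ 4 * ((first :: rest).map fun z => pc ln o z.R).sum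
      + c2 o first rest (rest.getLast hrest) := by
  obtain ⟨z, L, rfl⟩ : ∃ z L, rest = z :: L := List.exists_cons_of_ne_nil hrest
  have hz := hok z (by simp)
  have hne : z.R ≠ [] := List.ne_nil_of_length_pos (by have := hz.1; omega)
  have hf := hok first (by simp)
  have hfne : first.R ≠ [] := List.ne_nil_of_length_pos (by have := hf.1; omega)
  have h2 := tailPath_le h0 h1 hln z L (fun y hy => hok y (List.mem_cons_of_mem _ hy))
  have h4 : tailPath (z :: L) ≠ [] := tailPath_ne fun y hy => by
    have := (hok y (List.mem_cons_of_mem _ hy)).1
    exact List.ne_nil_of_length_pos (by omega)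
  have h5 : tl ln o (path first (z :: L)) =
      tl ln o (first.R.rotate first.k) + tl ln o (tailPath (z :: L)) - xx o first z := by
    rw [path, tl_append _ _ (by simpa using hfne) h4]
    congr 1
    exact jn_congr rfl (tailPath_head hne)
  have h6 := tl_rotate (ln := ln) (o := o) first.R first.k
  have h7 : ((z :: L).map (wt ln o)).sum = 4 * ((z :: L).map fun z => pc ln o z.R).sum
      + ((z :: L).map fun z => lk o z.R z.i + lk o z.R z.k).sum := by
    induction (z :: L) with
    | nil => simp
    | cons y M ih =>
      simp only [List.map_cons, List.sum_cons, ih, wt]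
      ring
  rw [h7] at h2
  rw [h5, h6, c2]
  simp only [xs, List.map_cons, List.sum_cons] at h2 hx he ⊢
  linarith

end Crest.Agent.R287.Real
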