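import Crest.Agent.R287.Real

/-!
# Row 287 (S0432): realization of a cyclic list of rings, choice of the cut (helper34)
-/

set_option autoImplicit false

namespace Crest.Agent.R287.Real

variable {α : Type} {ln : α → ℤ} {o : α → α → ℤ}

/-- `lk` at both ends -/
def ends (o : α → α → ℤ) (z : It α) : ℤ := lk o z.R z.i + lk o z.R z.k

/-- twice the cost of a cyclic list of items -/
def cc (o : α → α → ℤ) (L : List (It α)) : ℤ := pc (ends o) (fun z z' => 2 * xx o z z') L

theorem tl_ends (z : It α) (L : List (It α)) :
    tl (ends o) (fun z z' => 2 * xx o z z') (z :: L)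
      = ((z :: L).map (ends o)).sum - 2 * xs o z L := by
  induction L generalizing z with
  | nil => simp [tl, xs]
  | cons z' L ih =>
    rw [tl, ih z']
    simp only [List.map_cons, List.sum_cons, xs]
    ring

theorem cc_eq (first : It α) (rest : List (It α)) (hrest : rest ≠ []) :
    cc o (first :: rest) = c2 o first rest (rest.getLast hrest) := by
  have h1 : (first :: rest).getLast? = some (rest.getLast hrest) := by
    rw [List.getLast?_cons_of_ne_nil hrest, List.getLast?_eq_getLast_of_ne_nil hrest]
  have h2 : jn (fun z z' => 2 * xx o z z') (first :: rest) (first :: rest)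
      = 2 * xx o (rest.getLast hrest) first := by
    unfold jn
    rw [h1]
    rfl
  unfold cc pc
  rw [h2, tl_ends]
  rfl

theorem cc_rotate (L : List (It α)) (n : ℕ) : cc o (L.rotate n) = cc o L := pc_rotate L n

theorem exists_cut (e : It α → ℤ) (L : List (It α)) (hL : 2 ≤ L.length) :
    ∃ n first rest, ∃ hrest : rest ≠ [], L.rotate n = first :: rest ∧
      e first ≤ e (rest.getLast hrest) := by
  have hne : L ≠ [] := List.ne_nil_of_length_pos (by omega)
  obtain ⟨m, hm, hmax⟩ := Finset.exists_max_image (Finset.univ : Finset (Fin L.length))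
    (fun j => e L[j]) ⟨⟨0, by omega⟩, Finset.mem_univ _⟩
  obtain ⟨first, rest, h1⟩ : ∃ first rest, L.rotate (m.1 + 1) = first :: rest :=
    List.exists_cons_of_ne_nil (by simpa using hne)
  have hlen : (first :: rest).length = L.length := by rw [← h1, List.length_rotate]
  have hrest : rest ≠ [] := by
    intro h; rw [h] at hlen; simp at hlen; omega
  refine ⟨m.1 + 1, first, rest, hrest, h1, ?_⟩
  have hall : ∀ z ∈ L, e z ≤ e L[m] := by
    intro z hz
    obtain ⟨j, hj, rfl⟩ := List.getElem_of_mem hz
    exact hmax ⟨j, hj⟩ (Finset.mem_univ _)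
  have hf : first ∈ L := by
    have : first ∈ L.rotate (m.1 + 1) := by rw [h1]; simp
    simpa using this
  have hl : rest.getLast hrest = L[m] := by
    have h2 : (L.rotate (m.1 + 1)).getLast? = some (rest.getLast hrest) := by
      rw [h1, List.getLast?_cons_of_ne_nil hrest, List.getLast?_eq_getLast_of_ne_nil hrest]
    have h3 : (L.rotate (m.1 + 1)).getLast? = L[m]? := by
      rw [List.getLast?_eq_getElem?, List.length_rotate, List.getElem?_rotate (by omega)]
      have : (L.length - 1 + (m.1 + 1)) % L.length = m.1 := by
        have := m.2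
        rw [show L.length - 1 + (m.1 + 1) = m.1 + L.length by omega, Nat.add_mod_right,
          Nat.mod_eq_of_lt this]
      rw [this]
      rfl
    rw [h3] at h2
    have h4 : L[m]? = some L[m] := by simp
    rw [h4] at h2
    exact (Option.some.inj h2).symm
  rw [hl]
  exact hall _ hf

/-- **realization lemma** for a cyclic list of at least two rings -/
theorem real_cycle (h0 : ∀ a b, o a b ≤ ln a) (h1 : ∀ a b, o a b ≤ ln b) (hln : ∀ a, 0 ≤ ln a)
    (L : List (It α)) (hL : 2 ≤ L.length) (hok : ∀ y ∈ L, Ok ln o y)
    (hx : ∀ n first rest, ∀ hrest : rest ≠ [], L.rotate n = first :: rest →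
      xx o (rest.getLast hrest) first ≤ pc ln o first.R + pc ln o (rest.getLast hrest).R) :
    ∃ n first rest, rest ≠ [] ∧ L.rotate n = first :: rest ∧
      2 * tl ln o (path first rest) ≤ 4 * (L.map fun z => pc ln o z.R).sum + cc o L := by
  obtain ⟨n, first, rest, hrest, hn, he⟩ :=
    exists_cut (fun z => lk o z.R z.k - lk o z.R z.i) L hL
  have hperm : (first :: rest).Perm L := by rw [← hn]; exact List.rotate_perm L n
  refine ⟨n, first, rest, hrest, hn, ?_⟩
  have h := path_le h0 h1 hln first rest hrest (fun y hy => hok y (hperm.subset hy))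
    (hx n first rest hrest hn) he
  rw [← cc_eq, ← hn, cc_rotate] at h
  rw [← (hperm.map fun z => pc ln o z.R).sum_eq]
  rw [hn] at h
  exact h

/-! ## members -/

theorem mem_mid {R : List α} (i k : ℕ) (a : α) (ha : a ∈ R) : a ∈ mid R i k := by
  unfold mid
  simp [ha]

theorem mem_tailPath (L : List (It α)) (z : It α) (hz : z ∈ L) (a : α) (ha : a ∈ z.R) :
    a ∈ tailPath L := by
  induction L with
  | nil => simp at hz
  | cons y L ih =>
    cases L with
    | nil =>
      simp only [List.mem_singleton] at hz
      subst hz
      simpa [tailPath] using ha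
    | cons y' L =>
      rw [tailPath, List.mem_append]
      rcases List.mem_cons.1 hz with rfl | h
      · exact Or.inl (mem_mid _ _ _ ha)
      · exact Or.inr (ih h)

theorem mem_path (first : It α) (rest : List (It α)) (z : It α) (hz : z ∈ first :: rest)
    (a : α) (ha : a ∈ z.R) : a ∈ path first rest := by
  rw [path, List.mem_append]
  rcases List.mem_cons.1 hz with rfl | h
  · exact Or.inl (by simpa using ha)
  · exact Or.inr (mem_tailPath rest z h a ha)

/-- the path uses only strings of the rings -/
theorem mid_sub (R : List α) (i k : ℕ) (a : α) (h : a ∈ mid R i k) : a ∈ R := by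
  unfold mid at h
  rcases List.mem_append.1 h with h | h
  · simpa using h
  · simpa using List.mem_of_mem_take h

theorem tailPath_sub (L : List (It α)) (a : α) (h : a ∈ tailPath L) : ∃ z ∈ L, a ∈ z.R := by
  induction L with
  | nil => simp [tailPath] at h
  | cons y L ih =>
    cases L with
    | nil => exact ⟨y, by simp, by simpa [tailPath] using h⟩
    | cons y' L =>
      rw [tailPath, List.mem_append] at h
      rcases h with h | h
      · exact ⟨y, by simp, mid_sub _ _ _ _ h⟩
      · obtain ⟨z, hz, hz'⟩ := ih h
        exact ⟨z, List.mem_cons_of_mem _ hz, hz'⟩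

theorem path_sub (first : It α) (rest : List (It α)) (a : α) (h : a ∈ path first rest) :
    ∃ z ∈ first :: rest, a ∈ z.R := by
  rw [path, List.mem_append] at h
  rcases h with h | h
  · exact ⟨first, by simp, by simpa using h⟩
  · obtain ⟨z, hz, hz'⟩ := tailPath_sub rest a h
    exact ⟨z, List.mem_cons_of_mem _ hz, hz'⟩

/-! ## concatenation of texts -/

/-- merged length of a concatenation is at most the sum (overlaps are nonnegative) -/
theorem tl_append_le (ho : ∀ a b, 0 ≤ o a b) (A B : List α) :
    tl ln o (A ++ B) ≤ tl ln o A + tl ln o B := by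
  by_cases hA : A = []
  · subst hA; simp [tl]
  by_cases hB : B = []
  · subst hB; simp [tl]
  rw [tl_append A B hA hB]
  have : 0 ≤ jn o A B := by
    unfold jn
    cases A.getLast? with
    | none => exact le_refl _
    | some a =>
      cases B.head? with
      | none => exact le_refl _
      | some b => exact ho a b
  linarith

theorem tl_flatten_le (ho : ∀ a b, 0 ≤ o a b) (Ls : List (List α)) :
    tl ln o Ls.flatten ≤ (Ls.map (tl ln o)).sum := by
  induction Ls with
  | nil => simp [tl]
  | cons L Ls ih =>
    rw [List.flatten_cons, List.map_cons, List.sum_cons]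
    have := tl_append_le (ln := ln) ho L Ls.flatten
    linarith

/-- deleting a repeated element from the text: if `a` may be dropped -/
theorem tl_nonneg (h0 : ∀ a b, o a b ≤ ln a) (hln : ∀ a, 0 ≤ ln a) (L : List α) :
    0 ≤ tl ln o L := by
  cases h : L.getLast? with
  | none => simp at h; subst h; simp [tl]
  | some a =>
    have := le_tl_last h0 L a h
    have := hln a
    linarith

end Crest.Agent.R287.Real
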