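import Crest.Agent.R287.Core

/-!
# Row 287 (S0432): overlaps, merging along an order, orders from superstrings (helper7)

`ov s t` : greatest `k < min |s| |t|` such that the last `k` letters of `s` are the first `k` of `t`.
`merge L` : the strings of `L` glued with maximal overlaps; `|merge L| = tourLen L`.
`tour_lb` : a superstring of a factor-free family gives an order `L` with `tourLen L ≤ |T'|`.
`wrap3` : a polynomial time order with `tourLen ≤ 2 * tourLen` of every other order is enough.
-/

set_option autoImplicit false

namespace Crest.Agent.R287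

open Crest.Enc Crest.Agent.PolyT PEnc

/-- the last `k` letters of `s` are the first `k` letters of `t` -/
def Ovl (s t : List ℕ) (k : ℕ) : Prop := s.drop (s.length - k) = t.take k

instance (s t : List ℕ) (k : ℕ) : Decidable (Ovl s t k) := by unfold Ovl; infer_instance

/-- greatest element below `n` with `p` (0 if there is none) -/
def lastBelow (p : ℕ → Bool) (n : ℕ) : ℕ := ((List.range n).filter p).reverse.headD 0

theorem lastBelow_zero (p : ℕ → Bool) : lastBelow p 0 = 0 := rfl

theorem lastBelow_succ (p : ℕ → Bool) (n : ℕ) :
    lastBelow p (n + 1) = if p n then n else lastBelow p n := by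
  unfold lastBelow
  rw [List.range_succ, List.filter_append, List.reverse_append]
  by_cases h : p n = true
  · simp [h]
  · simp [h]

theorem le_lastBelow {p : ℕ → Bool} {n k : ℕ} (hk : k < n) (hp : p k = true) :
    k ≤ lastBelow p n := by
  induction n with
  | zero => omega
  | succ n ih =>
    rw [lastBelow_succ]
    split_ifs with h
    · omega
    · rcases Nat.lt_succ_iff_lt_or_eq.1 hk with h1 | h1
      · exact ih h1
      · rw [h1] at hp; exact absurd hp h

theorem lastBelow_spec {p : ℕ → Bool} (n : ℕ) (h0 : p 0 = true) : p (lastBelow p n) = true := by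
  induction n with
  | zero => exact h0
  | succ n ih =>
    rw [lastBelow_succ]
    split_ifs with h
    · exact h
    · exact ih

theorem lastBelow_lt {p : ℕ → Bool} {n : ℕ} (hn : 0 < n) : lastBelow p n < n := by
  induction n with
  | zero => omega
  | succ n ih =>
    rw [lastBelow_succ]
    split_ifs with h
    · omega
    · rcases Nat.eq_zero_or_pos n with h1 | h1
      · subst h1; simp [lastBelow_zero]
      · have := ih h1; omega

/-- maximal proper overlap -/
def ov (s t : List ℕ) : ℕ := lastBelow (fun k => decide (Ovl s t k)) (min s.length t.length)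

theorem ovl_zero (s t : List ℕ) : Ovl s t 0 := by
  unfold Ovl; simp

theorem ovl_ov (s t : List ℕ) : Ovl s t (ov s t) := by
  have := lastBelow_spec (p := fun k => decide (Ovl s t k)) (min s.length t.length)
    (by simp [ovl_zero])
  simpa [ov] using this

theorem ov_le_min (s t : List ℕ) : ov s t ≤ min s.length t.length := by
  rcases Nat.eq_zero_or_pos (min s.length t.length) with h | h
  · unfold ov; rw [h, lastBelow_zero]
  · exact (lastBelow_lt h).le

theorem ov_le_left (s t : List ℕ) : ov s t ≤ s.length := (ov_le_min s t).trans (min_le_left _ _)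

theorem ov_le_right (s t : List ℕ) : ov s t ≤ t.length := (ov_le_min s t).trans (min_le_right _ _)

theorem ov_lt {s t : List ℕ} (hs : s ≠ []) (ht : t ≠ []) : ov s t < min s.length t.length := by
  have h1 := List.length_pos_iff.2 hs
  have h2 := List.length_pos_iff.2 ht
  exact lastBelow_lt (lt_min h1 h2)

theorem le_ov {s t : List ℕ} {k : ℕ} (hk : k < min s.length t.length) (h : Ovl s t k) :
    k ≤ ov s t :=
  le_lastBelow hk (by simpa using h)

theorem ov_pt {α : Type} [PEnc α] {f g : α → List ℕ} (hf : PT f) (hg : PT g) :
    PT (fun a => ov (f a) (g a)) := by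
  unfold ov lastBelow
  have h : PT (fun a => (List.range (min (f a).length (g a).length)).filter
      (fun k => decide (Ovl (f a) (g a) k))) := by
    refine PT.filterRange (n := fun a => min (f a).length (g a).length)
      (f := fun a k => decide (Ovl (f a) (g a) k)) (by fun_prop) ?_ ?_
    · exact PB.of_le (PT.pb_length hf) fun a => min_le_left _ _
    · unfold Ovl
      exact PT.eq (PT.drop (PT.natSub (PT.length (PT.comp hf (PT.fst PT.id)))
        (PT.unVal (PT.snd PT.id))) (PT.comp hf (PT.fst PT.id)))
        (PT.take (PT.unVal (PT.snd PT.id)) (PT.comp hg (PT.fst PT.id)))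
  exact PT.headD (PT.reverse h) (PT.const 0)

/-! ## merging along an order -/

/-- what is appended to a string ending in `s` -/
def mergeFrom : List ℕ → List (List ℕ) → List ℕ
  | _, [] => []
  | s, t :: L => t.drop (ov s t) ++ mergeFrom t L

/-- the strings of `L` glued with maximal overlaps -/
def merge : List (List ℕ) → List ℕ
  | [] => []
  | s :: L => s ++ mergeFrom s L

/-- cost of a chain after the string `s` -/
def chainCost : List ℕ → List (List ℕ) → ℕ
  | _, [] => 0
  | s, t :: L => (t.length - ov s t) + chainCost t L

/-- length of the merge -/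
def tourLen : List (List ℕ) → ℕ
  | [] => 0
  | s :: L => s.length + chainCost s L

theorem length_mergeFrom (s : List ℕ) (L : List (List ℕ)) :
    (mergeFrom s L).length = chainCost s L := by
  induction L generalizing s with
  | nil => rfl
  | cons t L ih => simp [mergeFrom, chainCost, ih]

theorem length_merge (L : List (List ℕ)) : (merge L).length = tourLen L := by
  cases L with
  | nil => rfl
  | cons s L => simp [merge, tourLen, length_mergeFrom]

theorem glue (s t : List ℕ) : ∃ u, s ++ t.drop (ov s t) = u ++ t := by
  refine ⟨s.take (s.length - ov s t), ?_⟩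
  have h := ovl_ov s t
  unfold Ovl at h
  calc s ++ t.drop (ov s t)
      = (s.take (s.length - ov s t) ++ s.drop (s.length - ov s t)) ++ t.drop (ov s t) := by
        rw [List.take_append_drop]
    _ = s.take (s.length - ov s t) ++ t := by rw [h, List.append_assoc, List.take_append_drop]

theorem infix_mergeFrom (s : List ℕ) (L : List (List ℕ)) :
    ∀ x ∈ s :: L, x <:+: s ++ mergeFrom s L := by
  induction L generalizing s with
  | nil =>
    intro x hx
    rw [List.mem_singleton] at hx
    subst hx
    simp [mergeFrom]
  | cons t L ih =>
    intro x hx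
    rcases List.mem_cons.1 hx with h | h
    · subst h
      exact (List.prefix_append _ _).isInfix
    · obtain ⟨u, hu⟩ := glue s t
      have h1 : s ++ mergeFrom s (t :: L) = u ++ (t ++ mergeFrom t L) := by
        rw [mergeFrom, ← List.append_assoc, hu, List.append_assoc]
      rw [h1]
      exact (ih t x h).trans (List.suffix_append _ _).isInfix

theorem infix_merge (L : List (List ℕ)) (x : List ℕ) (hx : x ∈ L) : x <:+: merge L := by
  cases L with
  | nil => simp at hx
  | cons s L => exact infix_mergeFrom s L x hx

/-- merging as a fold: state = (last string, reversed pieces) -/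
def mergeStep (p : List ℕ × List ℕ) (t : List ℕ) : List ℕ × List ℕ :=
  (t, p.2 ++ t.drop (ov p.1 t))

theorem merge_fold_aux (L : List (List ℕ)) (s acc : List ℕ) :
    (L.foldl mergeStep (s, acc)).2 = acc ++ mergeFrom s L := by
  induction L generalizing s acc with
  | nil => simp [mergeFrom]
  | cons t L ih => rw [List.foldl_cons, mergeStep, ih, mergeFrom, List.append_assoc]

theorem ov_nil (t : List ℕ) : ov [] t = 0 := by
  have := ov_le_left [] t
  simpa using this

theorem merge_eq_fold (L : List (List ℕ)) : merge L = (L.foldl mergeStep ([], [])).2 := by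
  rw [merge_fold_aux]
  cases L with
  | nil => rfl
  | cons s L => simp [merge, mergeFrom, ov_nil]

theorem sz_drop_le {β : Type} [PEnc β] (l : List β) (k : ℕ) : sz (l.drop k) ≤ sz l := by
  induction l generalizing k with
  | nil => simp
  | cons a l ih =>
    cases k with
    | zero => simp
    | succ k =>
      rw [List.drop_succ_cons, sz_cons]
      have := ih k
      omega

theorem sz_append_le {β : Type} [PEnc β] (l l' : List β) : sz (l ++ l') ≤ sz l + sz l' := by
  induction l with
  | nil => simp
  | cons a l ih =>
    rw [List.cons_append, sz_cons, sz_cons]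
    omega

theorem merge_pt {α : Type} [PEnc α] {f : α → List (List ℕ)} (hf : PT f) :
    PT (fun a => merge (f a)) := by
  simp only [merge_eq_fold]
  refine PT.snd (f := fun a => (f a).foldl mergeStep (([] : List ℕ), ([] : List ℕ))) ?_
  refine PT.foldl_inv (l := f) (z := fun _ => (([] : List ℕ), ([] : List ℕ)))
    (s := fun _ c t => mergeStep c t) hf (by fun_prop) ?_
    (fun a => (2 * sz (f a) + 2) + (f a).length * sz (f a)) ?_
    (fun a i c => sz c.1 ≤ sz (f a) ∧ sz c.2 ≤ 1 + i * sz (f a)) ?_ ?_ ?_
  · unfold mergeStep
    refine PT.pair (by fun_prop) (PT.append (by fun_prop) (PT.drop (ov_pt ?_ ?_) ?_))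
    · fun_prop
    · fun_prop
    · fun_prop
  · exact (((PB.const 2).mul (PT.pb_sz hf)).add (PB.const 2)).add
      ((PT.pb_length hf).mul (PT.pb_sz hf))
  · intro a
    simp
  · intro a i c x hx hc
    have h2 : sz x ≤ sz (f a) := sz_le_of_mem (List.mem_of_getElem? hx)
    refine ⟨h2, ?_⟩
    have h3 := sz_append_le c.2 (x.drop (ov c.1 x))
    have h4 := sz_drop_le x (ov c.1 x)
    have h5 : (i + 1) * sz (f a) = i * sz (f a) + sz (f a) := by ring
    show sz (c.2 ++ x.drop (ov c.1 x)) ≤ _
    omega
  · intro a i c hi hc
    have := Nat.mul_le_mul_right (sz (f a)) hi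
    rw [sz_prod]
    omega

/-! ## the order given by a superstring -/

theorem chain_lb (T' : List ℕ) (pos : List ℕ → ℕ) (L : List (List ℕ)) (s : List ℕ)
    (hocc : ∀ x ∈ s :: L, pos x + x.length ≤ T'.length ∧ (T'.drop (pos x)).take x.length = x)
    (hff : (s :: L).Pairwise fun a b => ¬ a <:+: b ∧ ¬ b <:+: a)
    (hpos : (s :: L).Pairwise fun a b => pos a ≤ pos b) :
    chainCost s L + (pos s + s.length) ≤ T'.length := by
  induction L generalizing s with
  | nil =>
    have := (hocc s (by simp)).1
    simpa [chainCost] using this
  | cons t L ih =>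
    have h1 := ih t (fun x hx => hocc x (List.mem_cons_of_mem _ hx)) (List.pairwise_cons.1 hff).2
      (List.pairwise_cons.1 hpos).2
    have hst := (List.pairwise_cons.1 hff).1 t (by simp)
    have hp : pos s ≤ pos t := (List.pairwise_cons.1 hpos).1 t (by simp)
    obtain ⟨hs1, hs2⟩ := hocc s (by simp)
    obtain ⟨ht1, ht2⟩ := hocc t (by simp)
    have key : pos s + s.length ≤ pos t + ov s t := by
      by_contra hcon
      push Not at hcon
      have hk : pos t < pos s + s.length := by omega
      obtain ⟨k, hk1⟩ : ∃ k, pos s + s.length = pos t + k := ⟨pos s + s.length - pos t, by omega⟩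
      have hks : k ≤ s.length := by omega
      have hdrop : ∀ j, s.drop j = (T'.drop (pos s + j)).take (s.length - j) := by
        intro j
        have h2 := congrArg (List.drop j) hs2
        rw [List.drop_take, List.drop_drop] at h2
        exact h2.symm
      have htake : ∀ j, j ≤ t.length → t.take j = (T'.drop (pos t)).take j := by
        intro j hj
        have h2 := congrArg (List.take j) ht2
        rw [List.take_take, min_eq_left hj] at h2
        exact h2.symm
      -- `t` is not inside `s`
      have hkt : k < t.length := by
        by_contra hge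
        push Not at hge
        apply hst.2
        have h2 : (s.drop (pos t - pos s)).take t.length = t := by
          rw [hdrop, List.take_take, show pos s + (pos t - pos s) = pos t by omega,
            min_eq_left (by omega), ht2]
        rw [← h2]
        exact ((List.take_prefix _ _).isInfix).trans ((List.drop_suffix _ _).isInfix)
      have hks' : k < s.length := by
        by_contra hge
        have hk2 : k = s.length := by omega
        have hpp : pos s = pos t := by omega
        apply hst.1
        have h2 : t.take s.length = s := by
          rw [htake _ (by omega), ← hpp, hs2]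
        rw [← h2]
        exact (List.take_prefix _ _).isInfix
      have hO : Ovl s t k := by
        unfold Ovl
        rw [hdrop, htake k hkt.le, show pos s + (s.length - k) = pos t by omega,
          show s.length - (s.length - k) = k by omega]
      have := le_ov (lt_min hks' hkt) hO
      omega
    have h3 := ov_le_right s t
    rw [chainCost]
    omega

/-- **lower bound**: a superstring gives an order -/
theorem tour_lb {S : List (List ℕ)} (hS : FF S) (T' : List ℕ) (hT : ∀ s ∈ S, s <:+: T') :
    ∃ L : List (List ℕ), L.Perm S ∧ tourLen L ≤ T'.length := by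
  classical
  have hex : ∀ s : List ℕ, ∃ k, s ∈ S → k + s.length ≤ T'.length ∧ (T'.drop k).take s.length = s := by
    intro s
    by_cases hs : s ∈ S
    · obtain ⟨p, q, h⟩ := hT s hs
      refine ⟨p.length, fun _ => ⟨?_, ?_⟩⟩
      · rw [← h]; simp only [List.length_append]; omega
      · rw [← h, List.append_assoc]; simp
    · exact ⟨0, fun h => absurd h hs⟩
  choose pos hpos using hex
  set L := S.insertionSort (fun a b => pos a ≤ pos b) with hL
  have hperm : L.Perm S := List.perm_insertionSort _ _
  have hsorted : L.Pairwise (fun a b => pos a ≤ pos b) := by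
    have : Std.Total (fun a b : List ℕ => pos a ≤ pos b) := ⟨fun a b => le_total _ _⟩
    have : IsTrans (List ℕ) (fun a b : List ℕ => pos a ≤ pos b) := ⟨fun a b c => le_trans⟩
    exact List.pairwise_insertionSort _ _
  have hff : L.Pairwise fun a b => ¬ a <:+: b ∧ ¬ b <:+: a :=
    (hperm.pairwise_iff (fun h => ⟨h.2, h.1⟩)).2 hS.1
  refine ⟨L, hperm, ?_⟩
  rcases hLe : L with _ | ⟨s, L'⟩
  · simp [tourLen]
  · rw [hLe] at hsorted hff
    have hmem : ∀ x ∈ s :: L', x ∈ S := fun x hx => by
      rw [← hLe] at hx
      exact hperm.mem_iff.1 hx
    have h1 := chain_lb T' pos L' s (fun x hx => hpos x (hmem x hx)) hff hsorted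
    rw [tourLen]
    omega

/-- **wrapper 3**: a polynomial time order is enough -/
theorem wrap3 (alg : List (List ℕ) → List (List ℕ)) (hpt : PT alg)
    (h1 : ∀ S : List (List ℕ), FF S → (alg S).Perm S)
    (h2 : ∀ S : List (List ℕ), FF S → ∀ L : List (List ℕ), L.Perm S →
      tourLen (alg S) ≤ 2 * tourLen L) :
    ∃ f : List Bool → List Bool, Crest.Complexity.PolyTime f ∧
      ∀ S : List (List ℕ), ∃ T : List ℕ,
        f (natCode S.length ++ (S.map listCode).flatten) = listCode T ∧
        (∀ s ∈ S, s <:+: T) ∧
        ∀ T' : List ℕ, (∀ s ∈ S, s <:+: T') → T.length ≤ 2 * T'.length := by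
  refine wrap2 (fun S => merge (alg S)) (merge_pt hpt) ?_ ?_
  · intro S hS s hs
    exact infix_merge _ s ((h1 S hS).mem_iff.2 hs)
  · intro S hS T' hT
    obtain ⟨L, hL, hle⟩ := tour_lb hS T' hT
    rw [length_merge]
    exact (h2 S hS L hL).trans (Nat.mul_le_mul_left 2 hle)

end Crest.Agent.R287
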