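import Crest.Agent.Lib.PolyTime.Api

/-!
# Row 287 (S0432): reading and writing the codes (helper85)

`wrap`: from a polynomial time map `alg : List (List ℕ) → List ℕ` to the map on bit strings.
-/

set_option autoImplicit false

namespace Crest.Agent.R287

open Crest.Enc Crest.Agent.PolyT PEnc

/-! ## the stream of numbers -/

/-- one step of the tokenizer -/
def tokStep (p : List Bool × List ℕ) : List Bool × List ℕ :=
  if p.1.isEmpty then p else ((readNat p.1).2, (readNat p.1).1 :: p.2)

/-- reads `w` as a concatenation of `natCode`s (the result is in reverse order) -/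
def tokens (w : List Bool) : List ℕ :=
  (w.foldl (fun c _ => tokStep c) (w, [])).2.reverse

theorem readNat_snd_length (w : List Bool) : (readNat w).2.length ≤ w.length := by
  match w with
  | [] => simp [readNat]
  | [true] => simp [readNat]
  | [false] => simp [readNat]
  | true :: b :: w =>
    have := readNat_snd_length w
    simp only [readNat, List.length_cons]
    omega
  | false :: _ :: w =>
    simp only [readNat, List.length_cons]
    omega

theorem readNat_fst_sz (w : List Bool) : sz (readNat w).1 ≤ w.length := by
  match w with
  | [] => simp [readNat, sz_nat]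
  | [true] => simp [readNat, sz_nat]
  | [false] => simp [readNat, sz_nat]
  | true :: b :: w =>
    have h := readNat_fst_sz w
    rw [sz_nat_le_iff] at h ⊢
    simp only [readNat, List.length_cons]
    have hb : b.toNat ≤ 1 := by cases b <;> simp
    calc b.toNat + 2 * (readNat w).1 < 2 ^ (w.length + 1) := by rw [pow_succ]; omega
      _ ≤ 2 ^ (w.length + 1 + 1) := Nat.pow_le_pow_right (by norm_num) (by omega)
  | false :: _ :: w => simp [readNat, sz_nat]

theorem sz_listBool (l : List Bool) : sz l = 3 * l.length := by
  induction l with
  | nil => rfl
  | cons a l ih => rw [sz_cons, ih]; simp; ring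

theorem tokens_pt {α : Type} [PEnc α] {f : α → List Bool} (hf : PT f) :
    PT (fun a => tokens (f a)) := by
  unfold tokens
  refine PT.reverse (PT.snd ?_)
  refine PT.foldl_inv (l := f) (z := fun a => (f a, ([] : List ℕ)))
    (s := fun _ c _ => tokStep c) hf (by fun_prop) ?_
    (fun a => 2 * (3 * (f a).length) + 1 + (f a).length * (2 * (f a).length + 1))
    ?_ (fun a i c => c.1.length ≤ (f a).length ∧ sz c.2 ≤ i * (2 * (f a).length + 1)) ?_ ?_ ?_
  · unfold tokStep
    fun_prop
  · have h := PT.pb_length hf
    exact (((PB.const 2).mul ((PB.const 3).mul h)).add (PB.const 1)).add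
      (h.mul (((PB.const 2).mul h).add (PB.const 1)))
  · intro a; simp
  · intro a i c x _ hc
    unfold tokStep
    split_ifs with h0
    · refine ⟨hc.1, hc.2.trans (Nat.mul_le_mul_right _ (Nat.le_succ i))⟩
    · refine ⟨(readNat_snd_length _).trans hc.1, ?_⟩
      have h1 := readNat_fst_sz c.1
      simp only [sz_cons]
      have h2 := hc.1
      have h3 := hc.2
      have h4 : (i + 1) * (2 * (f a).length + 1) =
        i * (2 * (f a).length + 1) + (2 * (f a).length + 1) := by ring
      omega
  · intro a i c hi hc
    rw [sz_prod, sz_listBool]
    have h1 := hc.1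
    have h2 : i * (2 * (f a).length + 1) ≤ (f a).length * (2 * (f a).length + 1) :=
      Nat.mul_le_mul_right _ hi
    have h3 := hc.2
    omega

theorem natCode_length_pos (n : ℕ) : 1 ≤ (natCode n).length := by
  unfold natCode; simp

/-- the code of a list of numbers without its length -/
def natCodes (l : List ℕ) : List Bool := (l.map natCode).flatten

theorem natCodes_cons (a : ℕ) (l : List ℕ) : natCodes (a :: l) = natCode a ++ natCodes l := rfl

theorem natCodes_append (l l' : List ℕ) : natCodes (l ++ l') = natCodes l ++ natCodes l' := by
  simp [natCodes]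

theorem length_le_natCodes (l : List ℕ) : l.length ≤ (natCodes l).length := by
  induction l with
  | nil => simp
  | cons a l ih =>
    rw [natCodes_cons, List.length_append, List.length_cons]
    have := natCode_length_pos a
    omega

theorem tokStep_iter (l acc : List ℕ) (x : List Bool) (k : ℕ) (hk : l.length ≤ k)
    (hx : x.length = k) :
    x.foldl (fun c _ => tokStep c) (natCodes l, acc) = ([], l.reverse ++ acc) := by
  induction l generalizing acc x k with
  | nil =>
    clear hk hx
    induction x with
    | nil => rfl
    | cons b x ih => rw [List.foldl_cons]; exact ih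
  | cons a l ih =>
    cases x with
    | nil => simp at hx; subst hx; simp at hk
    | cons b x =>
      rw [List.foldl_cons]
      have e : tokStep (natCodes (a :: l), acc) = (natCodes l, a :: acc) := by
        unfold tokStep
        have h1 : (natCodes (a :: l)).isEmpty = false := by
          have := length_le_natCodes (a :: l)
          cases h : natCodes (a :: l) with
          | nil => rw [h] at this; simp at this
          | cons => rfl
        simp only [h1]
        rw [natCodes_cons, readNat_natCode]
        rfl
      rw [e, ih (a :: acc) x (k - 1) (by simp at hk; omega) (by simp at hx; omega)]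
      simp

theorem tokens_natCodes (l : List ℕ) : tokens (natCodes l) = l := by
  unfold tokens
  rw [tokStep_iter l [] (natCodes l) _ (length_le_natCodes l) rfl]
  simp

/-! ## grouping into strings -/

/-- one step of the grouping -/
def grpStep (p : List ℕ × List (List ℕ)) : List ℕ × List (List ℕ) :=
  if p.1.isEmpty then p else
    (p.1.tail.drop (p.1.headD 0), (p.1.tail.take (p.1.headD 0)) :: p.2)

/-- groups `len, entries, len, entries, ...` into a list of lists -/
def group (l : List ℕ) : List (List ℕ) :=
  (l.foldl (fun c _ => grpStep c) (l, [])).2.reverse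

theorem group_pt {α : Type} [PEnc α] {f : α → List ℕ} (hf : PT f) :
    PT (fun a => group (f a)) := by
  unfold group
  refine PT.reverse (PT.snd ?_)
  refine PT.foldl_inv (l := f) (z := fun a => (f a, ([] : List (List ℕ))))
    (s := fun _ c _ => grpStep c) hf (by fun_prop) ?_
    (fun a => 2 * sz (f a) + 1 + (f a).length * (2 * sz (f a) + 1))
    ?_ (fun a i c => sz c.1 ≤ sz (f a) ∧ sz c.2 ≤ i * (2 * sz (f a) + 1)) ?_ ?_ ?_
  · unfold grpStep
    fun_prop
  · have h := PT.pb_length hf
    have h' := PT.pb_sz hf
    exact (((PB.const 2).mul h').add (PB.const 1)).add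
      (h.mul (((PB.const 2).mul h').add (PB.const 1)))
  · intro a; simp
  · intro a i c x _ hc
    unfold grpStep
    split_ifs with h0
    · refine ⟨hc.1, hc.2.trans (Nat.mul_le_mul_right _ (Nat.le_succ i))⟩
    · have hta : sz (c.1.tail.take (c.1.headD 0)) + sz (c.1.tail.drop (c.1.headD 0)) ≤ sz c.1 := by
        rw [← sz_append, List.take_append_drop]
        cases c.1 with
        | nil => simp
        | cons b t => simp
      refine ⟨by show sz (c.1.tail.drop (c.1.headD 0)) ≤ _; omega, ?_⟩
      simp only [sz_cons]
      have h3 := hc.2
      have h2 := hc.1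
      have h4 : (i + 1) * (2 * sz (f a) + 1) = i * (2 * sz (f a) + 1) + (2 * sz (f a) + 1) := by
        ring
      omega
  · intro a i c hi hc
    rw [sz_prod]
    have h1 := hc.1
    have h2 : i * (2 * sz (f a) + 1) ≤ (f a).length * (2 * sz (f a) + 1) :=
      Nat.mul_le_mul_right _ hi
    have h3 := hc.2
    omega

/-- the stream of a family of strings -/
def stream (S : List (List ℕ)) : List ℕ := S.flatMap fun s => s.length :: s

theorem length_le_stream (S : List (List ℕ)) : S.length ≤ (stream S).length := by
  induction S with
  | nil => simp
  | cons s S ih =>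
    have e : stream (s :: S) = (s.length :: s) ++ stream S := rfl
    rw [e, List.length_append, List.length_cons, List.length_cons]
    omega

theorem grpStep_iter (S acc : List (List ℕ)) (x : List ℕ) (k : ℕ) (hk : S.length ≤ k)
    (hx : x.length = k) :
    x.foldl (fun c _ => grpStep c) (stream S, acc) = ([], S.reverse ++ acc) := by
  induction S generalizing acc x k with
  | nil =>
    clear hk hx
    induction x with
    | nil => rfl
    | cons b x ih => rw [List.foldl_cons]; exact ih
  | cons s S ih =>
    cases x with
    | nil => simp at hx; subst hx; simp at hk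
    | cons b x =>
      rw [List.foldl_cons]
      have e : grpStep (stream (s :: S), acc) = (stream S, s :: acc) := by
        have e1 : stream (s :: S) = s.length :: (s ++ stream S) := rfl
        unfold grpStep
        rw [e1]
        simp
      rw [e, ih (s :: acc) x (k - 1) (by simp at hk; omega) (by simp at hx; omega)]
      simp

theorem group_stream (S : List (List ℕ)) : group (stream S) = S := by
  unfold group
  rw [grpStep_iter S [] (stream S) _ (length_le_stream S) rfl]
  simp

theorem listCode_eq (l : List ℕ) : listCode l = natCodes (l.length :: l) := rfl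

theorem flatten_listCode (S : List (List ℕ)) : (S.map listCode).flatten = natCodes (stream S) := by
  induction S with
  | nil => rfl
  | cons s S ih =>
    have e : stream (s :: S) = (s.length :: s) ++ stream S := rfl
    rw [e, natCodes_append, List.map_cons, List.flatten_cons, ih, listCode_eq]

/-- reading a family -/
def readFam (w : List Bool) : List (List ℕ) := group (tokens w).tail

theorem readFam_code (S : List (List ℕ)) :
    readFam (natCode S.length ++ (S.map listCode).flatten) = S := by
  unfold readFam
  rw [flatten_listCode, ← natCodes_cons, tokens_natCodes, List.tail_cons, group_stream]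

theorem listCode_pt {α : Type} [PEnc α] {f : α → List ℕ} (hf : PT f) :
    PT (fun a => listCode (f a)) := by
  unfold listCode
  refine PT.append (PT.natCode (PT.length hf)) (PT.flatten (PT.map (f := fun _ b => natCode b) hf ?_))
  fun_prop

/-- **the wrapper**: a polynomial time algorithm on families of strings is enough -/
theorem wrap (alg : List (List ℕ) → List ℕ) (hpt : PT alg)
    (h1 : ∀ S : List (List ℕ), ∀ s ∈ S, s <:+: alg S)
    (h2 : ∀ (S : List (List ℕ)) (T' : List ℕ), (∀ s ∈ S, s <:+: T') →
      (alg S).length ≤ 2 * T'.length) :
    ∃ f : List Bool → List Bool, Crest.Complexity.PolyTime f ∧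
      ∀ S : List (List ℕ), ∃ T : List ℕ,
        f (natCode S.length ++ (S.map listCode).flatten) = listCode T ∧
        (∀ s ∈ S, s <:+: T) ∧
        ∀ T' : List ℕ, (∀ s ∈ S, s <:+: T') → T.length ≤ 2 * T'.length := by
  refine ⟨fun w => listCode (alg (readFam w)), ?_, ?_⟩
  · apply PT.polyTime
    refine listCode_pt (PT.comp hpt ?_)
    unfold readFam
    exact group_pt (PT.tail (tokens_pt PT.id))
  · intro S
    refine ⟨alg S, ?_, h1 S, h2 S⟩
    show listCode (alg (readFam _)) = _
    rw [readFam_code]

end Crest.Agent.R287
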